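import Crest.Agent.R251.Top.Ch

/-!
# Row 251, topology: the group ring acts on the chains of a `G`-space
-/

set_option autoImplicit false

open Set Matrix

namespace Crest.Agent.R251.Top

noncomputable section

variable {G : Type} [Group G] {E E' : Type} [TopologicalSpace E] [MulAction G E] [ContinuousConstSMul G E]
  [TopologicalSpace E'] [MulAction G E'] [ContinuousConstSMul G E']

/-- translation by a group element -/
def act (g : G) : C(E, E) := ⟨fun e => g • e, continuous_const_smul g⟩

variable (G E) in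
/-- the representation on chains -/
def rho : G →* Module.End ℤ (Ch E) where
  toFun g := mp (act g)
  map_one' := LinearMap.ext fun c => by
    have : (act (1 : G) : C(E, E)) = ContinuousMap.id E := by ext e; exact one_smul G e
    rw [this, mp_id]; rfl
  map_mul' g h := LinearMap.ext fun c => by
    have : (act (g * h) : C(E, E)) = (act g).comp (act h) := by ext e; exact mul_smul g h e
    rw [this, ← mp_mp]; rfl

instance : Module (ZG G) (Ch E) := Module.compHom (Ch E) (rz (rho G E))

theorem og_smul (g : G) (c : Ch E) : og g • c = mp (act g) c := by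
  change rz (rho G E) (og g) c = _
  rw [rz_og]; rfl

/-- induction over the group ring -/
theorem zg_induction {P : ZG G → Prop} (h1 : ∀ g, P (og g)) (h0 : P 0) (hadd : ∀ r r', P r → P r' → P (r + r'))
    (hneg : ∀ r, P r → P (-r)) (r : ZG G) : P r := by
  induction r using MonoidAlgebra.induction_on with
  | of g => exact h1 g
  | add a b ha hb => exact hadd a b ha hb
  | smul k a ha =>
    induction k using Int.induction_on with
    | zero => rwa [zero_smul]
    | succ i hi => rw [add_smul, one_smul]; exact hadd _ _ hi ha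
    | pred i hi => rw [sub_smul, one_smul, sub_eq_add_neg]; exact hadd _ _ hi (hneg _ ha)

theorem smul_zsmul (r : ZG G) (n : ℤ) (c : Ch E) : r • (n • c) = n • (r • c) := by
  exact map_zsmul (DistribSMul.toAddMonoidHom (Ch E) r) n c

theorem zsmul_smul (r : ZG G) (n : ℤ) (c : Ch E) : (n • r) • c = n • (r • c) := by
  exact map_zsmul ((smulAddHom (ZG G) (Ch E)).flip c) n r

/-- an additive map commuting with the group elements commutes with the group ring -/
theorem act_comm {M N : Type} [AddCommGroup M] [Module (ZG G) M] [AddCommGroup N] [Module (ZG G) N]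
    (f : M →ₗ[ℤ] N) (h : ∀ (g : G) c, f (og g • c) = og g • f c) (r : ZG G) (c : M) :
    f (r • c) = r • f c := by
  induction r using zg_induction with
  | h1 g => exact h g c
  | h0 => rw [zero_smul, zero_smul, map_zero]
  | hadd a b ha hb => rw [add_smul, add_smul, map_add, ha, hb]
  | hneg a ha => rw [neg_smul, neg_smul, map_neg, ha]

theorem bd_smul (r : ZG G) (c : Ch E) : bd (r • c) = r • bd c := by
  exact act_comm bd (fun g c => by rw [og_smul, og_smul, bd_mp]) r c

theorem pr_smul (k : ℕ) (r : ZG G) (c : Ch E) : pr k (r • c) = r • pr k c := by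
  exact act_comm (pr k) (fun g c => by rw [og_smul, og_smul, pr_mp]) r c

theorem smul_ems (r : ZG G) : r • ems E = eps G r • ems E := by
  induction r using zg_induction with
  | h1 g => rw [og_smul, mp_ems, eps_og, one_smul]
  | h0 => rw [zero_smul, map_zero, zero_smul]
  | hadd a b ha hb => rw [add_smul, map_add, add_smul, ha, hb]
  | hneg a ha => rw [neg_smul, map_neg, neg_smul, ha]

theorem smul_mem_Sup {A : Set E} (hA : ∀ (g : G) e, e ∈ A → g • e ∈ A) (r : ZG G) {c : Ch E}
    (h : c ∈ Sup A) : r • c ∈ Sup A := by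
  induction r using zg_induction with
  | h1 g => rw [og_smul]; exact mp_mem_Sup (fun e he => hA g e he) h
  | h0 => rw [zero_smul]; exact zero_mem _
  | hadd a b ha hb => rw [add_smul]; exact add_mem ha hb
  | hneg a ha => rw [neg_smul]; exact neg_mem ha

theorem smul_mem_Deg {k : ℕ} (r : ZG G) {c : Ch E} (h : c ∈ Deg k) : r • c ∈ Deg k := by
  induction r using zg_induction with
  | h1 g => rw [og_smul]; exact mp_mem_Deg _ h
  | h0 => rw [zero_smul]; exact zero_mem _
  | hadd a b ha hb => rw [add_smul]; exact add_mem ha hb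
  | hneg a ha => rw [neg_smul]; exact neg_mem ha

theorem mp_smul {f : C(E, E')} (hf : ∀ (g : G) e, f (g • e) = g • f e) (r : ZG G) (c : Ch E) :
    mp f (r • c) = r • mp f c := by
  refine act_comm (mp f) (fun g c => ?_) r c
  rw [og_smul, og_smul, mp_mp, mp_mp]
  have : f.comp (act g) = (act g).comp f := ContinuousMap.ext fun e => hf g e
  rw [this]

/-- linear combinations with coefficients in the group ring -/
def lc {J : Type} [Fintype J] (c : J → Ch E) : (J → ZG G) →ₗ[ZG G] Ch E := Fintype.linearCombination (ZG G) c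

theorem lc_apply {J : Type} [Fintype J] (c : J → Ch E) (x : J → ZG G) : lc c x = ∑ j, x j • c j := rfl

theorem lc_single {J : Type} [Fintype J] [DecidableEq J] (c : J → Ch E) (j : J) (r : ZG G) :
    lc c (Pi.single j r) = r • c j := by
  exact Fintype.linearCombination_apply_single _ _ _ _

theorem lc_vecMul {J J' : Type} [Fintype J] [Fintype J'] (c : J' → Ch E) (m : Matrix J J' (ZG G))
    (x : J → ZG G) : lc c (x ᵥ* m) = lc (fun j => lc c (m j)) x := by
  simp only [lc_apply, Matrix.vecMul, dotProduct, Finset.sum_smul, Finset.smul_sum, mul_smul]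
  exact Finset.sum_comm

theorem bd_lc {J : Type} [Fintype J] (c : J → Ch E) (x : J → ZG G) :
    bd (lc c x) = lc (fun j => bd (c j)) x := by
  simp only [lc_apply, map_sum, bd_smul]

theorem mp_lc {f : C(E, E')} (hf : ∀ (g : G) e, f (g • e) = g • f e) {J : Type} [Fintype J]
    (c : J → Ch E) (x : J → ZG G) : mp f (lc c x) = lc (fun j => mp f (c j)) x := by
  simp only [lc_apply, map_sum, mp_smul hf]

theorem lc_mem_Sup {A : Set E} (hA : ∀ (g : G) e, e ∈ A → g • e ∈ A) {J : Type} [Fintype J] {c : J → Ch E}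
    (h : ∀ j, c j ∈ Sup A) (x : J → ZG G) : lc c x ∈ Sup A := by
  rw [lc_apply]
  exact Submodule.sum_mem _ fun j _ => smul_mem_Sup hA _ (h j)

theorem lc_mem_Deg {k : ℕ} {J : Type} [Fintype J] {c : J → Ch E} (h : ∀ j, c j ∈ Deg k) (x : J → ZG G) :
    lc c x ∈ Deg k := by
  rw [lc_apply]
  exact Submodule.sum_mem _ fun j _ => smul_mem_Deg _ (h j)

/-- a linear map out of row vectors is a matrix -/
theorem map_lc {J J' : Type} [Fintype J] (b : Ch E →ₗ[ZG G] (J' → ZG G)) (c : J → Ch E) (x : J → ZG G) :
    b (lc c x) = x ᵥ* (Matrix.of fun j => b (c j)) := by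
  funext j'
  simp only [lc_apply, map_sum, map_smul, Finset.sum_apply, Pi.smul_apply, smul_eq_mul, Matrix.vecMul,
    dotProduct, Matrix.of_apply]

/-- For a free action the simplices with `k + 1` vertices are freely permuted, so an equivariant relation with values can be
turned into an equivariant linear map (choose a representative in each orbit). -/
theorem exists_equivariant (hfree : ∀ (g : G) (e : E), g • e = e → g = 1) {N : Type} [AddCommGroup N]
    [Module (ZG G) N] (k : ℕ) (P : C(Dl (k + 1), E) → N → Prop)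
    (hP : ∀ (g : G) σ y, P σ y → P ((act g).comp σ) (og g • y)) (hex : ∀ σ, ∃ y, P σ y) :
    ∃ F : Ch E →ₗ[ZG G] N, (∀ σ, P σ (F (sx σ))) ∧
      ∀ m (σ : C(Dl m, E)), m ≠ k + 1 → F (sx σ) = 0 := by
  classical
  choose y hy using hex
  have hmul : ∀ (g h : G) {m : ℕ} (σ : C(Dl m, E)), (act g).comp ((act h).comp σ) = (act (g * h)).comp σ :=
    fun g h m σ => ContinuousMap.ext fun t => (mul_smul g h (σ t)).symm
  have hone : ∀ {m : ℕ} (σ : C(Dl m, E)), (act (1 : G)).comp σ = σ :=
    fun σ => ContinuousMap.ext fun t => one_smul G (σ t)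
  let s : Setoid C(Dl (k + 1), E) :=
    { r := fun σ τ => ∃ g : G, (act g).comp σ = τ
      iseqv := ⟨fun σ => ⟨1, hone σ⟩,
        fun ⟨g, hg⟩ => ⟨g⁻¹, by rw [← hg, hmul, inv_mul_cancel, hone]⟩,
        fun ⟨g, hg⟩ ⟨h, hh⟩ => ⟨h * g, by rw [← hmul, hg, hh]⟩⟩ }
  let rep : C(Dl (k + 1), E) → C(Dl (k + 1), E) := fun σ => (Quotient.mk s σ).out
  have hrep : ∀ σ, ∃ g : G, (act g).comp (rep σ) = σ := fun σ => Quotient.mk_out (s := s) σ
  choose γ hγ using hrep
  have hrep' : ∀ (g : G) σ, rep ((act g).comp σ) = rep σ := fun g σ =>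
    congrArg Quotient.out (Quotient.sound (s := s) ⟨g, rfl⟩).symm
  have hγ' : ∀ (g : G) σ, γ ((act g).comp σ) = g * γ σ := by
    intro g σ
    have h1 := hγ ((act g).comp σ)
    rw [hrep'] at h1
    have h2 : (act (g * γ σ)).comp (rep σ) = (act g).comp σ := by rw [← hmul, hγ]
    have h3 : γ ((act g).comp σ) • rep σ (stdSimplex.vertex 0) =
        (g * γ σ) • rep σ (stdSimplex.vertex 0) := DFunLike.congr_fun (h1.trans h2.symm) _
    have h4 := hfree ((g * γ σ)⁻¹ * γ ((act g).comp σ)) (rep σ (stdSimplex.vertex 0))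
      (by rw [mul_smul, h3, inv_smul_smul])
    exact (inv_mul_eq_one.1 h4).symm
  let f₀ : C(Dl (k + 1), E) → N := fun σ => og (γ σ) • y (rep σ)
  let f : ∀ m, C(Dl m, E) → N := fun m σ => if h : m = k + 1 then f₀ (h ▸ σ) else 0
  have hf : ∀ σ, f (k + 1) σ = f₀ σ := fun σ => dif_pos rfl
  have hf' : ∀ m σ, m ≠ k + 1 → f m σ = 0 := fun m σ h => dif_neg h
  have heq : ∀ (g : G) (c : Ch E), lext f (og g • c) = og g • lext f c := by
    intro g c
    have : (lext f).comp (mp (act g)) =
        (DistribSMul.toAddMonoidHom N (og g)).toIntLinearMap.comp (lext f) := by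
      refine ch_ext fun m σ => ?_
      change lext f (mp (act g) (sx σ)) = og g • lext f (sx σ)
      rw [mp_sx, lext_sx, lext_sx]
      by_cases h : m = k + 1
      · subst h
        rw [hf, hf]
        change og (γ _) • y (rep _) = og g • og (γ σ) • y (rep σ)
        rw [hγ', hrep', fox_og_mul, mul_smul]
      · rw [hf' _ _ h, hf' _ _ h, smul_zero]
    rw [og_smul]
    exact DFunLike.congr_fun this c
  refine ⟨⟨⟨lext f, map_add _⟩, act_comm (lext f) heq⟩, fun σ => ?_, fun m σ h => ?_⟩
  · change P σ (lext f (sx σ))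
    rw [lext_sx, hf]
    have := hP (γ σ) _ _ (hy (rep σ))
    rwa [hγ] at this
  · change lext f (sx σ) = 0
    rw [lext_sx, hf' _ _ h]

end

end Crest.Agent.R251.Top
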