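import Crest.Agent.R251.Top.Sd

/-!
# Row 251, topology: attaching cells

Characteristic maps are defined on a whole normed space `V` and are radially constant outside the unit ball.
-/

set_option autoImplicit false

open Set Metric

local notation "I" => unitInterval

namespace Crest.Agent.R251.Top

noncomputable section

/-- `B` is obtained from `A` by attaching the cells `Φ j` -/
structure Att {X V ι : Type} [TopologicalSpace X] [NormedAddCommGroup V] [NormedSpace ℝ V] (A B : Set X)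
    (Φ : ι → C(V, X)) : Prop where
  sub : A ⊆ B
  mem : ∀ j z, Φ j z ∈ B
  bdry : ∀ j z, 1 ≤ ‖z‖ → Φ j z ∈ A
  rad : ∀ j z (c : ℝ), 1 ≤ ‖z‖ → 1 ≤ c → Φ j (c • z) = Φ j z
  notMem : ∀ j z, ‖z‖ < 1 → Φ j z ∉ A
  inj : ∀ j j' z z', ‖z‖ < 1 → ‖z'‖ < 1 → Φ j z = Φ j' z' → j = j' ∧ z = z'
  cover : ∀ x ∈ B, x ∈ A ∨ ∃ j z, ‖z‖ < 1 ∧ x = Φ j z
  isOpen : ∀ O : Set X, IsOpen ((Subtype.val : A → X) ⁻¹' O) → (∀ j, IsOpen (Φ j ⁻¹' O)) →
    IsOpen ((Subtype.val : B → X) ⁻¹' O)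

variable {X Y V ι : Type} [TopologicalSpace X] [TopologicalSpace Y] [NormedAddCommGroup V] [NormedSpace ℝ V]
  {A B : Set X} {Φ : ι → C(V, X)}

/-- the neighbourhood of `A`: remove the closed half size cells -/
def nb (B : Set X) (Φ : ι → C(V, X)) : Set X := {x | x ∈ B ∧ ∀ j z, ‖z‖ ≤ 1 / 2 → x ≠ Φ j z}

namespace Att

theorem eq_of_eq (h : Att A B Φ) {j j' : ι} {z z' : V} (hz' : ‖z'‖ < 1) (e : Φ j z = Φ j' z') :
    j = j' ∧ z = z' := by
  refine h.inj j j' z z' (lt_of_not_ge fun hz => ?_) hz' e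
  exact h.notMem j' z' hz' (e ▸ h.bdry j z hz)

theorem mem_nb (h : Att A B Φ) (j : ι) (z : V) : Φ j z ∈ nb B Φ ↔ 1 / 2 < ‖z‖ := by
  refine ⟨fun hx => lt_of_not_ge fun hz => hx.2 j z hz rfl, fun hz => ⟨h.mem j z, fun j' z' hz' e => ?_⟩⟩
  obtain ⟨-, rfl⟩ := h.eq_of_eq (hz'.trans_lt (by norm_num)) e
  exact hz.not_ge hz'

theorem sub_nb (h : Att A B Φ) : A ⊆ nb B Φ := by
  exact fun x hx => ⟨h.sub hx, fun j z hz e => h.notMem j z (hz.trans_lt (by norm_num)) (e ▸ hx)⟩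

theorem isOpen_nb (h : Att A B Φ) : IsOpen ((Subtype.val : B → X) ⁻¹' nb B Φ) := by
  refine h.isOpen _ ?_ fun j => ?_
  · rw [eq_univ_of_forall (s := (Subtype.val : A → X) ⁻¹' nb B Φ) fun x => h.sub_nb x.2]
    exact isOpen_univ
  · rw [show Φ j ⁻¹' nb B Φ = {z | 1 / 2 < ‖z‖} from Set.ext (h.mem_nb j)]
    exact isOpen_lt continuous_const continuous_norm

theorem isOpen_image (h : Att A B Φ) (j : ι) {W : Set V} (hW : IsOpen W) (hW1 : W ⊆ ball 0 1) :
    IsOpen ((Subtype.val : B → X) ⁻¹' (Φ j '' W)) := by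
  refine h.isOpen _ ?_ fun j' => ?_
  · rw [eq_empty_of_forall_notMem (s := (Subtype.val : A → X) ⁻¹' (Φ j '' W)) fun x ⟨z, hz, e⟩ =>
      h.notMem j z (mem_ball_zero_iff.1 (hW1 hz)) (e ▸ x.2)]
    exact isOpen_empty
  · by_cases hj : j' = j
    · subst hj
      rwa [show Φ j' ⁻¹' (Φ j' '' W) = W from Set.ext fun z => ⟨fun ⟨w, hw, e⟩ =>
        (h.eq_of_eq (mem_ball_zero_iff.1 (hW1 hw)) e.symm).2 ▸ hw, fun hz => ⟨z, hz, rfl⟩⟩]
    · rw [eq_empty_of_forall_notMem (s := Φ j' ⁻¹' (Φ j '' W)) fun z ⟨w, hw, e⟩ =>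
        hj (h.eq_of_eq (mem_ball_zero_iff.1 (hW1 hw)) e.symm).1]
      exact isOpen_empty

theorem isEmbedding_ball (h : Att A B Φ) (j : ι) :
    Topology.IsEmbedding ((Φ j).comp (incl (ball (0 : V) 1))) := by
  let g : ball (0 : V) 1 → B := fun z => ⟨Φ j z, h.mem j z⟩
  have hg : Topology.IsOpenEmbedding g := by
    refine .of_continuous_injective_isOpenMap (by fun_prop) (fun z z' e => Subtype.ext
      (h.eq_of_eq (mem_ball_zero_iff.1 z'.2) (congrArg Subtype.val e)).2) fun U hU => ?_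
    have h1 := h.isOpen_image j (isOpen_ball.isOpenMap_subtype_val U hU)
      (by rintro _ ⟨z, -, rfl⟩; exact z.2)
    convert h1 using 1
    ext x
    constructor
    · rintro ⟨z, hz, rfl⟩
      exact ⟨z, ⟨z, hz, rfl⟩, rfl⟩
    · rintro ⟨_, ⟨z, hz, rfl⟩, e⟩
      exact ⟨z, hz, Subtype.ext e⟩
  exact Topology.IsEmbedding.subtypeVal.comp hg.isEmbedding

theorem continuous_of (h : Att A B Φ) {Z : Type} [TopologicalSpace Z] (f : B → Z)
    (hA : Continuous fun x : A => f ⟨x, h.sub x.2⟩) (hΦ : ∀ j, Continuous fun z => f ⟨Φ j z, h.mem j z⟩) :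
    Continuous f := by
  refine continuous_def.2 fun O hO => ?_
  have key : ∀ x (hx : x ∈ B), x ∈ Subtype.val '' (f ⁻¹' O) ↔ f ⟨x, hx⟩ ∈ O := fun x hx =>
    Subtype.val_injective.mem_set_image (a := ⟨x, hx⟩)
  rw [← preimage_image_eq (f ⁻¹' O) Subtype.val_injective]
  refine h.isOpen _ ?_ fun j => ?_
  · convert hO.preimage hA using 1
    exact Set.ext fun x => key x (h.sub x.2)
  · convert hO.preimage (hΦ j) using 1
    exact Set.ext fun z => key _ (h.mem j z)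

/-- the expanding homotopy (curry into `C(I, X)` as in `CWComb.W2.continuous_h2`) -/
theorem exists_expand (h : Att A B Φ) : ∃ H : C(I × B, X), (∀ u (x : B), (x : X) ∈ A → H (u, x) = x) ∧
    ∀ u j z, H (u, ⟨Φ j z, h.mem j z⟩) = Φ j ((1 + (u : ℝ)) • z) := by
  classical
  let G : ι → C(V, C(I, X)) := fun j =>
    ContinuousMap.curry ⟨fun p : V × I => Φ j ((1 + (p.2 : ℝ)) • p.1), by fun_prop⟩
  let K : B → C(I, X) := fun x =>
    if hx : ∃ p : ι × V, ‖p.2‖ < 1 ∧ (x : X) = Φ p.1 p.2 then G hx.choose.1 hx.choose.2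
    else ContinuousMap.const I (x : X)
  have hA : ∀ x : B, (x : X) ∈ A → K x = ContinuousMap.const I (x : X) := fun x hx =>
    dif_neg fun ⟨p, hp, e⟩ => h.notMem p.1 p.2 hp (e ▸ hx)
  have hΦ : ∀ j z, K ⟨Φ j z, h.mem j z⟩ = G j z := fun j z => by
    by_cases hz : ‖z‖ < 1
    · have hx : ∃ p : ι × V, ‖p.2‖ < 1 ∧ Φ j z = Φ p.1 p.2 := ⟨(j, z), hz, rfl⟩
      obtain ⟨e1, e2⟩ := h.eq_of_eq hx.choose_spec.1 hx.choose_spec.2
      exact (dif_pos hx).trans (by rw [← e1, ← e2])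
    · rw [hA ⟨_, h.mem j z⟩ (h.bdry j z (not_lt.1 hz))]
      ext u
      exact (h.rad j z _ (not_lt.1 hz) (le_add_of_nonneg_right u.2.1)).symm
  have hK : Continuous K := by
    refine h.continuous_of K ?_ fun j => ?_
    · rw [show (fun x : A => K ⟨x, h.sub x.2⟩) = fun x : A => ContinuousMap.const I (x : X) from
        funext fun x => hA ⟨x, h.sub x.2⟩ x.2]
      exact ContinuousMap.continuous_const'.comp continuous_subtype_val
    · rw [show (fun z => K ⟨Φ j z, h.mem j z⟩) = G j from funext (hΦ j)]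
      exact (G j).continuous
  refine ⟨⟨fun p => K p.2 p.1, by fun_prop⟩, fun u x hx => ?_, fun u j z => ?_⟩
  · exact congrArg (fun φ : C(I, X) => φ u) (hA x hx)
  · exact congrArg (fun φ : C(I, X) => φ u) (hΦ j z)

theorem racyc_nb (h : Att A B Φ) : RAcyc bd (Sup A) (Sup (nb B Φ)) := by
  obtain ⟨H, h1, h2⟩ := h.exists_expand
  let H' : C(I × nb B Φ, X) := H.comp ⟨fun p => (p.1, ⟨p.2, p.2.2.1⟩), by fun_prop⟩
  have key : ∀ (u : I) (x : nb B Φ), ((x : X) ∈ A ∧ H' (u, x) = x) ∨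
      ∃ j z, 1 / 2 < ‖z‖ ∧ (x : X) = Φ j z ∧ H' (u, x) = Φ j ((1 + (u : ℝ)) • z) := by
    rintro u ⟨x, hx⟩
    rcases h.cover x hx.1 with hA | ⟨j, z, -, rfl⟩
    · exact Or.inl ⟨hA, h1 u ⟨x, hx.1⟩ hA⟩
    · exact Or.inr ⟨j, z, (h.mem_nb j z).1 hx, rfl, h2 u j z⟩
  refine racyc_of_deform h.sub_nb H' (fun x => ?_) (fun u x => ?_) (fun x => ?_) fun u x hx => ?_
  · rcases key 0 x with ⟨-, e⟩ | ⟨j, z, -, e, e'⟩
    · exact e
    · rw [e', e]
      simp
  · rcases key u x with ⟨-, e⟩ | ⟨j, z, hz, -, e⟩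
    · exact e ▸ x.2
    · rw [e, h.mem_nb, norm_smul, Real.norm_of_nonneg (add_nonneg zero_le_one u.2.1)]
      nlinarith [u.2.1]
  · rcases key 1 x with ⟨hA, e⟩ | ⟨j, z, hz, -, e⟩
    · exact e ▸ hA
    · rw [e]
      refine h.bdry j _ ?_
      rw [norm_smul, Icc.coe_one, Real.norm_of_nonneg (by norm_num)]
      linarith
  · exact (h1 u ⟨x, x.2.1⟩ hx).symm ▸ hx

/-- transfer along an embedding -/
theorem image (h : Att A B Φ) {f : C(X, Y)} (hf : Topology.IsEmbedding f) :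
    Att (f '' A) (f '' B) (fun j => f.comp (Φ j)) := by
  have key : ∀ (S : Set X) (O : Set Y), IsOpen ((Subtype.val : (f '' S) → Y) ⁻¹' O) ↔
      IsOpen ((Subtype.val : S → X) ⁻¹' (f ⁻¹' O)) := fun S O =>
    ((hf.homeomorphImage S).isOpen_preimage (s := (Subtype.val : (f '' S) → Y) ⁻¹' O)).symm
  refine ⟨image_mono h.sub, fun j z => mem_image_of_mem f (h.mem j z),
    fun j z hz => mem_image_of_mem f (h.bdry j z hz), fun j z c hz hc => congrArg f (h.rad j z c hz hc),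
    fun j z hz hm => h.notMem j z hz (hf.injective.mem_set_image.1 hm),
    fun j j' z z' hz hz' e => h.inj j j' z z' hz hz' (hf.injective e), ?_, fun O h1 h2 => ?_⟩
  · rintro _ ⟨x, hx, rfl⟩
    rcases h.cover x hx with hA | ⟨j, z, hz, rfl⟩
    · exact Or.inl (mem_image_of_mem f hA)
    · exact Or.inr ⟨j, z, hz, rfl⟩
  · exact (key B O).2 (h.isOpen _ ((key A O).1 h1) h2)

/-- the quotient map `A ⊕ (Σ j, V) → X` -/
theorem locallyPathConnectedSpace (h : Att A univ Φ) [LocallyPathConnectedSpace A] :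
    LocallyPathConnectedSpace X := by
  let q : A ⊕ (Σ _ : ι, V) → X := Sum.elim Subtype.val fun p => Φ p.1 p.2
  have hc : Continuous q :=
    continuous_subtype_val.sumElim (continuous_sigma fun j => (Φ j).continuous)
  refine Topology.IsQuotientMap.locallyPathConnectedSpace (f := q)
    ⟨Topology.isCoinducing_iff.2 fun O => ⟨fun hO => ?_, fun hO => hO.preimage hc⟩, fun x => ?_⟩
  swap
  · rcases h.cover x (mem_univ x) with hA | ⟨j, z, -, rfl⟩
    · exact ⟨Sum.inl ⟨x, hA⟩, rfl⟩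
    · exact ⟨Sum.inr ⟨j, z⟩, rfl⟩
  · have h1 := h.isOpen O (hO.preimage continuous_inl) fun j =>
      hO.preimage (continuous_inr.comp (continuous_sigmaMk (σ := fun _ : ι => V) (i := j)))
    exact (Homeomorph.Set.univ X).isOpen_preimage.1 h1

end Att

/-- The model pair: `H(V, V ∖ 0) = H(V, {‖z‖ > 1/2})` (deform by `z ↦ (1 + u / ‖z‖) • z`), then excision to the open ball. -/
theorem exists_model {d : Ch V} (hd : RBasis bd (Sup {z : V | z ≠ 0}) ⊤ (fun _ : Unit => d))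
    (hd' : bd d ∈ Sup {z : V | 1 ≤ ‖z‖}) :
    ∃ d' ∈ Sup (ball (0 : V) 1), d - d' ∈ RB bd (Sup {z : V | 1 / 2 < ‖z‖}) ⊤ ∧
      RBasis bd (Sup ({z : V | 1 / 2 < ‖z‖} ∩ ball 0 1)) (Sup (ball 0 1)) (fun _ : Unit => d') := by
  have hsub : {z : V | 1 / 2 < ‖z‖} ⊆ {z : V | z ≠ 0} := fun z hz h0 => by
    rw [h0] at hz
    norm_num at hz
  have hn : ∀ (u : I) (x : {z : V | z ≠ 0}), ‖(1 + (u : ℝ) / ‖(x : V)‖) • (x : V)‖ = ‖(x : V)‖ + u :=
    fun u x => by
      have h0 : 0 < ‖(x : V)‖ := norm_pos_iff.2 x.2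
      have h1 := u.2.1
      rw [norm_smul, Real.norm_of_nonneg (by positivity)]
      field_simp
  have hac : RAcyc bd (Sup {z : V | 1 / 2 < ‖z‖}) (Sup {z : V | z ≠ 0}) := by
    refine racyc_of_deform hsub ⟨fun p => (1 + (p.1 : ℝ) / ‖(p.2 : V)‖) • (p.2 : V), ?_⟩
      (fun x => show (1 + ((0 : I) : ℝ) / ‖(x : V)‖) • (x : V) = x by simp) (fun u x => ?_) (fun x => ?_)
      (fun u x hx => ?_)
    · refine Continuous.smul (continuous_const.add (Continuous.div (by fun_prop) (by fun_prop)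
        fun p => norm_ne_zero_iff.2 p.2.2)) (by fun_prop)
    · refine norm_pos_iff.1 ((hn u x).symm ▸ ?_)
      exact add_pos_of_pos_of_nonneg (norm_pos_iff.2 x.2) u.2.1
    · show 1 / 2 < ‖_‖
      refine (hn 1 x).symm ▸ ?_
      have := norm_nonneg (x : V)
      simp only [Icc.coe_one]
      linarith
    · show 1 / 2 < ‖_‖
      refine (hn u x).symm ▸ ?_
      have : 1 / 2 < ‖(x : V)‖ := hx
      linarith [u.2.1]
  have hb : bd d ∈ Sup {z : V | 1 / 2 < ‖z‖} :=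
    Sup_mono (fun z (hz : 1 ≤ ‖z‖) => show 1 / 2 < ‖z‖ by linarith) hd'
  have h1 := (RBasis.left_iff bd_bd (sub_Sup _) (sub_Sup _) (Sup_mono hsub) le_top hac fun _ => hb).2 hd
  have hu : RAcyc bd (Sup {z : V | 1 / 2 < ‖z‖} ⊔ Sup (ball (0 : V) 1)) ⊤ := by
    have := racyc_union (O₁ := {z : V | 1 / 2 < ‖z‖}) (O₂ := ball (0 : V) 1)
      (isOpen_lt continuous_const continuous_norm) isOpen_ball
    rwa [eq_univ_of_forall (s := {z : V | 1 / 2 < ‖z‖} ∪ ball (0 : V) 1) fun z => by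
      rcases lt_or_ge (1 / 2) ‖z‖ with hz | hz
      · exact Or.inl hz
      · exact Or.inr (mem_ball_zero_iff.2 (by linarith)), Sup_univ] at this
  obtain ⟨d', hm, hdd⟩ := hu.exists_rep_excise le_top (h1.mem ())
  refine ⟨d', hm, hdd, ?_⟩
  rw [Sup_inter]
  exact (RBasis.excise_iff bd_bd (sub_Sup _) (sub_Sup _) le_top le_top hu fun _ => hm).2
    (h1.congr bd_bd (sub_Sup _) (sub_top _) le_top fun _ => hdd)

theorem attc_of_map_inj {C C' κ : Type} [AddCommGroup C] [AddCommGroup C'] {d : C →ₗ[ℤ] C} {d' : C' →ₗ[ℤ] C'}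
    {A U : Submodule ℤ C} {g : κ → C} (φ : C →ₗ[ℤ] C') (hφ : Function.Injective φ)
    (hc : ∀ c, d' (φ c) = φ (d c)) (h : RBasis d' (A.map φ) (U.map φ) (fun i => φ (g i))) : RBasis d A U g := by
  refine ⟨fun i => (hab_map_RZ φ hφ hc).1 (h.mem i), fun c hc' => ?_, fun x hx => h.indep x ?_⟩
  · obtain ⟨x, hx⟩ := h.span (φ c) ((hab_map_RZ φ hφ hc).2 hc')
    rw [← hab_map_zc, ← map_sub] at hx
    exact ⟨x, (hab_map_RB φ hφ hc).1 hx⟩
  · rw [← hab_map_zc]
    exact (hab_map_RB φ hφ hc).2 hx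

theorem attc_cell (h : Att A B Φ) (j : ι) {d' : Ch V} (hd' : d' ∈ Sup (ball (0 : V) 1))
    (hb : RBasis bd (Sup ({z : V | 1 / 2 < ‖z‖} ∩ ball 0 1)) (Sup (ball 0 1)) (fun _ : Unit => d')) :
    RBasis bd (Sup (nb B Φ ∩ Φ j '' ball 0 1)) (Sup (Φ j '' ball 0 1)) (fun _ : Unit => mp (Φ j) d') := by
  rw [← map_Sup_incl (ball (0 : V) 1) _ subset_rfl] at hd'
  obtain ⟨d'', -, rfl⟩ := hd'
  rw [← map_Sup_incl (ball (0 : V) 1) _ inter_subset_right, ← map_Sup_incl (ball (0 : V) 1) _ subset_rfl] at hb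
  have h1 := attc_of_map_inj (g := fun _ : Unit => d'') (mp (incl (ball (0 : V) 1)))
    (mp_injective Subtype.val_injective) (bd_mp _) hb
  have h2 := h1.map_inj (mp ((Φ j).comp (incl (ball (0 : V) 1)))) (mp_injective (h.isEmbedding_ball j).injective)
    (bd_mp _)
  rw [map_Sup_of_isEmbedding (h.isEmbedding_ball j), map_Sup_of_isEmbedding (h.isEmbedding_ball j)] at h2
  have e : ∀ S ⊆ ball (0 : V) 1,
      (Φ j).comp (incl (ball (0 : V) 1)) '' ((Subtype.val : ball (0 : V) 1 → V) ⁻¹' S) = Φ j '' S := by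
    intro S hS
    ext x
    constructor
    · rintro ⟨z, hz, rfl⟩
      exact ⟨z, hz, rfl⟩
    · rintro ⟨z, hz, rfl⟩
      exact ⟨⟨z, hS hz⟩, hz, rfl⟩
  have e' : Φ j '' ({z : V | 1 / 2 < ‖z‖} ∩ ball 0 1) = nb B Φ ∩ Φ j '' ball 0 1 := by
    ext x
    constructor
    · rintro ⟨z, hz, rfl⟩
      exact ⟨(h.mem_nb j z).2 hz.1, z, hz.2, rfl⟩
    · rintro ⟨hx, z, hz, rfl⟩
      exact ⟨z, ⟨(h.mem_nb j z).1 hx, hz⟩, rfl⟩
  rw [e _ inter_subset_right, e _ subset_rfl, e'] at h2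
  simpa only [mp_mp] using h2

/-- **Relative homology of an attachment.**  With `O j = Φ j '' ball 0 1`: transfer `exists_model` to `(O j, O j ∩ nb)` (pull back
to the subtype `ball 0 1` and push forward along `isEmbedding_ball`: `map_Sup_incl`, `map_Sup_of_isEmbedding`, `RBasis.map_inj`
and its converse), sum up (`RBasis.iSup` with `L = Sup ∅`, `π j` the projection on nonempty simplices inside `O j`), excise
(`RBasis.excise_iff`, `racyc_cover` for the cover by `nb` and the `O j` indexed by `Option ι`, `Sup_inf_iSup`), replace `d'` by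
`d` (`RBasis.congr`) and `nb` by `A` (`RBasis.left_iff`, `racyc_nb`). -/
theorem Att.rbasis (h : Att A B Φ) {d : Ch V} (hd : RBasis bd (Sup {z : V | z ≠ 0}) ⊤ (fun _ : Unit => d))
    (hd' : bd d ∈ Sup {z : V | 1 ≤ ‖z‖}) : RBasis bd (Sup A) (Sup B) (fun j => mp (Φ j) d) := by
  classical
  obtain ⟨d', hm, hdd, hb⟩ := exists_model hd hd'
  let O : ι → Set X := fun j => Φ j '' ball 0 1
  have hOB : ∀ j, O j ⊆ B := by
    rintro j _ ⟨z, -, rfl⟩
    exact h.mem j z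
  have hNB : nb B Φ ⊆ B := fun x hx => hx.1
  let π : ι → Ch X →ₗ[ℤ] Ch X := fun j => lext fun k σ => if k ≠ 0 ∧ ∀ t, σ t ∈ O j then sx σ else 0
  have hπ : ∀ j {k : ℕ} (σ : C(Dl k, X)), π j (sx σ) = if k ≠ 0 ∧ ∀ t, σ t ∈ O j then sx σ else 0 :=
    fun j _ σ => lext_sx _ σ
  have h1 : RBasis bd (⨆ j, Sup (nb B Φ ∩ O j)) (⨆ j, Sup (O j)) (fun j => mp (Φ j) d') := by
    refine RBasis.iSup (L := Sup ∅) π (fun c hc => bd_eq_zero_of_mem_Sup_empty hc)
      (fun j => Sup_mono (empty_subset _)) (fun j => Sup_mono inter_subset_right) (fun j => sub_Sup _)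
      (fun j => sub_Sup _) (fun j u hu => ?_) (fun j j' hj u hu => ?_) (fun j => attc_cell h j hm hb)
    · refine (Sup_le (N := (Sup ∅).comap (LinearMap.id - π j)) fun k σ hσ => ?_) hu
      change sx σ - π j (sx σ) ∈ Sup ∅
      rw [hπ]
      cases k with
      | zero => rw [if_neg (by simp), sub_zero, sx_zero]; exact ems_mem_Sup _
      | succ k => rw [if_pos ⟨by simp, hσ⟩, sub_self]; exact zero_mem _
    · refine (Sup_le (N := LinearMap.ker (π j)) fun k σ hσ => ?_) hu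
      rw [LinearMap.mem_ker, hπ, if_neg]
      rintro ⟨hk, hσ'⟩
      cases k with
      | zero => exact hk rfl
      | succ k =>
        obtain ⟨z, hz, e⟩ := hσ' (stdSimplex.vertex 0)
        obtain ⟨z', hz', e'⟩ := hσ (stdSimplex.vertex 0)
        exact hj (h.inj j j' z z' (mem_ball_zero_iff.1 hz) (mem_ball_zero_iff.1 hz') (e.trans e'.symm)).1
  rw [← Sup_inf_iSup] at h1
  have hac : RAcyc bd (Sup (nb B Φ) ⊔ ⨆ j, Sup (O j)) (Sup B) := by
    have := racyc_cover (U := B) (O := fun i : Option ι => i.elim (nb B Φ) O) (by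
      rintro (_ | j)
      · exact h.isOpen_nb
      · exact h.isOpen_image j isOpen_ball subset_rfl) (fun x hx => by
      rcases h.cover x hx with hA | ⟨j, z, hz, rfl⟩
      · exact mem_iUnion.2 ⟨none, h.sub_nb hA⟩
      · exact mem_iUnion.2 ⟨some j, z, mem_ball_zero_iff.2 hz, rfl⟩)
    rw [iSup_option] at this
    simp only [Option.elim_none, Option.elim_some, inter_eq_right.2 hNB, inter_eq_right.2 (hOB _)] at this
    exact this
  have h2 := (RBasis.excise_iff bd_bd (sub_Sup _) (Sub.iSup fun j => sub_Sup _) (Sup_mono hNB)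
    (iSup_le fun j => Sup_mono (hOB j)) hac
    (fun j => Submodule.mem_iSup_of_mem j (mp_mem_Sup (mapsTo_image _ _) hm))).1 h1
  have h3 : RBasis bd (Sup (nb B Φ)) (Sup B) (fun j => mp (Φ j) d) := by
    refine h2.congr bd_bd (sub_Sup _) (sub_Sup _) (Sup_mono hNB) fun j => ?_
    obtain ⟨b, -, a, ha, e⟩ := mem_RB.1 hdd
    rw [← neg_mem_iff, neg_sub, ← map_sub, e, map_add, ← bd_mp]
    refine mem_RB.2 ⟨_, mp_mem_Sup (A := univ) (fun z _ => h.mem j z) (by simp), _,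
      mp_mem_Sup (fun z hz => (h.mem_nb j z).2 hz) ha, rfl⟩
  refine (RBasis.left_iff bd_bd (sub_Sup _) (sub_Sup _) (Sup_mono h.sub_nb) (Sup_mono hNB) h.racyc_nb
    fun j => ?_).2 h3
  rw [bd_mp]
  exact mp_mem_Sup (fun z hz => h.bdry j z hz) hd'

end

end Crest.Agent.R251.Top
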