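import Crest.Agent.R251.Top.Act
import Crest.Prelude.Def_DeckCochains

/-!
# Row 251, topology: the bridge to Mathlib's singular homology and to deck cochains

See `Crest/Agent/R123/HomologyChain.lean` for the API (`ιChainComplex`, `ιChainComplex_d`, `chainComplex_hom_ext`,
`isColimitChainComplexXCofan`, `toSSetObjEquiv`).
-/

set_option autoImplicit false

open Set

namespace Crest.Agent.R251.Top

open Crest.GeometryTopology.DeckCochains

noncomputable section

section BrA

open CategoryTheory AlgebraicTopology Limits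

/-- the coefficient module -/
abbrev braZ : ModuleCat.{0} ℤ := ModuleCat.of ℤ ℤ

/-- Mathlib's singular chain complex -/
abbrev braK (X : Type) [TopologicalSpace X] : ChainComplex (ModuleCat.{0} ℤ) ℕ :=
  ((singularChainComplexFunctor (ModuleCat.{0} ℤ)).obj braZ).obj (TopCat.of X)

variable {X : Type} [TopologicalSpace X]

/-- the chain given by a singular simplex -/
def braCh {n : ℕ} (σ : C(Dl (n + 1), X)) : braZ ⟶ (braK X).X n :=
  (TopCat.toSSet.obj (TopCat.of X)).ιChainComplex (R := braZ)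
    (((TopCat.of X).toSSetObjEquiv (Opposite.op (SimplexCategory.mk n))).symm σ)

theorem bra_d {n : ℕ} (σ : C(Dl (n + 2), X)) :
    braCh σ ≫ (braK X).d (n + 1) n = ∑ i : Fin (n + 2), (-1 : ℤ) ^ i.val • braCh (σ.comp (face i)) :=
  SSet.ιChainComplex_d (TopCat.toSSet.obj (TopCat.of X)) braZ _

theorem bra_ext {n : ℕ} {T : ModuleCat.{0} ℤ} {f g : (braK X).X n ⟶ T}
    (h : ∀ σ : C(Dl (n + 1), X), braCh σ ≫ f = braCh σ ≫ g) : f = g := by
  refine SSet.chainComplex_hom_ext (X := TopCat.toSSet.obj (TopCat.of X)) (R := braZ) fun x => ?_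
  have := h (((TopCat.of X).toSSetObjEquiv (Opposite.op (SimplexCategory.mk n))) x)
  simp only [braCh, Equiv.symm_apply_apply] at this
  exact this

theorem bra_desc {n : ℕ} {T : ModuleCat.{0} ℤ} (φ : C(Dl (n + 1), X) → (braZ ⟶ T)) :
    ∃ Φ : (braK X).X n ⟶ T, ∀ σ, braCh σ ≫ Φ = φ σ := by
  refine ⟨Cofan.IsColimit.desc
    ((TopCat.toSSet.obj (TopCat.of X)).isColimitChainComplexXCofan braZ n)
    (fun x => φ (((TopCat.of X).toSSetObjEquiv (Opposite.op (SimplexCategory.mk n))) x)),
    fun σ => ?_⟩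
  have := Cofan.IsColimit.fac
    ((TopCat.toSSet.obj (TopCat.of X)).isColimitChainComplexXCofan braZ n)
    (fun x => φ (((TopCat.of X).toSSetObjEquiv (Opposite.op (SimplexCategory.mk n))) x))
    (((TopCat.of X).toSSetObjEquiv (Opposite.op (SimplexCategory.mk n))).symm σ)
  simp only [Equiv.apply_symm_apply] at this
  exact this

/-- the element given by a singular simplex -/
def braEl {n : ℕ} (σ : C(Dl (n + 1), X)) : (braK X).X n := (braCh σ).hom (1 : ℤ)

theorem bra_el_d {n : ℕ} (σ : C(Dl (n + 2), X)) :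
    ((braK X).d (n + 1) n).hom (braEl σ) = ∑ i : Fin (n + 2), (-1 : ℤ) ^ i.val • braEl (σ.comp (face i)) := by
  have := congrArg (fun f : braZ ⟶ (braK X).X n => f.hom (1 : ℤ)) (bra_d σ)
  simpa [braEl, ModuleCat.hom_sum, LinearMap.sum_apply] using this

theorem bra_lext {n : ℕ} {T : Type} [AddCommGroup T] {f g : (braK X).X n →+ T}
    (h : ∀ σ : C(Dl (n + 1), X), f (braEl σ) = g (braEl σ)) : f = g := by
  let F : ((braK X).X n →+ T) → ((braK X).X n ⟶ ModuleCat.of ℤ T) := fun f => ModuleCat.ofHom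
    { toFun := f
      map_add' := f.map_add
      map_smul' := fun c x => by
        rw [RingHom.id_apply, ← map_zsmul]
        congr 1
        exact int_smul_eq_zsmul _ c x }
  have : F f = F g := bra_ext fun σ => by
    ext
    exact h σ
  ext x
  exact congrArg (fun u : (braK X).X n ⟶ ModuleCat.of ℤ T => u.hom x) this

theorem bra_alpha (n : ℕ) : ∃ α : (braK X).X n →+ Ch X, ∀ σ, α (braEl σ) = sx σ := by
  obtain ⟨Φ, hΦ⟩ := bra_desc (X := X) (n := n) (T := ModuleCat.of ℤ (Ch X))
    fun σ => ModuleCat.ofHom (LinearMap.toSpanSingleton ℤ _ (sx σ))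
  refine ⟨Φ.hom.toAddMonoidHom, fun σ => ?_⟩
  have := congrArg (fun f : braZ ⟶ ModuleCat.of ℤ (Ch X) => f.hom (1 : ℤ)) (hΦ σ)
  simpa [braEl] using this

/-- the inverse translation -/
def braB (n : ℕ) : Ch X →+ (braK X).X n :=
  (lext fun k σ => if h : k = n + 1 then braEl (n := n) (h ▸ σ) else 0).toAddMonoidHom

theorem braB_sx {n : ℕ} (σ : C(Dl (n + 1), X)) : braB n (sx σ) = braEl σ := by
  simp [braB]

theorem braB_bd {n : ℕ} {c : Ch X} (hc : c ∈ Deg (n + 2)) :
    braB n (bd c) = ((braK X).d (n + 1) n).hom (braB (n + 1) c) := by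
  let f : Ch X →+ (braK X).X n := (braB n).comp bd.toAddMonoidHom -
    ((braK X).d (n + 1) n).hom.toAddMonoidHom.comp (braB (n + 1))
  have : Deg (n + 2) ≤ AddSubgroup.toIntSubmodule f.ker := Deg_le fun σ => by
    change braB n (bd (sx σ)) - ((braK X).d (n + 1) n).hom (braB (n + 1) (sx σ)) = 0
    rw [braB_sx, bra_el_d, bd_sx, map_sum, sub_eq_zero]
    refine Finset.sum_congr rfl fun i _ => ?_
    rw [map_zsmul, braB_sx]
  exact sub_eq_zero.1 (this hc)

end BrA

/-- Linear maps `α n : K.X n → Ch E` (desc of `sx`) and `β n : Ch E → K.X n` (`lext`, zero in the other degrees) with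
`β n ∘ α n = id`, `α n ∘ d = bd ∘ α (n + 1)`, `d ∘ β (n + 1) = β n ∘ bd`; exactness by `ShortComplex.moduleCat_exact_iff`. -/
theorem isZero_homology {E : Type} [TopologicalSpace E] {i : ℕ} (hi : 0 < i)
    (h : ∀ z : Ch E, z ∈ Deg (i + 1) → bd z = 0 → ∃ b, bd b = z) :
    CategoryTheory.Limits.IsZero (((AlgebraicTopology.singularHomologyFunctor (ModuleCat.{0} ℤ) i).obj
      (ModuleCat.of ℤ ℤ)).obj (TopCat.of E)) := by
  obtain ⟨j, rfl⟩ : ∃ j, i = j + 1 := ⟨i - 1, by omega⟩
  change CategoryTheory.Limits.IsZero ((braK E).homology (j + 1))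
  rw [← HomologicalComplex.exactAt_iff_isZero_homology,
    HomologicalComplex.exactAt_iff' _ (j + 2) (j + 1) j (by simp) (by simp), CategoryTheory.ShortComplex.moduleCat_exact_iff]
  intro (x : (braK E).X (j + 1)) (hx : ((braK E).d (j + 1) j).hom x = 0)
  choose α hα using bra_alpha (X := E)
  have h1 : (braB (j + 1)).comp (α (j + 1)) = AddMonoidHom.id _ := bra_lext fun σ => by
    rw [AddMonoidHom.comp_apply, hα, braB_sx, AddMonoidHom.id_apply]
  have h2 : (α j).comp ((braK E).d (j + 1) j).hom.toAddMonoidHom = bd.toAddMonoidHom.comp (α (j + 1)) :=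
    bra_lext fun σ => by
      change α j (((braK E).d (j + 1) j).hom (braEl σ)) = bd (α (j + 1) (braEl σ))
      rw [bra_el_d, hα, bd_sx, map_sum]
      refine Finset.sum_congr rfl fun i _ => ?_
      rw [map_zsmul, hα]
  have h3 : (pr (j + 2)).toAddMonoidHom.comp (α (j + 1)) = α (j + 1) := bra_lext fun σ => by
    change pr (j + 2) (α (j + 1) (braEl σ)) = _
    rw [hα, pr_of_mem_Deg (sx_mem_Deg σ)]
  have h4 : α (j + 1) x ∈ Deg (j + 2) := by
    rw [← h3]
    exact pr_mem_Deg _ _
  have h5 : bd (α (j + 1) x) = 0 := by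
    have : α j (((braK E).d (j + 1) j).hom x) = bd (α (j + 1) x) := DFunLike.congr_fun h2 x
    rw [← this, hx, map_zero]
  obtain ⟨b, hb⟩ := h _ h4 h5
  refine ⟨braB (j + 2) (pr (j + 3) b), ?_⟩
  change ((braK E).d (j + 2) (j + 1)).hom _ = x
  rw [← braB_bd (pr_mem_Deg _ _), ← pr_bd, hb, pr_of_mem_Deg h4]
  exact DFunLike.congr_fun h1 x

/-- singular simplices as continuous maps -/
def brb_e (E : Type) [TopologicalSpace E] (n : ℕ) : SingSimplex E n ≃ C(Dl (n + 1), E) :=
  (TopCat.of E).toSSetObjEquiv (Opposite.op (SimplexCategory.mk n))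

theorem brb_face {E : Type} [TopologicalSpace E] {n : ℕ} (i : Fin (n + 2)) (σ : SingSimplex E (n + 1)) :
    brb_e E n (simplexFace i σ) = (brb_e E (n + 1) σ).comp (face i) := rfl

theorem brb_tr {E : Type} [TopologicalSpace E] {n : ℕ} (g : E ≃ₜ E) (σ : SingSimplex E n) :
    brb_e E n (simplexTranslate g σ) = (g : C(E, E)).comp (brb_e E n σ) := rfl

/-- `M` becomes a `ZG G`-module through `rz ((DistribMulAction.toModuleEnd ℤ M).comp δ)` (`Module.compHom`); `Φ` is the linear
extension of `φ` (zero in the other degrees), `ψ τ = Ψ (sx τ)`. -/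
theorem deck_vanishes {G E X : Type} [Group G] [TopologicalSpace E] [TopologicalSpace X] [MulAction G E]
    [ContinuousConstSMul G E] (p : E → X) (δ : G →* deckGroup p) (hδ : Function.Surjective δ)
    (hδ' : ∀ (g : G) (e : E), (δ g : E ≃ₜ E) e = g • e)
    (h : ∀ (N : Type) [AddCommGroup N] [Module (ZG G) N] (Φ : Ch E →ₗ[ZG G] N), (∀ c, Φ (bd c) = 0) →
      ∃ Ψ : Ch E →ₗ[ZG G] N, ∀ z ∈ Deg 4, Φ z = Ψ (bd z))
    (M : Type) [AddCommGroup M] [DistribMulAction (deckGroup p) M] : DeckCohomologyVanishes p M 2 := by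
  intro φ hφ hc
  let _ : Module (ZG G) M := Module.compHom M (rz ((DistribMulAction.toModuleEnd ℤ M).comp δ))
  have hM : ∀ (g : G) (m : M), og g • m = δ g • m := fun g m => by
    change rz ((DistribMulAction.toModuleEnd ℤ M).comp δ) (og g) m = _
    rw [rz_og]; rfl
  have hact : ∀ g : G, ((δ g : E ≃ₜ E) : C(E, E)) = act g := fun g => ContinuousMap.ext (hδ' g)
  let f : ∀ k, C(Dl k, E) → M := fun k σ => if h : k = 3 + 1 then φ ((brb_e E 3).symm (h ▸ σ)) else 0
  have hf : ∀ σ, f (3 + 1) σ = φ ((brb_e E 3).symm σ) := fun σ => dif_pos rfl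
  have hf' : ∀ m σ, m ≠ 3 + 1 → f m σ = 0 := fun m σ h => dif_neg h
  have heq : ∀ (g : G) (c : Ch E), lext f (og g • c) = og g • lext f c := by
    intro g c
    have : (lext f).comp (mp (act g)) =
        (DistribSMul.toAddMonoidHom M (og g)).toIntLinearMap.comp (lext f) := by
      refine ch_ext fun m σ => ?_
      change lext f (mp (act g) (sx σ)) = og g • lext f (sx σ)
      rw [mp_sx, lext_sx, lext_sx]
      by_cases h : m = 3 + 1
      · subst h
        rw [hf, hf, hM, ← hφ]
        congr 1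
        rw [Equiv.symm_apply_eq, brb_tr, Equiv.apply_symm_apply, hact]
      · rw [hf' _ _ h, hf' _ _ h, smul_zero]
    rw [og_smul]
    exact DFunLike.congr_fun this c
  have hbd : (lext f).comp bd = 0 := by
    refine ch_ext fun m σ => ?_
    rw [LinearMap.comp_apply, LinearMap.zero_apply]
    cases m with
    | zero => rw [sx_zero, bd_ems, map_zero]
    | succ m =>
      rw [bd_sx, map_sum]
      simp only [map_zsmul, lext_sx]
      by_cases h : m = 3 + 1
      · subst h
        refine Eq.trans (Finset.sum_congr rfl fun i _ => ?_) (congrFun hc ((brb_e E 4).symm σ))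
        rw [hf]
        congr 2
      · exact Finset.sum_eq_zero fun i _ => by rw [hf' _ _ h, smul_zero]
  obtain ⟨Ψ, hΨ⟩ := h M ⟨⟨lext f, map_add _⟩, act_comm (lext f) heq⟩ (DFunLike.congr_fun hbd)
  refine ⟨fun τ => Ψ (sx (brb_e E 2 τ)), fun g τ => ?_, funext fun σ => ?_⟩
  · obtain ⟨g, rfl⟩ := hδ g
    change Ψ (sx (brb_e E 2 _)) = δ g • Ψ _
    rw [brb_tr, hact, ← mp_sx, ← og_smul, map_smul, hM]
  · have h1 : lext f (sx (brb_e E 3 σ)) = _ := hΨ _ (sx_mem_Deg (brb_e E 3 σ))
    rw [lext_sx, hf, Equiv.symm_apply_apply, bd_sx, map_sum] at h1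
    rw [h1]
    exact Finset.sum_congr rfl fun i _ => by rw [map_zsmul]; rfl

end

end Crest.Agent.R251.Top
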