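import Crest.Agent.R251.Top.Att
import Crest.Agent.Lib.CWComb.OfCW
import Crest.Agent.Lib.CW2.Cells

/-!
# Row 251, topology: to and from Mathlib's CW complexes
-/

set_option autoImplicit false

open Set Metric

namespace Crest.Agent.R251.Top

open Crest.Agent.Lib.CWComb

noncomputable section

/-- the set theoretic part of `Att`, for cells parametrised by `Fin n → ℝ` -/
structure CWAtt {X ι : Type} [TopologicalSpace X] {n : ℕ} (A B : Set X) (Φ : ι → C(Fin n → ℝ, X)) : Prop where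
  sub : A ⊆ B
  mem : ∀ j z, Φ j z ∈ B
  bdry : ∀ j z, 1 ≤ ‖z‖ → Φ j z ∈ A
  notMem : ∀ j z, ‖z‖ < 1 → Φ j z ∉ A
  inj : ∀ j j' z z', ‖z‖ < 1 → ‖z'‖ < 1 → Φ j z = Φ j' z' → j = j' ∧ z = z'
  cover : ∀ x ∈ B, x ∈ A ∨ ∃ j z, ‖z‖ < 1 ∧ x = Φ j z

theorem Att.cwAtt {X ι : Type} [TopologicalSpace X] {n : ℕ} {A B : Set X} {Φ : ι → C(Fin n → ℝ, X)}
    (h : Att A B Φ) : CWAtt A B Φ := ⟨h.sub, h.mem, h.bdry, h.notMem, h.inj, h.cover⟩

theorem Att.cwAtt' {X V ι : Type} [TopologicalSpace X] [NormedAddCommGroup V] [NormedSpace ℝ V] {n : ℕ}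
    {A B : Set X} {Φ : ι → C(V, X)} (h : Att A B Φ) (P : OfCWPar V n) :
    CWAtt A B fun j => (Φ j).comp (P.F.symm : C(Fin n → ℝ, V)) := by
  have hlt : ∀ z, ‖P.F.symm z‖ < 1 ↔ ‖z‖ < 1 := fun z => by rw [← P.lt, P.F.apply_symm_apply]
  refine ⟨h.sub, fun j z => h.mem j _, fun j z hz => h.bdry j _ (not_lt.1 fun h' => hz.not_gt ((hlt z).1 h')),
    fun j z hz => h.notMem j _ ((hlt z).2 hz), fun j j' z z' hz hz' e => ?_, fun x hx => ?_⟩
  · obtain ⟨e1, e2⟩ := h.inj j j' _ _ ((hlt z).2 hz) ((hlt z').2 hz') e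
    exact ⟨e1, P.F.symm.injective e2⟩
  · refine (h.cover x hx).imp_right ?_
    rintro ⟨j, z, hz, rfl⟩
    exact ⟨j, P.F z, (P.lt z).2 hz, congrArg (Φ j) (P.F.symm_apply_apply z).symm⟩

theorem cw_of_cwAtt {X : Type} [TopologicalSpace X] [T2Space X] (J : ℕ → Type) (B : ℕ → Set X)
    (Φ : ∀ n, J n → C(Fin n → ℝ, X)) (h0 : B 0 = ∅) (h : ∀ n, CWAtt (B n) (B (n + 1)) (Φ n)) {N : ℕ}
    (hN : B N = univ) (hf : ∀ n, Finite (J n)) {k : ℕ} (he : ∀ n, k < n → IsEmpty (J n)) :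
    ∃ _ : Topology.CWComplex (univ : Set X), Topology.RelCWComplex.Finite (univ : Set X) ∧
      ∀ m : ℕ, k < m → IsEmpty (Topology.RelCWComplex.cell (univ : Set X) m) := by
  have hm : Monotone B := monotone_nat_of_le_succ fun n => (h n).sub
  have cov : ∀ n, ∀ x ∈ B n, ∃ m < n, ∃ (j : J m) (z : Fin m → ℝ), ‖z‖ < 1 ∧ x = Φ m j z := by
    intro n
    induction n with
    | zero => simp [h0]
    | succ n ih =>
      intro x hx
      rcases (h n).cover x hx with h1 | h1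
      · obtain ⟨m, h2, h3⟩ := ih x h1
        exact ⟨m, h2.trans n.lt_succ_self, h3⟩
      · exact ⟨n, n.lt_succ_self, h1⟩
  have hi : ∀ n (i : J n), InjOn (Φ n i) (ball 0 1) := fun n i x hx y hy e =>
    ((h n).inj i i x y (mem_ball_zero_iff.1 hx) (mem_ball_zero_iff.1 hy) e).2
  have hlt : ∀ n m (i : J n) (j : J m) x y, n < m → ‖y‖ < 1 → Φ m j y ≠ Φ n i x :=
    fun n m i j x y hnm hy e => (h m).notMem j y hy (e ▸ hm hnm ((h n).mem i x))
  refine ⟨Topology.CWComplex.mkFinite univ J (fun n i => (hi n i).toPartialEquiv (Φ n i) _)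
    ((Filter.eventually_gt_atTop k).mono he) hf (fun _ _ => rfl)
    (fun n i => (Φ n i).continuous.continuousOn)
    (fun n i => Lib.CW2.continuousOn_symm_of_ball _ (Φ n i).continuous _ ?_) ?_ ?_ ?_,
    Topology.CWComplex.finite_mkFinite _ _ _ _ _ _ _ _ _ _ _, he⟩
  · rintro x hx ⟨y, hy, e⟩
    exact (h n).notMem i y (mem_ball_zero_iff.1 hy)
      (e ▸ (h n).bdry i x (mem_sphere_zero_iff_norm.1 hx).ge)
  · rintro ⟨n, i⟩ - ⟨m, j⟩ - hne
    refine disjoint_left.2 ?_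
    rintro _ ⟨x, hx, rfl⟩ ⟨y, hy, e⟩
    rw [mem_ball_zero_iff] at hx hy
    rcases lt_trichotomy n m with h1 | rfl | h1
    · exact hlt n m i j x y h1 hy e
    · exact hne (by rw [((h n).inj j i y x hy hx e).1])
    · exact hlt m n j i y x h1 hx e.symm
  · intro n i x hx
    obtain ⟨m, h1, j, z, hz, e⟩ := cov n _ ((h n).bdry i x (mem_sphere_zero_iff_norm.1 hx).ge)
    exact mem_iUnion₂.2 ⟨m, h1, mem_iUnion.2 ⟨j, z, mem_closedBall_zero_iff.2 hz.le, e.symm⟩⟩
  · refine eq_univ_of_forall fun p => ?_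
    obtain ⟨m, -, j, z, hz, e⟩ := cov N p (hN ▸ mem_univ p)
    exact mem_iUnion₂.2 ⟨m, j, z, mem_closedBall_zero_iff.2 hz.le, e.symm⟩

/-- the cells -/
def cwJ (J0 J1 J2 J3 : Type) : ℕ → Type
  | 0 => J0
  | 1 => J1
  | 2 => J2
  | 3 => J3
  | _ + 4 => Empty

/-- `Topology.CWComplex.mkFinite` as in `Lib.CW2.exists_cw`, with characteristic maps `Φ j ∘ P.F.symm` (`ofCWPar1`,
`ofCW_nonempty_par2`, `continuousOn_symm_of_ball`). -/
theorem exists_cw {X J0 J1 J2 J3 : Type} [TopologicalSpace X] [T2Space X] [Finite J0] [Finite J1] [Finite J2] [Finite J3]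
    {B0 B1 B2 : Set X} {Φ0 : J0 → C(Fin 0 → ℝ, X)} {Φ1 : J1 → C(ℝ, X)} {Φ2 : J2 → C(ℂ, X)}
    {Φ3 : J3 → C(Fin 3 → ℝ, X)} (h0 : Att ∅ B0 Φ0) (h1 : Att B0 B1 Φ1) (h2 : Att B1 B2 Φ2) (h3 : Att B2 univ Φ3) :
    ∃ _ : Topology.CWComplex (univ : Set X), Topology.RelCWComplex.Finite (univ : Set X) ∧
      ∀ m : ℕ, 3 < m → IsEmpty (Topology.RelCWComplex.cell (univ : Set X) m) := by
  obtain ⟨P⟩ := ofCW_nonempty_par2
  refine cw_of_cwAtt (cwJ J0 J1 J2 J3)
    (fun n => match n with | 0 => ∅ | 1 => B0 | 2 => B1 | 3 => B2 | _ + 4 => univ)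
    (fun n => match n with
      | 0 => Φ0
      | 1 => fun j => (Φ1 j).comp (ofCWPar1.F.symm : C(Fin 1 → ℝ, ℝ))
      | 2 => fun j => (Φ2 j).comp (P.F.symm : C(Fin 2 → ℝ, ℂ))
      | 3 => Φ3
      | _ + 4 => fun j => Empty.elim j) rfl (fun n => match n with
      | 0 => h0.cwAtt
      | 1 => h1.cwAtt' ofCWPar1
      | 2 => h2.cwAtt' P
      | 3 => h3.cwAtt
      | _ + 4 => ⟨subset_rfl, fun j => Empty.elim j, fun j => Empty.elim j, fun j => Empty.elim j,
          fun j => Empty.elim j, fun _ hx => Or.inl hx⟩) (N := 4) rfl (fun n => match n with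
      | 0 => ‹Finite J0›
      | 1 => ‹Finite J1›
      | 2 => ‹Finite J2›
      | 3 => ‹Finite J3›
      | _ + 4 => inferInstanceAs (Finite Empty)) fun n hn => ?_
  obtain ⟨k, rfl⟩ : ∃ k, n = k + 4 := ⟨n - 4, by omega⟩
  exact inferInstanceAs (IsEmpty Empty)

open Topology Topology.CWComplex in
/-- the proof of `CWComb.nonempty_W2`, keeping track of finiteness -/
theorem exists_finite_W2 (Y : Type) [TopologicalSpace Y] [T2Space Y] [Topology.CWComplex (univ : Set Y)]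
    (hf : Topology.RelCWComplex.Finite (univ : Set Y))
    (h : ∀ n : ℕ, 2 < n → IsEmpty (Topology.RelCWComplex.cell (univ : Set Y) n)) :
    ∃ W : W2 Y, Finite W.V ∧ Finite W.Ed ∧ Finite W.Fc := by
  obtain ⟨P⟩ := ofCW_nonempty_par2
  choose src hsrc using fun e : cell (univ : Set Y) 1 => ofCW_end e (s := -1) (by simp)
  choose tgt htgt using fun e : cell (univ : Set Y) 1 => ofCW_end e (s := 1) (by simp)
  have low : ∀ (x : Y) (m : ℕ), m < 2 → ∀ i : cell (univ : Set Y) m, x ∈ openCell m i →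
      (∃ v : cell (univ : Set Y) 0, x = map 0 v ![]) ∨
        ∃ (e : cell (univ : Set Y) 1) (s : ℝ), |s| < 1 ∧ x = ofCWPar1.g e s := by
    intro x m hm i hi
    obtain rfl | rfl : m = 0 ∨ m = 1 := by omega
    · exact Or.inl ⟨i, ofCW_eq_vx hi⟩
    · obtain ⟨s, hs, e⟩ := ofCWPar1.exists_of_mem_open i hi
      exact Or.inr ⟨i, s, hs, e⟩
  refine ⟨{
    V := cell (univ : Set Y) 0
    Ed := cell (univ : Set Y) 1
    Fc := cell (univ : Set Y) 2
    vx := fun v => map 0 v ![]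
    ed := fun e => ofCWPar1.g e
    fc := fun j => P.g j
    src := src
    tgt := tgt
    ed_le := ?_
    ed_ge := ?_
    fc_ge := ?_
    fc_mem := ?_
    cover := ?_
    vx_inj := injective_map_zero _
    ed_inj := fun e e' s s' hs hs' he => ofCWPar1.g_inj e e' hs hs' he
    fc_inj := fun j j' z z' hz hz' he => P.g_inj j j' hz hz' he
    vx_ne_ed := fun v e s hs => ofCW_ne (by norm_num) (ofCW_vx_mem v) (ofCWPar1.g_mem_open e hs)
    vx_ne_fc := fun v j z hz => ofCW_ne (by norm_num) (ofCW_vx_mem v) (P.g_mem_open j hz)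
    ed_ne_fc := fun e s j z hs hz =>
      ofCW_ne (by norm_num) (ofCWPar1.g_mem_open e hs) (P.g_mem_open j hz)
    closed2 := ?_
    closed1 := ?_ }, hf.finite_cell 0, hf.finite_cell 1, hf.finite_cell 2⟩
  · intro e s hs
    have h1 : ‖s‖ = -s := by rw [Real.norm_eq_abs, abs_of_neg (by linarith)]
    have h2 : s ≠ 0 := by linarith [hs] |> fun (h : s < 0) => h.ne
    rw [ofCWPar1.g_ge e (by rw [h1]; linarith), ← hsrc, h1, smul_eq_mul]
    congr 1
    field_simp
  · intro e s hs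
    have h1 : ‖s‖ = s := by rw [Real.norm_eq_abs, abs_of_pos (by linarith)]
    have h2 : s ≠ 0 := by linarith [hs] |> fun (h : 0 < s) => h.ne'
    rw [ofCWPar1.g_ge e (by rw [h1]; linarith), ← htgt, h1, smul_eq_mul, inv_mul_cancel₀ h2]
  · intro j z hz
    rw [P.g_ge j hz, Complex.real_smul, Complex.ofReal_inv, mul_comm, div_eq_mul_inv]
  · intro j z hz
    obtain ⟨m, hm, i, hi⟩ := P.g_mem_frontier j hz
    exact low _ m hm i hi
  · intro x
    have hx : x ∈ ⋃ (n : ℕ) (j : cell (univ : Set Y) n), openCell n j := by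
      rw [iUnion_openCell_eq_complex]; trivial
    simp only [mem_iUnion] at hx
    obtain ⟨m, i, hi⟩ := hx
    rcases lt_trichotomy m 2 with hm | rfl | hm
    · rcases low x m hm i hi with h1 | h1
      · exact Or.inl h1
      · exact Or.inr (Or.inl h1)
    · obtain ⟨z, hz, e⟩ := P.exists_of_mem_open i hi
      exact Or.inr (Or.inr ⟨i, z, hz, e⟩)
    · exact (h m hm).elim i
  · intro A h1 h2
    refine isClosed_of_disjoint_openCell_or_isClosed_inter_closedCell (subset_univ A) ?_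
    intro m hm i
    rcases lt_trichotomy m 2 with hm2 | rfl | hm2
    · obtain rfl : m = 1 := by omega
      exact Or.inr (ofCWPar1.isClosed_inter i (h1 i))
    · exact Or.inr (P.isClosed_inter i (h2 i))
    · exact (h m hm2).elim i
  · intro A h0 h1
    refine isClosed_of_disjoint_openCell_or_isClosed_inter_closedCell (subset_univ A) ?_
    intro m hm i
    rcases lt_or_ge m 2 with hm2 | hm2
    · obtain rfl : m = 1 := by omega
      exact Or.inr (ofCWPar1.isClosed_inter i (h1 i))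
    · refine Or.inl (disjoint_left.2 fun x hx hxi => ?_)
      rcases h0 x hx with ⟨v, hv⟩ | ⟨e, s, hs, he⟩
      · exact ofCW_ne (by omega) hxi (ofCW_vx_mem v) hv
      · exact ofCW_ne (by omega) hxi (ofCWPar1.g_mem_open e hs) he

end

end Crest.Agent.R251.Top
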