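import Mathlib

/-!
# Row 251, topology: elementwise homological algebra

`C` is an abelian group with `d ∘ d = 0` (all degrees at once), `A ≤ U` are subcomplexes.  `RZ`, `RB`: relative cycles and
boundaries of `(U, A)`; `RAcyc`: `H(U, A) = 0`; `RBasis d A U g`: the classes of the `g i` are a `ℤ`-basis of `H(U, A)`.
All proofs are diagram chases with `Submodule.mem_sup`, `Submodule.mem_map`.
-/

set_option autoImplicit false

namespace Crest.Agent.R251.Top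

noncomputable section

variable {C C' : Type} [AddCommGroup C] [AddCommGroup C'] {ι : Type}

/-- a subcomplex -/
def Sub (d : C →ₗ[ℤ] C) (A : Submodule ℤ C) : Prop := ∀ c ∈ A, d c ∈ A

/-- relative cycles -/
def RZ (d : C →ₗ[ℤ] C) (A U : Submodule ℤ C) : Submodule ℤ C := U ⊓ A.comap d

/-- relative boundaries -/
def RB (d : C →ₗ[ℤ] C) (A U : Submodule ℤ C) : Submodule ℤ C := U.map d ⊔ A

/-- `H(U, A) = 0` -/
def RAcyc (d : C →ₗ[ℤ] C) (A U : Submodule ℤ C) : Prop := RZ d A U ≤ RB d A U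

/-- integral linear combinations -/
abbrev zc (g : ι → C) : (ι →₀ ℤ) →ₗ[ℤ] C := Finsupp.linearCombination ℤ g

/-- the classes of the `g i` form a basis of `H(U, A)` -/
structure RBasis (d : C →ₗ[ℤ] C) (A U : Submodule ℤ C) (g : ι → C) : Prop where
  mem : ∀ i, g i ∈ RZ d A U
  span : ∀ c ∈ RZ d A U, ∃ x, c - zc g x ∈ RB d A U
  indep : ∀ x, zc g x ∈ RB d A U → x = 0

variable {d : C →ₗ[ℤ] C} {d' : C' →ₗ[ℤ] C'} {L A A' U U' O₁ O₂ : Submodule ℤ C} {g g' : ι → C}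

theorem mem_RZ {c : C} : c ∈ RZ d A U ↔ c ∈ U ∧ d c ∈ A := Iff.rfl

theorem mem_RB {c : C} : c ∈ RB d A U ↔ ∃ b ∈ U, ∃ a ∈ A, c = d b + a := by
  rw [RB, Submodule.mem_sup]
  constructor
  · rintro ⟨_, ⟨b, hb, rfl⟩, a, ha, rfl⟩
    exact ⟨b, hb, a, ha, rfl⟩
  · rintro ⟨b, hb, a, ha, rfl⟩
    exact ⟨_, ⟨b, hb, rfl⟩, a, ha, rfl⟩

theorem mem_RB_bot {c : C} : c ∈ RB d ⊥ U ↔ ∃ b ∈ U, d b = c := by
  rw [RB, sup_bot_eq, Submodule.mem_map]

theorem sub_bot (d : C →ₗ[ℤ] C) : Sub d ⊥ := by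
  intro c hc
  rw [(Submodule.mem_bot ℤ).1 hc, map_zero]
  exact Submodule.zero_mem _

theorem sub_top (d : C →ₗ[ℤ] C) : Sub d ⊤ := by
  exact fun _ _ => trivial

theorem Sub.sup (h₁ : Sub d O₁) (h₂ : Sub d O₂) : Sub d (O₁ ⊔ O₂) := by
  intro c hc
  obtain ⟨a, ha, b, hb, rfl⟩ := Submodule.mem_sup.1 hc
  rw [map_add]
  exact Submodule.add_mem_sup (h₁ a ha) (h₂ b hb)

theorem Sub.inf (h₁ : Sub d O₁) (h₂ : Sub d O₂) : Sub d (O₁ ⊓ O₂) := by
  exact fun c hc => ⟨h₁ c hc.1, h₂ c hc.2⟩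

theorem Sub.iSup {O : ι → Submodule ℤ C} (h : ∀ i, Sub d (O i)) : Sub d (⨆ i, O i) := by
  exact fun c hc => (iSup_le (a := (⨆ i, O i).comap d) fun i a ha =>
    Submodule.mem_iSup_of_mem i (h i a ha)) hc

theorem racyc_bot_iff : RAcyc d ⊥ U ↔ ∀ c ∈ U, d c = 0 → ∃ b ∈ U, d b = c := by
  exact ⟨fun h c hc h0 => mem_RB_bot.1 (h ⟨hc, h0⟩), fun h c hc => mem_RB_bot.2 (h c hc.1 hc.2)⟩

theorem haa_left (hd : ∀ c, d (d c) = 0) (hA' : A' ≤ U) (h₁ : RAcyc d A A') {c : C}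
    (hc : c ∈ RB d A' U) (hc' : d c ∈ A) : c ∈ RB d A U := by
  obtain ⟨b, hb, a', ha', rfl⟩ := mem_RB.1 hc
  rw [map_add, hd, zero_add] at hc'
  obtain ⟨b', hb', a, ha, rfl⟩ := mem_RB.1 (h₁ (mem_RZ.2 ⟨ha', hc'⟩))
  exact mem_RB.2 ⟨b + b', U.add_mem hb (hA' hb'), a, ha, by rw [map_add, add_assoc]⟩

theorem haa_right (hd : ∀ c, d (d c) = 0) (hAU : A ≤ U') (hac : RAcyc d U' U) {c : C}
    (hc : c ∈ RB d A U) (hc' : c ∈ U') : c ∈ RB d A U' := by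
  obtain ⟨b, hb, a, ha, rfl⟩ := mem_RB.1 hc
  obtain ⟨b', -, u, hu, rfl⟩ :=
    mem_RB.1 (hac (mem_RZ.2 ⟨hb, (U'.add_mem_iff_left (hAU ha)).1 hc'⟩))
  exact mem_RB.2 ⟨u, hu, a, ha, by rw [map_add, hd, zero_add]⟩

theorem haa_rep (hAU : A ≤ U') (hac : RAcyc d U' U) {c : C} (hc : c ∈ RZ d A U) :
    ∃ c' ∈ U', c - c' ∈ RB d A U := by
  obtain ⟨b, hb, u, hu, rfl⟩ := mem_RB.1 (hac (mem_RZ.2 ⟨hc.1, hAU hc.2⟩))
  exact ⟨u, hu, mem_RB.2 ⟨b, hb, 0, A.zero_mem, by rw [add_sub_cancel_right, add_zero]⟩⟩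

theorem haa_d_RB (hd : ∀ c, d (d c) = 0) (hA : Sub d A) {c : C} (hc : c ∈ RB d A U) : d c ∈ A := by
  obtain ⟨b, -, a, ha, rfl⟩ := mem_RB.1 hc
  rw [map_add, hd, zero_add]
  exact hA a ha

theorem haa_RB_mono (hA : A ≤ A') (hU : U ≤ U') : RB d A U ≤ RB d A' U' :=
  sup_le_sup (Submodule.map_mono hU) hA

theorem haa_zc_mem {N : Submodule ℤ C} (h : ∀ i, g i ∈ N) (x : ι →₀ ℤ) : zc g x ∈ N := by
  rw [Finsupp.linearCombination_apply, Finsupp.sum]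
  exact N.sum_mem fun i _ => N.smul_mem _ (h i)

theorem haa_zc_sub (g g' : ι → C) (x : ι →₀ ℤ) :
    zc g x - zc g' x = zc (fun i => g i - g' i) x := by
  simp only [Finsupp.linearCombination_apply, Finsupp.sum, smul_sub, Finset.sum_sub_distrib]

theorem RAcyc.trans (hd : ∀ c, d (d c) = 0) (hA : A ≤ A') (hA' : A' ≤ U) (h₁ : RAcyc d A A') (h₂ : RAcyc d A' U) :
    RAcyc d A U := by
  exact fun c hc => haa_left hd hA' h₁ (h₂ (mem_RZ.2 ⟨hc.1, hA hc.2⟩)) hc.2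

/-- two acyclic complexes have an acyclic quotient -/
theorem RAcyc.of_bot (hd : ∀ c, d (d c) = 0) (hA : A ≤ U) (h₁ : RAcyc d ⊥ A) (h₂ : RAcyc d ⊥ U) :
    RAcyc d A U := by
  intro c hc
  obtain ⟨a, ha, h⟩ := racyc_bot_iff.1 h₁ (d c) hc.2 (hd c)
  obtain ⟨b, hb, h'⟩ := racyc_bot_iff.1 h₂ (c - a) (U.sub_mem hc.1 (hA ha))
    (by rw [map_sub, h, sub_self])
  exact mem_RB.2 ⟨b, hb, a, ha, by rw [h', sub_add_cancel]⟩

theorem RBasis.reindex {κ : Type} (h : RBasis d A U g) (e : κ ≃ ι) : RBasis d A U (g ∘ e) := by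
  refine ⟨fun i => h.mem _, fun c hc => ?_, fun x hx => ?_⟩
  · obtain ⟨x, hx⟩ := h.span c hc
    refine ⟨x.mapDomain e.symm, ?_⟩
    rwa [← Finsupp.linearCombination_mapDomain, ← Finsupp.mapDomain_comp, e.self_comp_symm,
      Finsupp.mapDomain_id]
  · rw [← Finsupp.linearCombination_mapDomain] at hx
    exact Finsupp.mapDomain_injective e.injective ((h.indep _ hx).trans Finsupp.mapDomain_zero.symm)

theorem RBasis.congr (hd : ∀ c, d (d c) = 0) (hA : Sub d A) (hU : Sub d U) (hAU : A ≤ U) (h : RBasis d A U g)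
    (hg : ∀ i, g i - g' i ∈ RB d A U) : RBasis d A U g' := by
  have h1 : ∀ x, zc g x - zc g' x ∈ RB d A U := fun x => by
    rw [haa_zc_sub]
    exact haa_zc_mem hg x
  have h2 : RB d A U ≤ RZ d A U := fun c hc => by
    refine mem_RZ.2 ⟨?_, haa_d_RB hd hA hc⟩
    obtain ⟨b, hb, a, ha, rfl⟩ := mem_RB.1 hc
    exact U.add_mem (hU b hb) (hAU ha)
  refine ⟨fun i => ?_, fun c hc => ?_, fun x hx => h.indep x ?_⟩
  · simpa using (RZ d A U).sub_mem (h.mem i) (h2 (hg i))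
  · obtain ⟨x, hx⟩ := h.span c hc
    exact ⟨x, by simpa using (RB d A U).add_mem hx (h1 x)⟩
  · simpa using (RB d A U).add_mem (h1 x) hx

/-- changing the lower complex by an acyclic pair -/
theorem RBasis.left_iff (hd : ∀ c, d (d c) = 0) (hA : Sub d A) (hA' : Sub d A') (hAA : A ≤ A') (hAU : A' ≤ U)
    (hac : RAcyc d A A') (hg : ∀ i, d (g i) ∈ A) : RBasis d A U g ↔ RBasis d A' U g := by
  have h1 : ∀ x, d (zc g x) ∈ A := fun x => haa_zc_mem (N := A.comap d) hg x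
  constructor
  · intro h
    refine ⟨fun i => mem_RZ.2 ⟨(h.mem i).1, hAA (hg i)⟩, fun c hc => ?_,
      fun x hx => h.indep x (haa_left hd hAU hac hx (h1 x))⟩
    obtain ⟨b, hb, a, ha, e⟩ := mem_RB.1 (hac (mem_RZ.2 ⟨hc.2, (hd c).symm ▸ A.zero_mem⟩))
    obtain ⟨x, hx⟩ := h.span (c - b) (mem_RZ.2 ⟨U.sub_mem hc.1 (hAU hb), by
      rwa [map_sub, e, add_sub_cancel_left]⟩)
    refine ⟨x, ?_⟩
    have h2 := (RB d A' U).add_mem (haa_RB_mono hAA le_rfl hx) (Submodule.mem_sup_right hb)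
    rwa [sub_right_comm, sub_add_cancel] at h2
  · intro h
    refine ⟨fun i => mem_RZ.2 ⟨(h.mem i).1, hg i⟩, fun c hc => ?_,
      fun x hx => h.indep x (haa_RB_mono hAA le_rfl hx)⟩
    obtain ⟨x, hx⟩ := h.span c (mem_RZ.2 ⟨hc.1, hAA hc.2⟩)
    refine ⟨x, haa_left hd hAU hac hx ?_⟩
    rw [map_sub]
    exact A.sub_mem hc.2 (h1 x)

/-- changing the upper complex by an acyclic pair -/
theorem RBasis.right_iff (hd : ∀ c, d (d c) = 0) (hA : Sub d A) (hU' : Sub d U') (hAU : A ≤ U') (hUU : U' ≤ U)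
    (hac : RAcyc d U' U) (hg : ∀ i, g i ∈ U') : RBasis d A U' g ↔ RBasis d A U g := by
  have h1 : ∀ x, zc g x ∈ U' := haa_zc_mem hg
  constructor
  · intro h
    refine ⟨fun i => mem_RZ.2 ⟨hUU (hg i), (h.mem i).2⟩, fun c hc => ?_,
      fun x hx => h.indep x (haa_right hd hAU hac hx (h1 x))⟩
    obtain ⟨c', hc', e⟩ := haa_rep hAU hac hc
    have h2 := A.sub_mem hc.2 (haa_d_RB hd hA e)
    rw [← map_sub, sub_sub_cancel] at h2
    obtain ⟨x, hx⟩ := h.span c' (mem_RZ.2 ⟨hc', h2⟩)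
    exact ⟨x, by simpa using (RB d A U).add_mem e (haa_RB_mono le_rfl hUU hx)⟩
  · intro h
    refine ⟨fun i => mem_RZ.2 ⟨hg i, (h.mem i).2⟩, fun c hc => ?_,
      fun x hx => h.indep x (haa_RB_mono le_rfl hUU hx)⟩
    obtain ⟨x, hx⟩ := h.span c (mem_RZ.2 ⟨hUU hc.1, hc.2⟩)
    exact ⟨x, haa_right hd hAU hac hx (U'.sub_mem hc.1 (h1 x))⟩

theorem RAcyc.exists_rep (hAU : A ≤ U') (hac : RAcyc d U' U) {c : C} (hc : c ∈ RZ d A U) :
    ∃ c' ∈ U', c - c' ∈ RB d A U := by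
  exact haa_rep hAU hac hc

theorem hab_zc_mem {S : Submodule ℤ C} (hg : ∀ i, g i ∈ S) (x : ι →₀ ℤ) : zc g x ∈ S := by
  rw [Finsupp.linearCombination_apply]
  exact Submodule.finsuppSum_mem _ _ _ _ fun i _ => S.smul_mem _ (hg i)

theorem hab_map_zc (φ : C →ₗ[ℤ] C') (g : ι → C) (x : ι →₀ ℤ) :
    φ (zc g x) = zc (fun i => φ (g i)) x := Finsupp.apply_linearCombination ℤ φ g x

theorem hab_RB_mono (hA : A ≤ A') (hU : U ≤ U') : RB d A U ≤ RB d A' U' :=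
  sup_le_sup (Submodule.map_mono hU) hA

theorem hab_RB_inf (h₁ : Sub d O₁) (h₂ : Sub d O₂) {c : C} (hc : c ∈ O₂) :
    c ∈ RB d (O₁ ⊓ O₂) O₂ ↔ c ∈ RB d O₁ (O₁ ⊔ O₂) := by
  refine ⟨fun h => hab_RB_mono inf_le_left le_sup_right h, fun h => ?_⟩
  obtain ⟨b, hb, a, ha, e⟩ := mem_RB.1 h
  obtain ⟨y, hy, z, hz, rfl⟩ := Submodule.mem_sup.1 hb
  refine mem_RB.2 ⟨z, hz, d y + a, ⟨add_mem (h₁ y hy) ha, ?_⟩, by rw [e, map_add]; abel⟩
  have : d y + a = c - d z := by rw [e, map_add]; abel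
  rw [this]
  exact sub_mem hc (h₂ z hz)

/-- the second isomorphism theorem -/
theorem RBasis.inf_iff (h₁ : Sub d O₁) (h₂ : Sub d O₂) (hg : ∀ i, g i ∈ O₂) :
    RBasis d (O₁ ⊓ O₂) O₂ g ↔ RBasis d O₁ (O₁ ⊔ O₂) g := by
  have hz := hab_zc_mem hg
  constructor
  · intro h
    refine ⟨fun i => ⟨Submodule.mem_sup_right (hg i), (h.mem i).2.1⟩, fun c hc => ?_,
      fun x hx => h.indep x ((hab_RB_inf h₁ h₂ (hz x)).2 hx)⟩
    obtain ⟨y, hy, z, hz', rfl⟩ := Submodule.mem_sup.1 hc.1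
    have h1 : d z ∈ O₁ := by
      have := sub_mem (mem_RZ.1 hc).2 (h₁ y hy)
      rwa [map_add, add_sub_cancel_left] at this
    obtain ⟨x, hx⟩ := h.span z ⟨hz', h1, h₂ z hz'⟩
    refine ⟨x, ?_⟩
    rw [add_sub_assoc]
    exact add_mem (Submodule.mem_sup_right hy) (hab_RB_mono inf_le_left le_sup_right hx)
  · intro h
    refine ⟨fun i => ⟨hg i, (h.mem i).2, h₂ _ (hg i)⟩, fun c hc => ?_,
      fun x hx => h.indep x ((hab_RB_inf h₁ h₂ (hz x)).1 hx)⟩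
    obtain ⟨x, hx⟩ := h.span c ⟨Submodule.mem_sup_right hc.1, hc.2.1⟩
    exact ⟨x, (hab_RB_inf h₁ h₂ (sub_mem hc.1 (hz x))).2 hx⟩

/-- excision -/
theorem RBasis.excise_iff (hd : ∀ c, d (d c) = 0) (h₁ : Sub d O₁) (h₂ : Sub d O₂) (hU₁ : O₁ ≤ U) (hU₂ : O₂ ≤ U)
    (hac : RAcyc d (O₁ ⊔ O₂) U) (hg : ∀ i, g i ∈ O₂) : RBasis d (O₁ ⊓ O₂) O₂ g ↔ RBasis d O₁ U g := by
  exact (RBasis.inf_iff h₁ h₂ hg).trans (RBasis.right_iff hd h₁ (h₁.sup h₂) le_sup_left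
    (sup_le hU₁ hU₂) hac fun i => Submodule.mem_sup_right (hg i))

/-- representatives in the excised pair -/
theorem RAcyc.exists_rep_excise (hU₁ : O₁ ≤ U) (hac : RAcyc d (O₁ ⊔ O₂) U) {c : C} (hc : c ∈ RZ d O₁ U) :
    ∃ c' ∈ O₂, c - c' ∈ RB d O₁ U := by
  obtain ⟨c', hc', h⟩ := hac.exists_rep le_sup_left hc
  obtain ⟨y, hy, z, hz, rfl⟩ := Submodule.mem_sup.1 hc'
  refine ⟨z, hz, ?_⟩
  have : c - z = c - (y + z) + y := by abel
  rw [this]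
  exact add_mem h (Submodule.mem_sup_right hy)

/-- the connecting homomorphism of the triple `L ≤ A ≤ U` when `H(U, L) = 0` -/
theorem RBasis.bd_iff (hd : ∀ c, d (d c) = 0) (hL : Sub d L) (hA : Sub d A) (hLA : L ≤ A) (hAU : A ≤ U)
    (hac : RAcyc d L U) (hg : ∀ i, g i ∈ U) : RBasis d A U g ↔ RBasis d L A (fun i => d (g i)) := by
  have hz := hab_zc_mem hg
  have key : ∀ c ∈ U, d c ∈ RB d L A → c ∈ RB d A U := by
    intro c hc h
    obtain ⟨a, ha, l, hl, e⟩ := mem_RB.1 h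
    have h1 : c - a ∈ RZ d L U := mem_RZ.2 ⟨sub_mem hc (hAU ha), by
      rw [map_sub, e, add_sub_cancel_left]; exact hl⟩
    have := add_mem (hab_RB_mono hLA le_rfl (hac h1))
      (Submodule.mem_sup_right ha : a ∈ RB d A U)
    rwa [sub_add_cancel] at this
  have key' : ∀ c ∈ RB d A U, d c ∈ RB d L A := by
    intro c h
    obtain ⟨b, -, a, ha, rfl⟩ := mem_RB.1 h
    rw [map_add, hd, zero_add]
    exact Submodule.mem_sup_left (Submodule.mem_map_of_mem ha)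
  constructor
  · intro h
    refine ⟨fun i => mem_RZ.2 ⟨(h.mem i).2, by rw [hd]; exact zero_mem _⟩, fun c hc => ?_,
      fun x hx => h.indep x (key _ (hz x) (by rwa [hab_map_zc]))⟩
    obtain ⟨b, hb, l, hl, e⟩ := mem_RB.1 (hac ⟨hAU hc.1, hc.2⟩)
    have h1 : d b ∈ A := by
      rw [← sub_eq_iff_eq_add.2 e]
      exact sub_mem hc.1 (hLA hl)
    obtain ⟨x, hx⟩ := h.span b ⟨hb, h1⟩
    refine ⟨x, ?_⟩
    have := add_mem (key' _ hx) (Submodule.mem_sup_right hl : l ∈ RB d L A)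
    rw [map_sub, hab_map_zc] at this
    rw [e, add_sub_right_comm]
    exact this
  · intro h
    refine ⟨fun i => ⟨hg i, (h.mem i).1⟩, fun c hc => ?_,
      fun x hx => h.indep x (by rw [← hab_map_zc]; exact key' _ hx)⟩
    obtain ⟨x, hx⟩ := h.span (d c) (mem_RZ.2 ⟨hc.2, by rw [hd]; exact zero_mem _⟩)
    exact ⟨x, key _ (sub_mem hc.1 (hz x)) (by rwa [map_sub, hab_map_zc])⟩

/-- Mayer–Vietoris for two acyclic pieces -/
theorem RBasis.mv (hd : ∀ c, d (d c) = 0) (h₁ : Sub d O₁) (h₂ : Sub d O₂) (hU : Sub d U) (hU₁ : O₁ ≤ U)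
    (hU₂ : O₂ ≤ U) (hac : RAcyc d (O₁ ⊔ O₂) U) (ha₁ : RAcyc d ⊥ O₁) (ha₂ : RAcyc d ⊥ O₂) {c b₁ b₂ : ι → C}
    (hc : RBasis d ⊥ (O₁ ⊓ O₂) c) (hb₁ : ∀ i, b₁ i ∈ O₁) (hb₂ : ∀ i, b₂ i ∈ O₂) (hd₁ : ∀ i, d (b₁ i) = c i)
    (hd₂ : ∀ i, d (b₂ i) = c i) : RBasis d ⊥ U (fun i => b₂ i - b₁ i) := by
  have e : c = fun i => d (b₂ i) := funext fun i => (hd₂ i).symm
  have h1 : RBasis d (O₁ ⊓ O₂) O₂ b₂ :=
    (RBasis.bd_iff hd (sub_bot d) (h₁.inf h₂) bot_le inf_le_right ha₂ hb₂).2 (e ▸ hc)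
  have h2 : RBasis d O₁ U b₂ := (RBasis.excise_iff hd h₁ h₂ hU₁ hU₂ hac hb₂).1 h1
  have h3 : RBasis d O₁ U (fun i => b₂ i - b₁ i) := h2.congr hd h₁ hU hU₁ fun i => by
    rw [sub_sub_cancel]; exact Submodule.mem_sup_right (hb₁ i)
  exact (RBasis.left_iff hd (sub_bot d) h₁ bot_le hU₁ ha₁ fun i => by
    rw [map_sub, hd₁, hd₂, sub_self]; exact zero_mem _).2 h3

theorem hab_map_RZ (φ : C →ₗ[ℤ] C') (hφ : Function.Injective φ) (hc : ∀ c, d' (φ c) = φ (d c))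
    {c : C} : φ c ∈ RZ d' (A.map φ) (U.map φ) ↔ c ∈ RZ d A U := by
  have h : ∀ (S : Submodule ℤ C) (x : C), φ x ∈ S.map φ ↔ x ∈ S := fun S x =>
    ⟨fun ⟨y, hy, e⟩ => hφ e ▸ hy, Submodule.mem_map_of_mem⟩
  rw [mem_RZ, mem_RZ, hc, h, h]

theorem hab_map_RB (φ : C →ₗ[ℤ] C') (hφ : Function.Injective φ) (hc : ∀ c, d' (φ c) = φ (d c))
    {c : C} : φ c ∈ RB d' (A.map φ) (U.map φ) ↔ c ∈ RB d A U := by
  rw [mem_RB, mem_RB]
  constructor
  · rintro ⟨_, ⟨b, hb, rfl⟩, _, ⟨a, ha, rfl⟩, e⟩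
    exact ⟨b, hb, a, ha, hφ (by rw [e, hc, map_add])⟩
  · rintro ⟨b, hb, a, ha, rfl⟩
    exact ⟨_, ⟨b, hb, rfl⟩, _, ⟨a, ha, rfl⟩, by rw [hc, map_add]⟩

/-- transfer along an injective chain map -/
theorem RBasis.map_inj (φ : C →ₗ[ℤ] C') (hφ : Function.Injective φ) (hc : ∀ c, d' (φ c) = φ (d c))
    (h : RBasis d A U g) : RBasis d' (A.map φ) (U.map φ) (fun i => φ (g i)) := by
  refine ⟨fun i => (hab_map_RZ φ hφ hc).2 (h.mem i), fun c' hc' => ?_, fun x hx => h.indep x ?_⟩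
  · obtain ⟨c, -, rfl⟩ := hc'.1
    obtain ⟨x, hx⟩ := h.span c ((hab_map_RZ φ hφ hc).1 hc')
    exact ⟨x, by rw [← hab_map_zc, ← map_sub]; exact (hab_map_RB φ hφ hc).2 hx⟩
  · rw [← hab_map_zc] at hx
    exact (hab_map_RB φ hφ hc).1 hx

theorem RAcyc.map_inj (φ : C →ₗ[ℤ] C') (hφ : Function.Injective φ) (hc : ∀ c, d' (φ c) = φ (d c))
    (h : RAcyc d A U) : RAcyc d' (A.map φ) (U.map φ) := by
  intro c' hc'
  obtain ⟨c, -, rfl⟩ := hc'.1
  exact (hab_map_RB φ hφ hc).2 (h ((hab_map_RZ φ hφ hc).1 hc'))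

/-- transfer along a deformation retraction `φ` with section `ψ` (absolute version) -/
theorem RBasis.of_retract {V : Submodule ℤ C'} (φ : C →ₗ[ℤ] C') (ψ : C' →ₗ[ℤ] C)
    (hφ : ∀ c, d' (φ c) = φ (d c)) (hψ : ∀ c, d (ψ c) = ψ (d' c)) (hφU : ∀ c ∈ U, φ c ∈ V)
    (hψV : ∀ c ∈ V, ψ c ∈ U)
    (h₂ : ∀ c ∈ U, d c = 0 → ∃ b ∈ U, d b = ψ (φ c) - c) (hg : ∀ i, g i ∈ U ∧ d (g i) = 0)
    (h : RBasis d' ⊥ V (fun i => φ (g i))) : RBasis d ⊥ U g := by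
  refine ⟨fun i => mem_RZ.2 ⟨(hg i).1, (hg i).2⟩, fun c hc => ?_, fun x hx => h.indep x ?_⟩
  · have hc0 : d c = 0 := hc.2
    obtain ⟨x, hx⟩ := h.span (φ c) (mem_RZ.2 ⟨hφU c hc.1, by rw [hφ, hc0, map_zero]; exact zero_mem _⟩)
    obtain ⟨v, hv, e⟩ := mem_RB_bot.1 hx
    rw [← hab_map_zc, ← map_sub] at e
    have hz : d (zc g x) = 0 :=
      hab_zc_mem (S := LinearMap.ker d) (fun i => (hg i).2) x
    obtain ⟨b, hb, e'⟩ := h₂ _ (sub_mem hc.1 (hab_zc_mem (fun i => (hg i).1) x))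
      (by rw [map_sub, hc0, hz, sub_self])
    refine ⟨x, mem_RB_bot.2 ⟨ψ v - b, sub_mem (hψV v hv) hb, ?_⟩⟩
    rw [map_sub, hψ, e, e', sub_sub_cancel]
  · obtain ⟨b, hb, e⟩ := mem_RB_bot.1 hx
    exact mem_RB_bot.2 ⟨φ b, hφU b hb, by rw [hφ, e, hab_map_zc]⟩

/-- direct sums: the pieces `(Us j, As j)` are independent modulo the common part `L`, on which `d` vanishes -/
theorem RBasis.iSup {As Us : ι → Submodule ℤ C} (π : ι → C →ₗ[ℤ] C) (hL : ∀ c ∈ L, d c = 0)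
    (hLA : ∀ j, L ≤ As j) (hAU : ∀ j, As j ≤ Us j) (hA : ∀ j, Sub d (As j)) (hU : ∀ j, Sub d (Us j))
    (hπ : ∀ j, ∀ u ∈ Us j, u - π j u ∈ L) (hπ' : ∀ j j', j ≠ j' → ∀ u ∈ Us j', π j u = 0)
    (h : ∀ j, RBasis d (As j) (Us j) (fun _ : Unit => g j)) : RBasis d (⨆ j, As j) (⨆ j, Us j) g := by
  classical
  have P : ∀ (S : ι → Submodule ℤ C), (∀ j, L ≤ S j) → (∀ j, S j ≤ Us j) →
      ∀ j, ∀ c ∈ ⨆ j, S j, π j c ∈ S j := by
    intro S h1 h2 j c hc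
    induction hc using Submodule.iSup_induction' with
    | mem j' c hc =>
      by_cases e : j = j'
      · subst e
        have := sub_mem hc (h1 j (hπ j c (h2 j hc)))
        rwa [sub_sub_cancel] at this
      · rw [hπ' j j' e c (h2 j' hc)]; exact zero_mem _
    | zero => rw [map_zero]; exact zero_mem _
    | add x y _ _ hx hy => rw [map_add]; exact add_mem hx hy
  have P1 := P As hLA hAU
  have P2 := P Us (fun j => (hLA j).trans (hAU j)) fun _ => le_rfl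
  have hdπ : ∀ j, ∀ u ∈ Us j, d (π j u) = d u := fun j u hu => by
    have := hL _ (hπ j u hu)
    rw [map_sub, sub_eq_zero] at this
    exact this.symm
  have P3 : ∀ j, ∀ c ∈ ⨆ j, Us j, d (π j c) - π j (d c) ∈ L := by
    intro j c hc
    induction hc using Submodule.iSup_induction' with
    | mem j' c hc =>
      by_cases e : j = j'
      · subst e
        rw [hdπ j c hc]
        exact hπ j _ (hU j c hc)
      · rw [hπ' j j' e c hc, hπ' j j' e _ (hU j' c hc), map_zero, sub_zero]; exact zero_mem _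
    | zero => simp
    | add x y _ _ hx hy =>
      have := add_mem hx hy
      simp only [map_add]
      convert this using 1
      abel
  have hg : ∀ j, g j ∈ Us j := fun j => ((h j).mem ()).1
  refine ⟨fun j => mem_RZ.2 ⟨Submodule.mem_iSup_of_mem j (hg j),
    Submodule.mem_iSup_of_mem j ((h j).mem ()).2⟩, fun c hc => ?_, fun x hx => ?_⟩
  · obtain ⟨u, hu, e⟩ := (Submodule.mem_iSup_iff_exists_finsupp _ _).1 hc.1
    have h1 : ∀ j, π j c = π j (u j) := by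
      intro j
      rw [← e, Finsupp.sum, map_sum, Finset.sum_eq_single j]
      · intro j' _ hj; exact hπ' j j' hj.symm _ (hu j')
      · intro hj; rw [Finsupp.notMem_support_iff.1 hj, map_zero]
    have h2 : ∀ j, d (u j) ∈ As j := by
      intro j
      have := add_mem (hLA j (P3 j c hc.1)) (P1 j _ hc.2)
      rwa [sub_add_cancel, h1, hdπ j _ (hu j)] at this
    have h3 : ∀ j, ∃ y : Unit →₀ ℤ, u j - zc (fun _ => g j) y ∈ RB d (As j) (Us j) := fun j =>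
      (h j).span _ ⟨hu j, h2 j⟩
    choose y hy using h3
    refine ⟨∑ j ∈ u.support, Finsupp.single j (y j ()), ?_⟩
    rw [← e, Finsupp.sum, map_sum, ← Finset.sum_sub_distrib]
    refine sum_mem fun j _ => hab_RB_mono (le_iSup As j) (le_iSup Us j) ?_
    have := hy j
    rw [Finsupp.linearCombination_unique] at this
    rwa [Finsupp.linearCombination_single]
  · obtain ⟨b, hb, a, ha, e⟩ := mem_RB.1 hx
    ext j
    have h1 : π j (zc g x) = x j • π j (g j) := by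
      rw [hab_map_zc, Finsupp.linearCombination_apply, Finsupp.sum, Finset.sum_eq_single j]
      · intro j' _ hj; rw [hπ' j j' hj.symm _ (hg j'), smul_zero]
      · intro hj; rw [Finsupp.notMem_support_iff.1 hj, zero_smul]
    have h2 : zc (fun _ : Unit => g j) (Finsupp.single () (x j)) ∈ RB d (As j) (Us j) := by
      rw [Finsupp.linearCombination_single]
      refine mem_RB.2 ⟨π j b, P2 j b hb, x j • (g j - π j (g j)) - (d (π j b) - π j (d b)) + π j a,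
        add_mem (hLA j (sub_mem (L.smul_mem _ (hπ j _ (hg j))) (P3 j b hb))) (P1 j a ha), ?_⟩
      rw [smul_sub, ← h1, e, map_add]
      abel
    simpa using (h j).indep _ h2

end

end Crest.Agent.R251.Top
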