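import Crest.Agent.R251.Top.Formal
import Crest.Agent.R251.Top.HA

/-!
# Row 251, topology: homotopy invariance
-/

set_option autoImplicit false

open Set

local notation "I" => unitInterval

namespace Crest.Agent.R251.Top

noncomputable section

variable {X Y : Type} [TopologicalSpace X] [TopologicalSpace Y]

theorem sub_Sup (A : Set X) : Sub bd (Sup A) := fun _ h => bd_mem_Sup h

/-- top minus bottom -/
def praF (A : Type) : OC A →ₗ[ℤ] OC (I × A) :=
  omp (fun x => ((1 : I), x)) - omp (fun x => ((0 : I), x))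

/-- the formal prism operator -/
def praP (A : Type) : OC A →ₗ[ℤ] OC (I × A) := amh (fun _ v => ((0 : I), v 0)) (praF A)

theorem pra_obd (A : Type) (c : OC A) : obd (praP A c) + praP A (obd c) = praF A c := by
  refine obd_amh _ (fun c => ?_) (fun v => ?_) c
  · rw [praF, LinearMap.sub_apply, LinearMap.sub_apply, map_sub, obd_omp, obd_omp]
  · rw [praF, LinearMap.sub_apply, omp, omp, oext_ox, oext_ox, sub_eq_zero]
    exact congrArg ox (Subsingleton.elim _ _)

theorem pra_nat {A A' : Type} (f : A → A') (c : OC A) :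
    praP A' (omp f c) = omp (Prod.map id f) (praP A c) := by
  refine amh_natural f (Prod.map id f) (fun _ _ => rfl) (fun c => ?_) c
  rw [praF, praF, LinearMap.sub_apply, LinearMap.sub_apply, map_sub, omp_omp, omp_omp, omp_omp,
    omp_omp]
  rfl

theorem pra_face {k : ℕ} (i : Fin (k + 1)) :
    mp ((ContinuousMap.id I).prodMap (face i)) (real (praP (Dl k) (ox (vert k)))) =
      real (praP (Dl (k + 1)) (ox (vert (k + 1) ∘ Fin.succAbove i))) := by
  rw [mp_real, ← face_comp_vert, ← oext_ox (fun _ v => ox (face i ∘ v)) (vert k)]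
  · exact congrArg real (pra_nat (face i) (ox (vert k))).symm
  · intro m v
    ext1 t
    refine Prod.ext rfl ?_
    change face i (affD (Prod.snd ∘ v) t) = affD (face i ∘ Prod.snd ∘ v) t
    rw [face_eq_affD, ← affD_comp]
    rfl

theorem pra_level (k : ℕ) (u : I) (t : Dl k) :
    Aff.aff ((fun x => (u, x)) ∘ vert k) t = (u, t) :=
  Prod.ext (affI_const u t) (DFunLike.congr_fun (affD_vert k) t)

/-- The prism operator: `h (sx σ) = mp (H ∘ (id × σ)) (real (amh β F (ox (vert k))))` on `I × Dl k` with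
`β k v = (0, v 0)` and `F = omp (1, ·) - omp (0, ·)`; use `obd_amh`, and `amh_natural` for `f = face i`,
`f' = id × face i` (`face_comp_vert`, `mp_real`). -/
theorem exists_prism {f₀ f₁ : C(X, Y)} (H : f₀.Homotopy f₁) :
    ∃ h : Ch X →ₗ[ℤ] Ch Y, (∀ c, bd (h c) + h (bd c) = mp f₁ c - mp f₀ c) ∧
      ∀ (A : Set X) (B : Set Y), (∀ u, ∀ x ∈ A, H (u, x) ∈ B) → ∀ c ∈ Sup A, h c ∈ Sup B := by
  let K : ∀ {k : ℕ}, C(Dl k, X) → C(I × Dl k, Y) := fun σ =>
    H.toContinuousMap.comp ((ContinuousMap.id I).prodMap σ)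
  let h : Ch X →ₗ[ℤ] Ch Y := lext fun k σ => mp (K σ) (real (praP (Dl k) (ox (vert k))))
  have hh : ∀ k (σ : C(Dl k, X)), h (sx σ) = mp (K σ) (real (praP (Dl k) (ox (vert k)))) :=
    fun k σ => lext_sx _ σ
  refine ⟨h, fun c => ?_, fun A B hAB c hc => ?_⟩
  · have e : bd ∘ₗ h + h ∘ₗ bd = mp f₁ - mp f₀ := by
      refine ch_ext fun k σ => ?_
      have e1 : h (bd (sx σ)) = mp (K σ) (real (praP (Dl k) (obd (ox (vert k))))) := by
        cases k with
        | zero =>
          rw [sx_zero, bd_ems, obd, oext_ox, obdS, map_zero, map_zero, map_zero, map_zero]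
        | succ k =>
          rw [bd_sx, obd, oext_ox, obdS, map_sum, map_sum, map_sum, map_sum]
          refine Finset.sum_congr rfl fun i _ => ?_
          rw [map_smul, map_smul, map_smul, map_smul, hh, ← pra_face, mp_mp]
          rfl
      rw [LinearMap.add_apply, LinearMap.comp_apply, LinearMap.comp_apply, LinearMap.sub_apply, e1,
        hh, bd_mp, bd_real, ← map_add, ← map_add, pra_obd, praF, LinearMap.sub_apply, omp, omp,
        oext_ox, oext_ox, map_sub, map_sub, real_ox, real_ox, mp_sx, mp_sx, mp_sx, mp_sx]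
      congr 2
      · ext1 t
        rw [ContinuousMap.comp_apply, pra_level]
        exact H.apply_one _
      · ext1 t
        rw [ContinuousMap.comp_apply, pra_level]
        exact H.apply_zero _
    exact LinearMap.congr_fun e c
  · refine (Sup_le (N := (Sup B).comap h) fun k σ hσ => ?_) hc
    rw [Submodule.mem_comap, hh]
    refine mp_mem_Sup (A := univ) (fun p _ => hAB p.1 _ (hσ p.2)) ?_
    rw [Sup_univ]
    trivial

/-- a deformation of `U` into `A` preserving `A` (apply `exists_prism` on the subtype `U`, `map_Sup_incl`) -/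
theorem racyc_of_deform {A U : Set X} (hAU : A ⊆ U) (H : C(I × U, X)) (h0 : ∀ x : U, H (0, x) = x)
    (hU : ∀ u x, H (u, x) ∈ U) (h1 : ∀ x, H (1, x) ∈ A) (hA : ∀ u (x : U), (x : X) ∈ A → H (u, x) ∈ A) :
    RAcyc bd (Sup A) (Sup U) := by
  let f₁ : C(U, X) := H.comp ⟨fun x => (1, x), by fun_prop⟩
  let H' : (incl U).Homotopy f₁ := ⟨H, h0, fun _ => rfl⟩
  obtain ⟨h, e, hs⟩ := exists_prism H'
  intro c hc
  obtain ⟨hc1, hc2⟩ := mem_RZ.1 hc
  rw [← map_Sup_incl U U subset_rfl] at hc1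
  obtain ⟨c', -, rfl⟩ := hc1
  rw [bd_mp, ← map_Sup_incl U A hAU] at hc2
  obtain ⟨a, ha, hae⟩ := hc2
  obtain rfl := mp_injective (f := incl U) Subtype.val_injective hae
  have hc' : c' ∈ Sup (univ : Set U) := by simp
  refine mem_RB.2 ⟨-h c', neg_mem (hs univ U (fun u x _ => hU u x) c' hc'),
    mp f₁ c' - h (bd c'), sub_mem (mp_mem_Sup (fun x _ => h1 x) hc')
      (hs _ A (fun u x hx => hA u x hx) _ ha), ?_⟩
  rw [map_neg, ← sub_sub_cancel (mp f₁ c') (mp (incl U) c'), ← e c']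
  abel

theorem racyc_singleton (x : X) : RAcyc bd ⊥ (Sup ({x} : Set X)) := by
  exact racyc_bot_iff.2 fun c hc h => exists_bd_of_mem_Sup_singleton hc h

/-- star-shaped sets are acyclic -/
theorem racyc_of_starConvex {V : Type} [NormedAddCommGroup V] [NormedSpace ℝ V] {U : Set V} {a : V}
    (ha : a ∈ U) (hU : StarConvex ℝ a U) : RAcyc bd ⊥ (Sup U) := by
  have h := racyc_of_deform (A := {a}) (U := U) (singleton_subset_iff.2 ha)
    ⟨fun p => (p.1 : ℝ) • a + (1 - (p.1 : ℝ)) • (p.2 : V), by fun_prop⟩ (fun x => by simp)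
    (fun u x => hU x.2 u.2.1 (sub_nonneg.2 u.2.2) (add_sub_cancel _ _)) (fun x => by simp)
    (fun u x hx => by
      rw [mem_singleton_iff] at hx ⊢
      change (u : ℝ) • a + (1 - (u : ℝ)) • (x : V) = a
      rw [hx, ← add_smul, add_sub_cancel, one_smul])
  exact RAcyc.trans bd_bd bot_le (Sup_mono (singleton_subset_iff.2 ha)) (racyc_singleton a) h

theorem racyc_top {V : Type} [NormedAddCommGroup V] [NormedSpace ℝ V] : RAcyc (bd (X := V)) ⊥ ⊤ := by
  rw [← Sup_univ]
  exact racyc_of_starConvex (mem_univ 0) (starConvex_univ 0)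

theorem exists_bd_of_homotopic {f₀ f₁ : C(X, Y)} (H : f₀.Homotopic f₁) {c : Ch X} (hc : bd c = 0) :
    ∃ b, bd b = mp f₁ c - mp f₀ c := by
  obtain ⟨H⟩ := H
  obtain ⟨h, e, -⟩ := exists_prism H
  exact ⟨h c, by rw [← e c, hc, map_zero, add_zero]⟩

theorem he_inj (e : ContinuousMap.HomotopyEquiv X Y) {c : Ch X} (hc : bd c = 0) {b : Ch Y}
    (h : bd b = mp e.toFun c) : ∃ b', bd b' = c := by
  obtain ⟨b₁, h₁⟩ := exists_bd_of_homotopic e.left_inv hc
  refine ⟨b₁ + mp e.invFun b, ?_⟩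
  rw [map_add, h₁, bd_mp, h, mp_mp, mp_id, sub_add_cancel]

theorem he_surj (e : ContinuousMap.HomotopyEquiv X Y) {k : ℕ} {z : Ch Y} (hz : bd z = 0) (hk : z ∈ Deg k) :
    ∃ c ∈ Deg k, bd c = 0 ∧ ∃ b, z = mp e.toFun c + bd b := by
  obtain ⟨b₁, h₁⟩ := exists_bd_of_homotopic e.right_inv hz
  refine ⟨mp e.invFun z, mp_mem_Deg _ hk, by rw [bd_mp, hz, map_zero], b₁, ?_⟩
  rw [h₁, mp_mp, mp_id, add_sub_cancel]

/-- transfer of generators of reduced homology along a deformation retraction (`RBasis.of_retract`) -/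
theorem rbasis_of_retract {ι : Type} {U : Set X} {V : Set Y} (φ : C(X, Y)) (ψ : C(Y, X)) (hφ : MapsTo φ U V)
    (hψ : MapsTo ψ V U) (H : (ContinuousMap.id X).Homotopy (ψ.comp φ)) (hH : ∀ u, ∀ x ∈ U, H (u, x) ∈ U)
    {g : ι → Ch X} (hg : ∀ i, g i ∈ Sup U ∧ bd (g i) = 0)
    (h : RBasis bd ⊥ (Sup V) (fun i => mp φ (g i))) : RBasis bd ⊥ (Sup U) g := by
  obtain ⟨P, e, hs⟩ := exists_prism H
  refine RBasis.of_retract (mp φ) (mp ψ) (bd_mp φ) (bd_mp ψ) (fun c hc => mp_mem_Sup hφ hc)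
    (fun c hc => mp_mem_Sup hψ hc) (fun c hc h0 => ⟨P c, hs U U hH c hc, ?_⟩) hg h
  have := e c
  rwa [h0, map_zero, add_zero, mp_id, ← mp_mp] at this

end

end Crest.Agent.R251.Top
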