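import Crest.Agent.R251.Top.Act
import Crest.Agent.R251.Top.Prism

/-!
# Row 251, topology: equivariant cellular data and the comparison with singular chains
-/

set_option autoImplicit false

open Set Matrix

namespace Crest.Agent.R251.Top

noncomputable section

variable (G : Type) [Group G] {E E' : Type} [TopologicalSpace E] [MulAction G E] [ContinuousConstSMul G E]
  [TopologicalSpace E'] [MulAction G E'] [ContinuousConstSMul G E']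

/-- invariant subsets -/
def Inv (A : Set E) : Prop := ∀ (g : G) e, e ∈ A → g • e ∈ A

/-- the classes of the `c j` form a `ℤ[G]`-basis of `H(U, A)` -/
structure RBasisG {J : Type} [Fintype J] (A U : Set E) (c : J → Ch E) : Prop where
  mem : ∀ j, c j ∈ RZ bd (Sup A) (Sup U)
  span : ∀ z ∈ RZ bd (Sup A) (Sup U), ∃ x : J → ZG G, z - lc c x ∈ RB bd (Sup A) (Sup U)
  indep : ∀ x : J → ZG G, lc c x ∈ RB bd (Sup A) (Sup U) → x = 0

variable {G}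

section

variable {J : Type} [Fintype J] {A U : Set E} {c c' : J → Ch E}

/-- `(G × J →₀ ℤ) ≃ (J → ZG G)` -/
theorem RBasisG.of_rbasis (h : RBasis bd (Sup A) (Sup U) (fun p : G × J => og p.1 • c p.2)) : RBasisG G A U c := by
  classical
  let Φ : (G × J →₀ ℤ) →ₗ[ℤ] (J → ZG G) := zc fun p : G × J => Pi.single p.2 (og p.1)
  have h1 : ∀ w, lc c (Φ w) = zc (fun p : G × J => og p.1 • c p.2) w := fun w => by
    simp only [Φ, Finsupp.linearCombination_apply, Finsupp.sum, map_sum, map_zsmul, lc_single]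
  have h2 : ∀ x, x ∈ LinearMap.range Φ := fun x => by
    rw [← Finset.univ_sum_single x]
    refine Submodule.sum_mem _ fun j _ => ?_
    induction x j using zg_induction with
    | h1 g => exact ⟨Finsupp.single (g, j) 1, by simp [Φ]⟩
    | h0 => rw [Pi.single_zero]; exact zero_mem _
    | hadd a b ha hb => rw [Pi.single_add]; exact add_mem ha hb
    | hneg a ha => rw [Pi.single_neg]; exact neg_mem ha
  refine ⟨fun j => ?_, fun z hz => ?_, fun x hx => ?_⟩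
  · have := h.mem (1, j)
    rwa [fox_og_one, one_smul] at this
  · obtain ⟨w, hw⟩ := h.span z hz
    exact ⟨Φ w, by rwa [h1]⟩
  · obtain ⟨w, rfl⟩ := h2 x
    rw [h1] at hx
    rw [h.indep w hx, map_zero]

theorem cella_smul_RB (hA : Inv G A) (hU : Inv G U) (r : ZG G) {z : Ch E} (hz : z ∈ RB bd (Sup A) (Sup U)) :
    r • z ∈ RB bd (Sup A) (Sup U) := by
  obtain ⟨b, hb, a, ha, rfl⟩ := mem_RB.1 hz
  exact mem_RB.2 ⟨r • b, smul_mem_Sup hU r hb, r • a, smul_mem_Sup hA r ha, by rw [smul_add, bd_smul]⟩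

theorem RBasisG.congr (hA : Inv G A) (hU : Inv G U) (hAU : A ⊆ U) (h : RBasisG G A U c)
    (hc : ∀ j, c j - c' j ∈ RB bd (Sup A) (Sup U)) : RBasisG G A U c' := by
  have h1 : ∀ x : J → ZG G, lc c x - lc c' x ∈ RB bd (Sup A) (Sup U) := fun x => by
    rw [lc_apply, lc_apply, ← Finset.sum_sub_distrib]
    exact Submodule.sum_mem _ fun j _ => by rw [← smul_sub]; exact cella_smul_RB hA hU _ (hc j)
  have h2 : RB bd (Sup A) (Sup U) ≤ RZ bd (Sup A) (Sup U) := fun z hz => by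
    refine mem_RZ.2 ⟨?_, haa_d_RB bd_bd (fun _ => bd_mem_Sup) hz⟩
    obtain ⟨b, hb, a, ha, rfl⟩ := mem_RB.1 hz
    exact add_mem (bd_mem_Sup hb) (Sup_mono hAU ha)
  refine ⟨fun j => ?_, fun z hz => ?_, fun x hx => h.indep x ?_⟩
  · simpa using sub_mem (h.mem j) (h2 (hc j))
  · obtain ⟨x, hx⟩ := h.span z hz
    exact ⟨x, by simpa using add_mem hx (h1 x)⟩
  · simpa using add_mem (h1 x) hx

theorem RBasisG.map {f : C(E, E')} (hf : Topology.IsEmbedding f) (hG : ∀ (g : G) e, f (g • e) = g • f e)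
    (h : RBasisG G A U c) : RBasisG G (f '' A) (f '' U) (fun j => mp f (c j)) := by
  have hi := mp_injective hf.injective
  refine ⟨fun j => ?_, fun z hz => ?_, fun x hx => h.indep x ?_⟩
  · rw [← map_Sup_of_isEmbedding hf, ← map_Sup_of_isEmbedding hf]
    exact (hab_map_RZ _ hi (bd_mp f)).2 (h.mem j)
  · rw [← map_Sup_of_isEmbedding hf, ← map_Sup_of_isEmbedding hf] at hz ⊢
    obtain ⟨y, -, rfl⟩ := hz.1
    obtain ⟨x, hx⟩ := h.span y ((hab_map_RZ _ hi (bd_mp f)).1 hz)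
    exact ⟨x, by rw [← mp_lc hG, ← map_sub]; exact (hab_map_RB _ hi (bd_mp f)).2 hx⟩
  · rw [← map_Sup_of_isEmbedding hf, ← map_Sup_of_isEmbedding hf, ← mp_lc hG] at hx
    exact (hab_map_RB _ hi (bd_mp f)).1 hx

theorem RBasisG.empty (A : Set E) : RBasisG G A A (Empty.elim : Empty → Ch E) := by
  refine ⟨fun j => j.elim, fun z hz => ⟨0, ?_⟩, fun x _ => Subsingleton.elim _ _⟩
  rw [map_zero, sub_zero]
  exact Submodule.mem_sup_right hz.1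

theorem cella_pr {k : ℕ} (h : RBasisG G A U c) {z : Ch E} (hz : z ∈ Sup U) (hzk : z ∈ Deg k) (hb : bd z ∈ Sup A) :
    ∃ x : J → ZG G, ∃ b ∈ Sup U, ∃ a ∈ Sup A, a ∈ Deg k ∧ z = pr k (lc c x) + bd b + a := by
  obtain ⟨x, hx⟩ := h.span z (mem_RZ.2 ⟨hz, hb⟩)
  obtain ⟨b, hb, a, ha, e⟩ := mem_RB.1 hx
  refine ⟨x, _, pr_mem_Sup (k + 1) hb, _, pr_mem_Sup k ha, pr_mem_Deg k a, ?_⟩
  have := congrArg (pr k) e
  rw [map_sub, map_add, pr_bd, pr_of_mem_Deg hzk] at this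
  rw [add_assoc, ← this, add_sub_cancel]

/-- relative cycles in the other degrees can be pushed down (take `pr k`) -/
theorem RBasisG.down {m k : ℕ} (h : RBasisG G A U c) (hc : ∀ j, c j ∈ Deg m) (hk : m ≠ k) {z : Ch E} (hz : z ∈ Sup U)
    (hzk : z ∈ Deg k) (hb : bd z ∈ Sup A) : ∃ b ∈ Sup U, ∃ a ∈ Sup A, a ∈ Deg k ∧ z = bd b + a := by
  obtain ⟨x, b, hb, a, ha, hak, e⟩ := cella_pr h hz hzk hb
  exact ⟨b, hb, a, ha, hak, by rwa [pr_of_mem_Deg_ne (lc_mem_Deg hc x) hk, zero_add] at e⟩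

theorem RBasisG.same {k : ℕ} (h : RBasisG G A U c) (hc : ∀ j, c j ∈ Deg k) {z : Ch E} (hz : z ∈ Sup U)
    (hzk : z ∈ Deg k) (hb : bd z ∈ Sup A) :
    ∃ x : J → ZG G, ∃ b ∈ Sup U, ∃ a ∈ Sup A, a ∈ Deg k ∧ z = lc c x + bd b + a := by
  obtain ⟨x, b, hb, a, ha, hak, e⟩ := cella_pr h hz hzk hb
  exact ⟨x, b, hb, a, ha, hak, by rwa [pr_of_mem_Deg (lc_mem_Deg hc x)] at e⟩

end

variable (G E) in
/-- cellular data of dimension two for the subset `U` -/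
structure Cell2 (U : Set E) (J0 J1 J2 : Type) [Fintype J0] [Fintype J1] [Fintype J2] where
  B0 : Set E
  B1 : Set E
  c0 : J0 → Ch E
  c1 : J1 → Ch E
  c2 : J2 → Ch E
  m1 : Matrix J1 J0 (ZG G)
  m2 : Matrix J2 J1 (ZG G)
  inv0 : Inv G B0
  inv1 : Inv G B1
  inv2 : Inv G U
  sub01 : B0 ⊆ B1
  sub12 : B1 ⊆ U
  deg0 : ∀ j, c0 j ∈ Deg 1
  deg1 : ∀ j, c1 j ∈ Deg 2
  deg2 : ∀ j, c2 j ∈ Deg 3
  bd0 : ∀ j, bd (c0 j) = ems E
  bd1 : ∀ j, bd (c1 j) = lc c0 (m1 j)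
  bd2 : ∀ j, bd (c2 j) = lc c1 (m2 j)
  rb0 : RBasisG G ∅ B0 c0
  rb1 : RBasisG G B0 B1 c1
  rb2 : RBasisG G B1 U c2

variable (G E) in
/-- cellular data of dimension three for the whole space -/
structure Cell3 (U : Set E) (J0 J1 J2 J3 : Type) [Fintype J0] [Fintype J1] [Fintype J2] [Fintype J3]
    extends Cell2 G E U J0 J1 J2 where
  c3 : J3 → Ch E
  m3 : Matrix J3 J2 (ZG G)
  deg3 : ∀ j, c3 j ∈ Deg 4
  bd3 : ∀ j, bd (c3 j) = lc c2 (m3 j)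
  rb3 : RBasisG G U univ c3

variable {U : Set E} {J0 J1 J2 J3 : Type} [Fintype J0] [Fintype J1] [Fintype J2] [Fintype J3]

theorem Cell2.exists_map (C : Cell2 G E U J0 J1 J2) {f : C(E, E')} (hf : Topology.IsEmbedding f)
    (hG : ∀ (g : G) e, f (g • e) = g • f e) :
    ∃ C' : Cell2 G E' (f '' U) J0 J1 J2, C'.m1 = C.m1 ∧ C'.m2 = C.m2 ∧ ∀ j, C'.c2 j = mp f (C.c2 j) := by
  have hI : ∀ {B : Set E}, Inv G B → Inv G (f '' B) := by
    rintro B hB g _ ⟨e, he, rfl⟩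
    exact ⟨g • e, hB g e he, hG g e⟩
  exact ⟨
    { B0 := f '' C.B0, B1 := f '' C.B1, c0 := fun j => mp f (C.c0 j), c1 := fun j => mp f (C.c1 j),
      c2 := fun j => mp f (C.c2 j), m1 := C.m1, m2 := C.m2, inv0 := hI C.inv0, inv1 := hI C.inv1,
      inv2 := hI C.inv2, sub01 := image_mono C.sub01, sub12 := image_mono C.sub12,
      deg0 := fun j => mp_mem_Deg f (C.deg0 j), deg1 := fun j => mp_mem_Deg f (C.deg1 j),
      deg2 := fun j => mp_mem_Deg f (C.deg2 j),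
      bd0 := fun j => by rw [bd_mp, C.bd0, mp_ems],
      bd1 := fun j => by rw [bd_mp, C.bd1, mp_lc hG],
      bd2 := fun j => by rw [bd_mp, C.bd2, mp_lc hG],
      rb0 := by simpa using C.rb0.map hf hG,
      rb1 := C.rb1.map hf hG, rb2 := C.rb2.map hf hG }, rfl, rfl, fun _ => rfl⟩

/-- no three-cells -/
def Cell2.toCell3 (C : Cell2 G E univ J0 J1 J2) : Cell3 G E univ J0 J1 J2 Empty where
  toCell2 := C
  c3 := Empty.elim
  m3 := fun j => j.elim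
  deg3 j := j.elim
  bd3 j := j.elim
  rb3 := RBasisG.empty univ

namespace Cell3

variable (C : Cell3 G E U J0 J1 J2 J3)

theorem cellb_push {J : Type} [Fintype J] {A V : Set E} {c : J → Ch E} {m k : ℕ} (h : RBasisG G A V c)
    (hc : ∀ j, c j ∈ Deg m) (hk : m ≠ k) {z : Ch E} (hz : z ∈ Sup V) (hzk : z ∈ Deg k) (hb : bd z ∈ Sup A) :
    ∃ b a, a ∈ Sup A ∧ a ∈ Deg k ∧ bd a = bd z ∧ z = bd b + a := by
  obtain ⟨b, -, a, ha, hak, e⟩ := h.down hc hk hz hzk hb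
  exact ⟨b, a, ha, hak, by rw [e, map_add, bd_bd, zero_add], e⟩

theorem cellb_cyc {J : Type} [Fintype J] {A V : Set E} {c : J → Ch E} {m k : ℕ} (h : RBasisG G A V c)
    (hc : ∀ j, c j ∈ Deg m) (hk : m ≠ k) (hA : ∀ a ∈ Sup A, a ∈ Deg k → bd a = 0 → ∃ b, bd b = a) :
    ∀ z ∈ Sup V, z ∈ Deg k → bd z = 0 → ∃ b, bd b = z := by
  intro z hz hzk hb
  obtain ⟨b, a, ha, hak, hd, e⟩ := cellb_push h hc hk hz hzk (by rw [hb]; exact zero_mem _)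
  obtain ⟨b', hb'⟩ := hA a ha hak (hd.trans hb)
  exact ⟨b + b', by rw [map_add, hb', ← e]⟩

theorem cellb_key {J J' : Type} [Fintype J] [Fintype J'] {L A V : Set E} {c : J → Ch E} {c' : J' → Ch E}
    {m : Matrix J J' (ZG G)} {k : ℕ} (h : RBasisG G A V c) (h' : RBasisG G L A c') (hI : Inv G A)
    (hc : ∀ j, c j ∈ Deg k) (hd : ∀ j, bd (c j) = lc c' (m j))
    (hA : ∀ a ∈ Sup A, a ∈ Deg k → bd a = 0 → ∃ b, bd b = a) {z : Ch E} (hz : z ∈ Sup V) (hzk : z ∈ Deg k)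
    {y : J' → ZG G} (hb : bd z = lc c' y) :
    ∃ (x : J → ZG G) (b : Ch E), z = lc c x + bd b ∧ x ᵥ* m = y := by
  obtain ⟨x, b, -, a, ha, hak, e⟩ := h.same hc hz hzk
    (by rw [hb]; exact lc_mem_Sup hI (fun j => (h'.mem j).1) y)
  have h1 : bd (lc c x) = lc c' (x ᵥ* m) := by
    rw [bd_lc, lc_vecMul]
    simp only [hd]
  have h2 : lc c' (y - x ᵥ* m) = bd a := by
    rw [map_sub, ← hb, ← h1, e, map_add, map_add, bd_bd]
    abel
  have h3 : y - x ᵥ* m = 0 := h'.indep _ (mem_RB.2 ⟨a, ha, 0, zero_mem _, by rw [h2, add_zero]⟩)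
  obtain ⟨b', hb'⟩ := hA a ha hak (by rw [← h2, h3, map_zero])
  exact ⟨x, b + b', by rw [map_add, hb', ← add_assoc, ← e], (sub_eq_zero.1 h3).symm⟩

include C in
theorem cellb_cyc0 {k : ℕ} (hk : 1 < k) : ∀ z ∈ Sup C.B0, z ∈ Deg k → bd z = 0 → ∃ b, bd b = z := by
  obtain ⟨k, rfl⟩ : ∃ k', k = k' + 1 := ⟨k - 1, by omega⟩
  exact cellb_cyc C.rb0 C.deg0 hk.ne fun a ha hak _ =>
    ⟨0, by rw [map_zero, eq_zero_of_mem_Sup_empty ha hak]⟩

include C in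
theorem cellb_cyc1 {k : ℕ} (hk : 2 < k) : ∀ z ∈ Sup C.B1, z ∈ Deg k → bd z = 0 → ∃ b, bd b = z :=
  cellb_cyc C.rb1 C.deg1 hk.ne (C.cellb_cyc0 (by omega))

include C in
theorem cellb_cyc2 {k : ℕ} (hk : 3 < k) : ∀ z ∈ Sup U, z ∈ Deg k → bd z = 0 → ∃ b, bd b = z :=
  cellb_cyc C.rb2 C.deg2 hk.ne (C.cellb_cyc1 (by omega))

omit [Group G] [MulAction G E] [ContinuousConstSMul G E] in
theorem cellb_univ (z : Ch E) : z ∈ Sup (univ : Set E) := by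
  rw [Sup_univ]
  trivial

include C in
theorem high {k : ℕ} (hk : 4 < k) {z : Ch E} (hz : z ∈ Deg k) (hb : bd z = 0) : ∃ b, bd b = z := by
  exact cellb_cyc C.rb3 C.deg3 hk.ne (C.cellb_cyc2 (by omega)) z (cellb_univ z) hz hb

theorem key1 {z : Ch E} (hz : z ∈ Deg 1) : ∃ (x : J0 → ZG G) (b : Ch E), z = lc C.c0 x + bd b := by
  have h0 : ∀ A : Set E, bd z ∈ Sup A := fun A =>
    Deg_le (k := 0) (fun σ => by rw [sx_zero]; exact ems_mem_Sup A) (bd_mem_Deg hz)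
  obtain ⟨b3, a3, h3, k3, d3, e3⟩ := cellb_push C.rb3 C.deg3 (by omega) (cellb_univ z) hz (h0 _)
  obtain ⟨b2, a2, h2, k2, d2, e2⟩ := cellb_push C.rb2 C.deg2 (by omega) h3 k3 (d3 ▸ h0 _)
  obtain ⟨b1, a1, h1, k1, d1, e1⟩ := cellb_push C.rb1 C.deg1 (by omega) h2 k2 (d2 ▸ d3 ▸ h0 _)
  obtain ⟨x, b, -, a, ha, hak, e⟩ := C.rb0.same C.deg0 h1 k1 (d1 ▸ d2 ▸ d3 ▸ h0 _)
  refine ⟨x, b3 + b2 + b1 + b, ?_⟩
  rw [e3, e2, e1, e, eq_zero_of_mem_Sup_empty ha hak, map_add, map_add, map_add]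
  abel

/-- Push `z` down to `B1` (`down`), apply `same`; the rest `a ∈ Sup B0` has `bd a = lc c0 (y - x ᵥ* m1)`, so `y = x ᵥ* m1` by
`rb0.indep`, and the cycle `a` is a boundary by `down` and `eq_zero_of_mem_Sup_empty`. -/
theorem key2 {z : Ch E} (hz : z ∈ Deg 2) {y : J0 → ZG G} (hb : bd z = lc C.c0 y) :
    ∃ (x : J1 → ZG G) (b : Ch E), z = lc C.c1 x + bd b ∧ x ᵥ* C.m1 = y := by
  have h0 : bd z ∈ Sup C.B1 := by
    rw [hb]
    exact Sup_mono C.sub01 (lc_mem_Sup C.inv0 (fun j => (C.rb0.mem j).1) y)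
  obtain ⟨b3, a3, h3, k3, d3, e3⟩ := cellb_push C.rb3 C.deg3 (by omega) (cellb_univ z) hz
    (Sup_mono C.sub12 h0)
  obtain ⟨b2, a2, h2, k2, d2, e2⟩ := cellb_push C.rb2 C.deg2 (by omega) h3 k3 (d3 ▸ h0)
  obtain ⟨x, b, e, hx⟩ := cellb_key C.rb1 C.rb0 C.inv0 C.deg1 C.bd1 (C.cellb_cyc0 (by omega)) h2 k2
    (d2.trans (d3.trans hb))
  refine ⟨x, b3 + b2 + b, ?_, hx⟩
  rw [e3, e2, e, map_add, map_add]
  abel

theorem key3 {z : Ch E} (hz : z ∈ Deg 3) {y : J1 → ZG G} (hb : bd z = lc C.c1 y) :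
    ∃ (x : J2 → ZG G) (b : Ch E), z = lc C.c2 x + bd b ∧ x ᵥ* C.m2 = y := by
  have h0 : bd z ∈ Sup U := by
    rw [hb]
    exact Sup_mono C.sub12 (lc_mem_Sup C.inv1 (fun j => (C.rb1.mem j).1) y)
  obtain ⟨b3, a3, h3, k3, d3, e3⟩ := cellb_push C.rb3 C.deg3 (by omega) (cellb_univ z) hz h0
  obtain ⟨x, b, e, hx⟩ := cellb_key C.rb2 C.rb1 C.inv1 C.deg2 C.bd2 (C.cellb_cyc1 (by omega)) h3 k3
    (d3.trans hb)
  refine ⟨x, b3 + b, ?_, hx⟩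
  rw [e3, e, map_add]
  abel

theorem key4 {z : Ch E} (hz : z ∈ Deg 4) {y : J2 → ZG G} (hb : bd z = lc C.c2 y) :
    ∃ (x : J3 → ZG G) (b : Ch E), z = lc C.c3 x + bd b ∧ x ᵥ* C.m3 = y := by
  exact cellb_key C.rb3 C.rb2 C.inv2 C.deg3 C.bd3 (C.cellb_cyc2 (by omega)) (cellb_univ z) hz hb

theorem inj2 {x : J2 → ZG G} {b : Ch E} (h : bd b = lc C.c2 x) : ∃ κ : J3 → ZG G, x = κ ᵥ* C.m3 := by
  obtain ⟨κ, -, -, hκ⟩ := C.key4 (pr_mem_Deg 4 b) (y := x) (by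
    rw [← pr_bd 3, h, pr_of_mem_Deg (lc_mem_Deg C.deg2 x)])
  exact ⟨κ, hκ.symm⟩

theorem exact_of_split {L : Matrix J2 J3 (ZG G)} [DecidableEq J3] (hL : C.m3 * L = 1) {k : ℕ} (hk : 3 < k) {z : Ch E}
    (hz : z ∈ Deg k) (hb : bd z = 0) : ∃ b, bd b = z := by
  rcases (Nat.succ_le_of_lt hk).eq_or_lt with rfl | h
  · obtain ⟨x, b, e, hx⟩ := C.key4 hz (y := 0) (by rw [hb, map_zero])
    have h1 : x = 0 := by
      rw [← Matrix.vecMul_one x, ← hL, ← Matrix.vecMul_vecMul, hx, Matrix.zero_vecMul]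
    exact ⟨b, by rw [e, h1, map_zero, zero_add]⟩
  · exact C.high h hz hb

variable (G E) in
/-- the boundary as an equivariant map -/
def cellcBd : Ch E →ₗ[ZG G] Ch E := ⟨⟨bd, map_add _⟩, bd_smul⟩

theorem cellc_step (hfree : ∀ (g : G) (e : E), g • e = e → g = 1) {J J' : Type} [Fintype J] {k : ℕ}
    {c : J → Ch E} (hc : ∀ j, c j ∈ Deg (k + 1)) (m : Matrix J J' (ZG G)) (T : Ch E →ₗ[ZG G] Ch E)
    (β : Ch E →ₗ[ZG G] (J' → ZG G)) (hT : ∀ z ∈ Deg (k + 1), T z ∈ Deg (k + 1))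
    (hex : ∀ z ∈ Deg (k + 1), ∃ x b, z - T z = lc c x + bd b ∧ x ᵥ* m = β z) :
    ∃ (b : Ch E →ₗ[ZG G] (J → ZG G)) (h : Ch E →ₗ[ZG G] Ch E), ∀ z ∈ Deg (k + 1),
      (z = lc c (b z) + bd (h z) + T z ∧ b z ᵥ* m = β z) ∧ h z ∈ Deg (k + 1 + 1) := by
  obtain ⟨F, hF, -⟩ := exists_equivariant hfree (N := (J → ZG G) × Ch E) k
    (fun σ y => (sx σ = lc c y.1 + bd y.2 + T (sx σ) ∧ y.1 ᵥ* m = β (sx σ)) ∧ y.2 ∈ Deg (k + 1 + 1))
    (fun g σ y hy => by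
      obtain ⟨⟨h1, h2⟩, h3⟩ := hy
      have e : sx ((act g).comp σ) = og g • sx σ := by rw [og_smul, mp_sx]
      rw [e, Prod.smul_fst, Prod.smul_snd, map_smul (lc c), map_smul T, map_smul β, bd_smul, ← smul_add,
        ← smul_add, ← h1, Matrix.smul_vecMul, h2]
      exact ⟨⟨rfl, rfl⟩, smul_mem_Deg _ h3⟩)
    (fun σ => by
      obtain ⟨x, b, h1, h2⟩ := hex _ (sx_mem_Deg σ)
      refine ⟨(x, pr (k + 1 + 1) b), ⟨?_, h2⟩, pr_mem_Deg _ _⟩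
      have h3 := congrArg (pr (k + 1)) h1
      rw [pr_of_mem_Deg (sub_mem (sx_mem_Deg σ) (hT _ (sx_mem_Deg σ))), map_add,
        pr_of_mem_Deg (lc_mem_Deg hc x), pr_bd] at h3
      exact sub_eq_iff_eq_add.1 h3)
  refine ⟨(LinearMap.fst _ _ _).comp F, (LinearMap.snd _ _ _).comp F, fun z hz => ?_⟩
  let N : AddSubgroup (Ch E) :=
    { carrier := {z | (z = lc c (F z).1 + bd (F z).2 + T z ∧ (F z).1 ᵥ* m = β z) ∧ (F z).2 ∈ Deg (k + 1 + 1)}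
      zero_mem' := by simp
      add_mem' := by
        rintro a b ⟨⟨h1, h2⟩, h3⟩ ⟨⟨h4, h5⟩, h6⟩
        refine ⟨⟨?_, ?_⟩, ?_⟩
        · simp only [map_add, Prod.fst_add, Prod.snd_add]
          conv_lhs => rw [h1, h4]
          abel
        · simp only [map_add, Prod.fst_add, Matrix.add_vecMul, h2, h5]
        · simp only [map_add, Prod.snd_add]
          exact add_mem h3 h6
      neg_mem' := by
        rintro a ⟨⟨h1, h2⟩, h3⟩
        refine ⟨⟨?_, ?_⟩, ?_⟩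
        · simp only [map_neg, Prod.fst_neg, Prod.snd_neg]
          conv_lhs => rw [h1]
          abel
        · simp only [map_neg, Prod.fst_neg, Matrix.neg_vecMul, h2]
        · simp only [map_neg, Prod.snd_neg]
          exact neg_mem h3 }
  exact Deg_le (N := N.toIntSubmodule) (fun σ => hF σ) hz

theorem cellc_step' (hfree : ∀ (g : G) (e : E), g • e = e → g = 1) {J J' : Type} [Fintype J] [Fintype J'] {k : ℕ}
    {c : J → Ch E} {c' : J' → Ch E} (hc : ∀ j, c j ∈ Deg (k + 1)) {m : Matrix J J' (ZG G)}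
    (key : ∀ z ∈ Deg (k + 1), ∀ y, bd z = lc c' y → ∃ x b, z = lc c x + bd b ∧ x ᵥ* m = y)
    (b' : Ch E →ₗ[ZG G] (J' → ZG G)) (h' : Ch E →ₗ[ZG G] Ch E)
    (hp : ∀ w ∈ Deg k, bd w = 0 → w = lc c' (b' w) + bd (h' w) ∧ h' w ∈ Deg (k + 1)) :
    ∃ (b : Ch E →ₗ[ZG G] (J → ZG G)) (h : Ch E →ₗ[ZG G] Ch E), ∀ z ∈ Deg (k + 1),
      (z = lc c (b z) + bd (h z) + h' (bd z) ∧ b z ᵥ* m = b' (bd z)) ∧ h z ∈ Deg (k + 1 + 1) := by
  refine cellc_step hfree hc m (h'.comp (cellcBd G E)) (b'.comp (cellcBd G E))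
    (fun z hz => (hp _ (bd_mem_Deg hz) (bd_bd z)).2) fun z hz => ?_
  obtain ⟨h1, h2⟩ := hp _ (bd_mem_Deg hz) (bd_bd z)
  refine key (z - h' (bd z)) (sub_mem hz h2) (b' (bd z)) ?_
  rw [map_sub]
  exact sub_eq_iff_eq_add.2 h1

/-- The equivariant chain homotopy inverse, degree by degree: `exists_equivariant` with target `(J → ZG G) × Ch E` and the
relation `sx σ = lc c y.1 + bd y.2 + h (bd (sx σ)) ∧ y.1 ᵥ* m = b (bd (sx σ)) ∧ y.2 ∈ Deg _`, using `key1 … key4` for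
`z = sx σ - h (bd (sx σ))`. -/
theorem exists_inverse (hfree : ∀ (g : G) (e : E), g • e = e → g = 1) :
    ∃ (b0 : Ch E →ₗ[ZG G] (J0 → ZG G)) (b1 : Ch E →ₗ[ZG G] (J1 → ZG G)) (b2 : Ch E →ₗ[ZG G] (J2 → ZG G))
      (b3 : Ch E →ₗ[ZG G] (J3 → ZG G)) (h1 h2 h3 h4 : Ch E →ₗ[ZG G] Ch E),
      (∀ z ∈ Deg 1, z = lc C.c0 (b0 z) + bd (h1 z)) ∧
      (∀ z ∈ Deg 2, z = lc C.c1 (b1 z) + bd (h2 z) + h1 (bd z) ∧ b1 z ᵥ* C.m1 = b0 (bd z)) ∧
      (∀ z ∈ Deg 3, z = lc C.c2 (b2 z) + bd (h3 z) + h2 (bd z) ∧ b2 z ᵥ* C.m2 = b1 (bd z)) ∧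
      (∀ z ∈ Deg 4, z = lc C.c3 (b3 z) + bd (h4 z) + h3 (bd z) ∧ b3 z ᵥ* C.m3 = b2 (bd z)) := by
  obtain ⟨b0, h1, H1⟩ := cellc_step hfree (k := 0) C.deg0 (0 : Matrix J0 J0 (ZG G)) 0 0
    (fun _ _ => zero_mem _) fun z hz => by
      obtain ⟨x, b, e⟩ := C.key1 hz
      exact ⟨x, b, by rwa [LinearMap.zero_apply, sub_zero], Matrix.vecMul_zero x⟩
  have H1' : ∀ z ∈ Deg 1, z = lc C.c0 (b0 z) + bd (h1 z) := fun z hz => by
    simpa only [LinearMap.zero_apply, add_zero] using (H1 z hz).1.1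
  obtain ⟨b1, h2, H2⟩ := cellc_step' hfree (k := 1) C.deg1 (fun z hz y hy => C.key2 hz hy) b0 h1
    fun w hw _ => ⟨H1' w hw, (H1 w hw).2⟩
  obtain ⟨b2, h3, H3⟩ := cellc_step' hfree (k := 2) C.deg2 (fun z hz y hy => C.key3 hz hy) b1 h2
    fun w hw h0 => ⟨by simpa only [h0, map_zero, add_zero] using (H2 w hw).1.1, (H2 w hw).2⟩
  obtain ⟨b3, h4, H4⟩ := cellc_step' hfree (k := 3) C.deg3 (fun z hz y hy => C.key4 hz hy) b2 h3
    fun w hw h0 => ⟨by simpa only [h0, map_zero, add_zero] using (H3 w hw).1.1, (H3 w hw).2⟩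
  exact ⟨b0, b1, b2, b3, h1, h2, h3, h4, H1', fun z hz => (H2 z hz).1, fun z hz => (H3 z hz).1,
    fun z hz => (H4 z hz).1⟩

/-- `H³ = 0`: `Ψ = Φ ∘ lc c3 ∘ (· ᵥ* L) ∘ b2 + Φ ∘ h3` -/
theorem coh3 (hfree : ∀ (g : G) (e : E), g • e = e → g = 1) {L : Matrix J2 J3 (ZG G)} [DecidableEq J3]
    (hL : C.m3 * L = 1) {N : Type} [AddCommGroup N] [Module (ZG G) N] (Φ : Ch E →ₗ[ZG G] N)
    (hΦ : ∀ c, Φ (bd c) = 0) : ∃ Ψ : Ch E →ₗ[ZG G] N, ∀ z ∈ Deg 4, Φ z = Ψ (bd z) := by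
  obtain ⟨-, -, b2, b3, -, -, h3, h4, -, -, -, H⟩ := C.exists_inverse hfree
  refine ⟨Φ.comp ((lc C.c3).comp (L.vecMulLinear.comp b2) + h3), fun z hz => ?_⟩
  obtain ⟨e1, e2⟩ := H z hz
  have e3 : b2 (bd z) ᵥ* L = b3 z := by rw [← e2, Matrix.vecMul_vecMul, hL, Matrix.vecMul_one]
  change Φ z = Φ (lc C.c3 (b2 (bd z) ᵥ* L) + h3 (bd z))
  rw [e3]
  conv_lhs => rw [e1]
  rw [map_add, map_add, map_add, hΦ, add_zero]

end Cell3

end

end Crest.Agent.R251.Top
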