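import Crest.Agent.R251.Top.Cell

/-!
# Row 251, topology: an equivariant homotopy equivalence gives `Realises`

With `b0 b1 b2 h…` from `CX.exists_inverse` and `f = e.toFun`: `β v = b0 (mp f (CY.c0 v)) ()` has augmentation one (apply `bd`
to the first identity, `smul_ems`, `smul_ems_eq_zero`); choose `u v` with `∑ x, u v x * (og (gen x) - 1) = β v - 1`
(`exists_of_eps_zero`) and put `ψ₁ e = b1 (mp f (CY.c1 e)) - CY.m1 e ᵥ* u`.  On true faces `ψ₂ j = b2 (mp f (CY.c2 j))`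
(`fox π (relY j) ᵥ* m1 = 0` by `CY.rb0.indep` and `bd_bd`); for `ω v` the row `fox π (ω v) ᵥ* ψ₁` is a one-cycle (`fox_fund`), so a
combination of the rows of `foxM gen rel` (`exists_of_cycle`, `exists_of_mem_normalClosure`).  A two-cycle `x` has no `ω`
component (multiply by `m1`).  Injectivity: `he_inj`, `CY.inj2`; surjectivity: `he_surj`, `CY.key3`, `CX.inj2`.
-/

set_option autoImplicit false

open Set Matrix

namespace Crest.Agent.R251.Top

noncomputable section

/-- the first boundary of a complex with several vertices -/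
def edgeM {G V Ed : Type} [Group G] [DecidableEq V] (π : Ed → G) (src tgt : Ed → V) : Matrix Ed V (ZG G) :=
  Matrix.of fun e => Pi.single (tgt e) (og (π e)) - Pi.single (src e) 1

theorem real_vecMul_bd {T R Γ : Type} [Group Γ] [Fintype T] [Fintype R] (M : Matrix R T (ZG Γ)) (y : R → ZG Γ)
    (c : T → ZG Γ) : ∑ t, (y ᵥ* M) t * c t = ∑ r, y r * ∑ t, M r t * c t := by
  simp only [Matrix.vecMul, dotProduct, Finset.sum_mul, Finset.mul_sum, mul_assoc]
  exact Finset.sum_comm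

theorem realises {G E E' S₀ R₀ J V Ed Fc : Type} [Group G] [TopologicalSpace E] [MulAction G E] [ContinuousConstSMul G E]
    [TopologicalSpace E'] [MulAction G E'] [ContinuousConstSMul G E'] [Fintype S₀] [DecidableEq S₀] [Fintype R₀]
    [Fintype J] [Fintype V] [DecidableEq V] [Fintype Ed] [DecidableEq Ed] [Fintype Fc]
    {gen : S₀ → G} {rel : R₀ → FreeGroup S₀} (hsurj : Function.Surjective (FreeGroup.lift gen))
    (hker : (FreeGroup.lift gen).ker = Subgroup.normalClosure (Set.range rel))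
    (hfree : ∀ (g : G) (e : E), g • e = e → g = 1) {U : Set E} (CX : Cell3 G E U Unit S₀ R₀ J)
    (hX1 : CX.m1 = edgeM gen (fun _ => ()) (fun _ => ())) (hX2 : CX.m2 = foxM gen rel)
    (CY : Cell2 G E' univ V Ed Fc) {π : Ed → G} {src tgt : Ed → V} {relY : Fc → FreeGroup Ed}
    (hY1 : CY.m1 = edgeM π src tgt) (hY2 : CY.m2 = foxM π relY)
    (e : ContinuousMap.HomotopyEquiv E' E) (he : ∀ (g : G) y, e.toFun (g • y) = g • e.toFun y)
    {v₀ : V} {ω : {v : V // v ≠ v₀} → FreeGroup Ed} (hsurj' : Function.Surjective (FreeGroup.lift π))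
    (hker' : (FreeGroup.lift π).ker = Subgroup.normalClosure (Set.range (Sum.elim relY ω)))
    (hω : ∀ v, fox π (ω v) ᵥ* edgeM π src tgt = Pi.single v.1 1 - Pi.single v₀ 1) :
    Realises gen rel CX.m3 π (Sum.elim relY ω) := by
  classical
  obtain ⟨b0, b1, b2, b3, h1, h2, h3, h4, k1, k2, k3, -⟩ := CX.exists_inverse hfree
  let F0 : Matrix V Unit (ZG G) := Matrix.of fun v => b0 (mp e.toFun (CY.c0 v))
  let F1 : Matrix Ed S₀ (ZG G) := Matrix.of fun j => b1 (mp e.toFun (CY.c1 j))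
  let F2 : Matrix Fc R₀ (ZG G) := Matrix.of fun j => b2 (mp e.toFun (CY.c2 j))
  have hF1 : ∀ j, F1 j ᵥ* CX.m1 = CY.m1 j ᵥ* F0 := fun j => by
    have := (k2 _ (mp_mem_Deg e.toFun (CY.deg1 j))).2
    rwa [bd_mp, CY.bd1, mp_lc he, map_lc] at this
  have hF2 : ∀ j, F2 j ᵥ* CX.m2 = CY.m2 j ᵥ* F1 := fun j => by
    have := (k3 _ (mp_mem_Deg e.toFun (CY.deg2 j))).2
    rwa [bd_mp, CY.bd2, mp_lc he, map_lc] at this
  have hX : ∀ x : S₀ → ZG G, (x ᵥ* CX.m1) () = ∑ s, x s * (og (gen s) - 1) := fun x => by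
    simp [hX1, edgeM, Matrix.vecMul, dotProduct]
  have heps : ∀ v, eps G (F0 v () - 1) = 0 := fun v => by
    have := congrArg bd (k1 _ (mp_mem_Deg e.toFun (CY.deg0 v)))
    rw [bd_mp, CY.bd0, mp_ems, map_add, bd_bd, add_zero, bd_lc, lc_apply, Fintype.sum_unique, CX.bd0, smul_ems] at this
    have h' : (eps G (F0 v ()) - 1) • ems E = 0 := by
      rw [sub_smul, one_smul, sub_eq_zero]; exact this.symm
    rw [map_sub, map_one]
    exact smul_ems_eq_zero h'
  choose u hu using fun v => exists_of_eps_zero gen hsurj _ (heps v)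
  let ψ₁ : Matrix Ed S₀ (ZG G) := F1 - CY.m1 * Matrix.of u
  have hψ₁ : ∀ j, ∑ x, ψ₁ j x * (og (gen x) - 1) = og (π j) - 1 := fun j => by
    have e1 : ∑ x, F1 j x * (og (gen x) - 1) = ∑ v, CY.m1 j v * F0 v () := by
      rw [← hX, hF1]; rfl
    have e2 : ∑ x, (CY.m1 * Matrix.of u) j x * (og (gen x) - 1) = ∑ v, CY.m1 j v * (F0 v () - 1) := by
      have := real_vecMul_bd (Matrix.of u) (CY.m1 j) fun x => og (gen x) - 1
      simp only [Matrix.of_apply, hu] at this
      exact this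
    simp only [ψ₁, Matrix.sub_apply, sub_mul, Finset.sum_sub_distrib] at e1 e2 ⊢
    rw [e1, e2]
    simp [mul_sub, Finset.sum_sub_distrib, hY1, edgeM]
  have h21 : ∀ x : Fc → ZG G, (x ᵥ* CY.m2) ᵥ* CY.m1 = 0 := fun x => by
    refine CY.rb0.indep _ ?_
    have : lc CY.c0 ((x ᵥ* CY.m2) ᵥ* CY.m1) = bd (bd (lc CY.c2 x)) := by
      rw [bd_lc, funext CY.bd2, ← lc_vecMul, bd_lc, funext CY.bd1, ← lc_vecMul]
    rw [this, bd_bd]
    exact zero_mem _
  have hrl : ∀ i, FreeGroup.lift π (Sum.elim relY ω i) = 1 := fun i => by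
    have : Sum.elim relY ω i ∈ (FreeGroup.lift π).ker := hker' ▸ Subgroup.subset_normalClosure ⟨i, rfl⟩
    exact this
  have hK : ∀ v, ∃ k : R₀ → ZG G, fox π (ω v) ᵥ* ψ₁ = k ᵥ* foxM gen rel := fun v => by
    obtain ⟨n, hn, hn'⟩ := exists_of_cycle gen hsurj (fox π (ω v) ᵥ* ψ₁) (by
      rw [real_vecMul_bd]
      simp only [hψ₁]
      rw [fox_fund, show FreeGroup.lift π (ω v) = 1 from hrl (.inr v), fox_og_one, sub_self])
    rw [← hn']
    refine exists_of_mem_normalClosure gen rel (fun r => ?_) n (hker ▸ hn)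
    have : rel r ∈ (FreeGroup.lift gen).ker := hker ▸ Subgroup.subset_normalClosure ⟨r, rfl⟩
    exact this
  choose K hK using hK
  have hfox : foxM π (Sum.elim relY ω) = fromRows CY.m2 (foxM π ω) := by
    ext1 i k
    rcases i with j | v
    · rw [hY2]; rfl
    · rfl
  have hmp : ∀ x : Fc → ZG G, x ᵥ* CY.m2 = 0 → bd (lc CY.c2 x) = 0 ∧
      ∃ b, mp e.toFun (lc CY.c2 x) = lc CX.c2 (x ᵥ* F2) + bd b := fun x hx => by
    have e1 : bd (lc CY.c2 x) = 0 := by rw [bd_lc, funext CY.bd2, ← lc_vecMul, hx, map_zero]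
    refine ⟨e1, h3 (mp e.toFun (lc CY.c2 x)), ?_⟩
    have := (k3 _ (mp_mem_Deg e.toFun (lc_mem_Deg CY.deg2 x))).1
    rw [bd_mp, e1, map_zero, map_zero, add_zero] at this
    refine this.trans ?_
    congr 2
    rw [mp_lc he, map_lc]
  refine ⟨hsurj', hker', ψ₁, fromRows F2 (Matrix.of K), hψ₁, ?_, fun x hx κ hκ => ?_, fun z hz => ?_⟩
  · ext1 i k
    rcases i with j | v
    · have e1 := h21 (Pi.single j 1)
      rw [Matrix.single_one_vecMul] at e1
      have e2 : CY.m2 j ᵥ* ψ₁ = F2 j ᵥ* foxM gen rel := by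
        rw [← hX2, hF2, Matrix.vecMul_sub, ← Matrix.vecMul_vecMul, show CY.m2 j ᵥ* CY.m1 = 0 from e1,
          Matrix.zero_vecMul, sub_zero]
      rw [hY2] at e2
      exact congrFun e2 k
    · exact congrFun (hK v) k
  · obtain ⟨x₁, x₂, rfl⟩ : ∃ (x₁ : Fc → ZG G) (x₂ : {v : V // v ≠ v₀} → ZG G), x = Sum.elim x₁ x₂ :=
      ⟨x ∘ .inl, x ∘ .inr, (Sum.elim_comp_inl_inr x).symm⟩
    rw [hfox, sumElim_vecMul_fromRows] at hx
    have e2 : x₂ = 0 := by
      have e1 := congrArg (· ᵥ* CY.m1) hx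
      simp only [Matrix.zero_vecMul] at e1
      rw [Matrix.add_vecMul, h21, zero_add, Matrix.vecMul_vecMul] at e1
      have e3 : ∀ v, (foxM π ω * CY.m1) v = Pi.single v.1 1 - Pi.single v₀ 1 := fun v => by
        rw [← hω, hY1]; rfl
      funext v
      have := congrFun e1 v.1
      simp only [Matrix.vecMul, dotProduct, e3, Pi.sub_apply, Pi.single_eq_of_ne v.2, sub_zero] at this
      rw [Finset.sum_eq_single v (fun v' _ hv => by
        rw [Pi.single_eq_of_ne fun h => hv (Subtype.ext h).symm, mul_zero]) (by simp)] at this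
      simpa using this
    subst e2
    rw [Matrix.zero_vecMul, add_zero] at hx
    rw [sumElim_vecMul_fromRows, Matrix.zero_vecMul, add_zero] at hκ
    obtain ⟨e1, b, hb⟩ := hmp x₁ hx
    rw [hκ, lc_vecMul, ← funext CX.bd3, ← bd_lc, ← map_add] at hb
    obtain ⟨b', hb'⟩ := he_inj e e1 hb.symm
    obtain ⟨κ', hκ'⟩ := CY.toCell3.inj2 hb'
    have e4 : x₁ = 0 := by
      rw [hκ']
      funext j
      simp [Matrix.vecMul, dotProduct]
    subst e4
    funext i
    rcases i with j | v <;> rfl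
  · have e1 : bd (lc CX.c2 z) = 0 := by rw [bd_lc, funext CX.bd2, ← lc_vecMul, hX2, hz, map_zero]
    obtain ⟨c, hc, hc0, b, hb⟩ := he_surj e e1 (lc_mem_Deg CX.deg2 z)
    obtain ⟨x, b', hx, hx0⟩ := CY.toCell3.key3 hc (y := 0) (by rw [hc0, map_zero])
    obtain ⟨-, b'', hb''⟩ := hmp x hx0
    have e2 : bd (b + b'' + mp e.toFun b') = lc CX.c2 (z - x ᵥ* F2) := by
      have hx' : c = lc CY.c2 x + bd b' := hx
      rw [map_sub, hb, hx', map_add, map_add, map_add, hb'', bd_mp]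
      abel
    obtain ⟨κ, hκ⟩ := CX.inj2 e2
    refine ⟨Sum.elim x 0, κ, ?_, ?_⟩
    · rw [hfox, sumElim_vecMul_fromRows, Matrix.zero_vecMul, add_zero]
      exact hx0
    · rw [sumElim_vecMul_fromRows, Matrix.zero_vecMul, add_zero, ← hκ, add_sub_cancel]

end

end Crest.Agent.R251.Top
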