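import Crest.Agent.R251.Top.Prism
import Crest.Agent.Lib.CWComb.PathFun

/-!
# Row 251, topology: paths as chains, filling triangles
-/

set_option autoImplicit false

open Set

local notation "I" => unitInterval

namespace Crest.Agent.R251.Top

open Crest.Agent.Lib.CWComb

noncomputable section

variable {X Y : Type} [TopologicalSpace X] [TopologicalSpace Y] {x y z : X}

/-- the parameter of an edge -/
def par : C(Dl 2, I) := ⟨fun t => ⟨t 1, t.2.1 1, stdSimplex.le_one t 1⟩, (continuous_coord 1).subtype_mk _⟩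

theorem unpar_mem (u : I) : (![1 - (u : ℝ), u] : Fin 2 → ℝ) ∈ stdSimplex ℝ (Fin 2) := by
  refine ⟨fun i => ?_, by simp⟩
  fin_cases i
  · exact sub_nonneg.2 u.2.2
  · exact u.2.1

/-- the inverse of `par` -/
def unpar : C(I, Dl 2) where
  toFun u := ⟨![1 - u, u], unpar_mem u⟩
  continuous_toFun := Continuous.subtype_mk (by fun_prop) unpar_mem

theorem par_unpar (u : I) : par (unpar u) = u := rfl

theorem unpar_par (t : Dl 2) : unpar (par t) = t := by
  have h := stdSimplex.sum_eq_one t
  rw [Fin.sum_univ_two] at h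
  refine stdSimplex.ext (funext fun i => ?_)
  fin_cases i
  · exact sub_eq_of_eq_add h.symm
  · rfl

/-- a path as a singular edge -/
def pedge (q : Path x y) : C(Dl 2, X) := q.toContinuousMap.comp par

/-- a path as a chain -/
def pch (q : Path x y) : Ch X := sx (pedge q)

/-- a singular edge as a path -/
def epath (σ : C(Dl 2, X)) : Path (σ (stdSimplex.vertex 0)) (σ (stdSimplex.vertex 1)) where
  toContinuousMap := σ.comp unpar
  source' := by
    change σ _ = σ _
    congr 1
    ext i
    fin_cases i <;> simp [unpar] <;> rfl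
  target' := by
    change σ _ = σ _
    congr 1
    ext i
    fin_cases i <;> simp [unpar] <;> rfl

theorem pedge_epath (σ : C(Dl 2, X)) : pedge (epath σ) = σ :=
  ContinuousMap.ext fun t => congrArg σ (unpar_par t)

theorem pcha_par0 : par (stdSimplex.vertex 0) = 0 := Subtype.ext (by simp [par])

theorem pcha_par1 : par (stdSimplex.vertex 1) = 1 := Subtype.ext (by simp [par])

theorem pedge_zero (q : Path x y) : pedge q (stdSimplex.vertex 0) = x :=
  (congrArg q pcha_par0).trans q.source

theorem pedge_one (q : Path x y) : pedge q (stdSimplex.vertex 1) = y :=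
  (congrArg q pcha_par1).trans q.target

theorem bd_pch (q : Path x y) : bd (pch q) = pt y - pt x := by
  rw [pch, bd_sx_two, pedge_zero, pedge_one]

theorem pch_mem_Deg (q : Path x y) : pch q ∈ Deg 2 := sx_mem_Deg _

theorem pch_mem_Sup {A : Set X} {q : Path x y} (h : ∀ u, q u ∈ A) : pch q ∈ Sup A :=
  sx_mem_Sup.2 fun _ => h _

theorem pch_congr {x' y' : X} (q : Path x y) (q' : Path x' y') (h : ∀ u, q u = q' u) : pch q = pch q' :=
  congrArg sx (ContinuousMap.ext fun _ => h _)

theorem mp_pch (f : C(X, Y)) (q : Path x y) : mp f (pch q) = pch (q.map f.continuous) :=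
  mp_sx f _

/-- the triangle `t ↦ (p.trans q) (t 1 / 2 + t 2)` -/
theorem pch_trans {A : Set X} (p : Path x y) (q : Path y z) (hp : ∀ u, p u ∈ A) (hq : ∀ u, q u ∈ A) :
    ∃ b ∈ Sup A, bd b = pch p + pch q - pch (p.trans q) := by
  let τ : C(Dl 3, X) := ⟨fun t => (p.trans q).extend (t 1 / 2 + t 2),
    (p.trans q).continuous_extend.comp
      (((continuous_coord 1).div_const 2).add (continuous_coord 2))⟩
  have hs : ∀ t : Dl 2, t 0 + t 1 = 1 := fun t => by
    rw [← Fin.sum_univ_two]
    exact stdSimplex.sum_eq_one t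
  have e0 : τ.comp (face 0) = pedge q := ContinuousMap.ext fun t => by
    have h1 : face (0 : Fin 3) t 1 = t 0 := face_apply_succAbove 0 t 0
    have h2 : face (0 : Fin 3) t 2 = t 1 := face_apply_succAbove 0 t 1
    have h3 := hs t
    have h4 := stdSimplex.zero_le t 1
    change (p.trans q).extend (face (0 : Fin 3) t 1 / 2 + face (0 : Fin 3) t 2) = _
    rw [h1, h2, Path.extend_trans_of_half_le _ _ (by linarith),
      show 2 * (t 0 / 2 + t 1) - 1 = t 1 by linarith]
    exact q.extend_extends' (par t)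
  have e1 : τ.comp (face 1) = pedge (p.trans q) := ContinuousMap.ext fun t => by
    have h1 : face (1 : Fin 3) t 1 = 0 := face_apply_self 1 t
    have h2 : face (1 : Fin 3) t 2 = t 1 := face_apply_succAbove 1 t 1
    change (p.trans q).extend (face (1 : Fin 3) t 1 / 2 + face (1 : Fin 3) t 2) = _
    rw [h1, h2, zero_div, zero_add]
    exact (p.trans q).extend_extends' (par t)
  have e2 : τ.comp (face 2) = pedge p := ContinuousMap.ext fun t => by
    have h1 : face (2 : Fin 3) t 1 = t 1 := face_apply_succAbove 2 t 1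
    have h2 : face (2 : Fin 3) t 2 = 0 := face_apply_self 2 t
    have h4 := stdSimplex.le_one t 1
    change (p.trans q).extend (face (2 : Fin 3) t 1 / 2 + face (2 : Fin 3) t 2) = _
    rw [h1, h2, Path.extend_trans_of_le_half _ _ (by linarith),
      show 2 * (t 1 / 2 + 0) = t 1 by ring]
    exact p.extend_extends' (par t)
  refine ⟨sx τ, sx_mem_Sup.2 fun t => ?_, ?_⟩
  · have h : τ t ∈ range (p.trans q).extend := mem_range_self _
    rw [Path.extend_range, Path.trans_range] at h
    rcases h with ⟨u, hu⟩ | ⟨u, hu⟩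
    · exact hu ▸ hp u
    · exact hu ▸ hq u
  · rw [bd_sx_three, e0, e1, e2, pch, pch, pch]
    abel

theorem pcha_bd {c : Ch X} (h : c ∈ Sup ({x} : Set X)) : ∃ b, bd b = pr 2 c := by
  have h1 := pr_mem_Sup 2 h
  have h2 : pr 2 c ∈ LinearMap.ker (bd (X := X)) :=
    Sup_inf_Deg_le (A := {x}) (k := 2) (fun σ hσ => by
      rw [LinearMap.mem_ker, bd_sx_two, show σ _ = x from hσ _, show σ _ = x from hσ _, sub_self])
      ⟨h1, pr_mem_Deg 2 c⟩
  obtain ⟨b, -, hb⟩ := exists_bd_of_mem_Sup_singleton h1 h2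
  exact ⟨b, hb⟩

/-- the prism of the edge `par` under the homotopy; constant edges are boundaries of constant triangles -/
theorem pch_homotopic {p q : Path x y} (h : p.Homotopic q) : ∃ b, bd b = pch p - pch q := by
  obtain ⟨H⟩ := h.symm
  obtain ⟨K, h1, h2⟩ := exists_prism (H.toHomotopy.compContinuousMap par)
  have h3 := congrArg (pr 2) (h1 (sx (ContinuousMap.id (Dl 2))))
  obtain ⟨b₀, hb₀⟩ := pcha_bd (h2 {stdSimplex.vertex 0} {x} (fun u t ht => by
    rw [ht]
    exact (congrArg (fun s => H (u, s)) pcha_par0).trans (H.source u)) _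
    (cst_mem_Sup 1 rfl))
  obtain ⟨b₁, hb₁⟩ := pcha_bd (h2 {stdSimplex.vertex 1} {y} (fun u t ht => by
    rw [ht]
    exact (congrArg (fun s => H (u, s)) pcha_par1).trans (H.target u)) _
    (cst_mem_Sup 1 rfl))
  rw [bd_sx_two, mp_sx, mp_sx, map_add, pr_bd, map_sub, map_sub, map_sub,
    pr_of_mem_Deg (sx_mem_Deg _), pr_of_mem_Deg (sx_mem_Deg _), ContinuousMap.id_apply,
    ContinuousMap.id_apply, ← hb₀, ← hb₁, ← map_sub, ← map_add] at h3
  exact ⟨_, h3⟩

variable (X) in
/-- the class of a path in chains modulo boundaries -/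
def chFun : PathFun X (Multiplicative (Ch X ⧸ LinearMap.range (bd (X := X)))) where
  val q := Multiplicative.ofAdd (Submodule.Quotient.mk (pch q))
  val_trans p q := by
    obtain ⟨b, -, hb⟩ := pch_trans (A := univ) p q (fun _ => trivial) fun _ => trivial
    rw [← ofAdd_add, ← Submodule.Quotient.mk_add, eq_comm]
    exact congrArg _ ((Submodule.Quotient.eq _).2 ⟨b, hb⟩)
  val_hom h := by
    obtain ⟨b, hb⟩ := pch_homotopic h
    exact congrArg _ ((Submodule.Quotient.eq _).2 ⟨b, hb⟩)

theorem pchb_mem (z : I × I) : (![1 - (z.2 : ℝ) - (1 - z.1) * min (z.2 : ℝ) (1 - z.2),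
    2 * ((1 - z.1) * min (z.2 : ℝ) (1 - z.2)), z.2 - (1 - z.1) * min (z.2 : ℝ) (1 - z.2)] :
      Fin 3 → ℝ) ∈ stdSimplex ℝ (Fin 3) := by
  obtain ⟨⟨s, hs0, hs1⟩, ⟨u, hu0, hu1⟩⟩ := z
  have h0 : 0 ≤ min u (1 - u) := le_min hu0 (by linarith)
  have h1 : (1 - s) * min u (1 - u) ≤ min u (1 - u) := by nlinarith
  have h2 : 0 ≤ (1 - s) * min u (1 - u) := mul_nonneg (by linarith) h0
  have h3 := min_le_left u (1 - u)
  have h4 := min_le_right u (1 - u)
  refine ⟨fun i => ?_, ?_⟩
  · fin_cases i
    · change 0 ≤ 1 - u - (1 - s) * min u (1 - u)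
      linarith
    · change 0 ≤ 2 * ((1 - s) * min u (1 - u))
      linarith
    · change 0 ≤ u - (1 - s) * min u (1 - u)
      linarith
  · rw [Fin.sum_univ_three]
    change 1 - u - (1 - s) * min u (1 - u) + 2 * ((1 - s) * min u (1 - u)) +
      (u - (1 - s) * min u (1 - u)) = 1
    ring

/-- the square collapsed onto the triangle -/
def pchb_Q : C(I × I, Dl 3) where
  toFun z := ⟨_, pchb_mem z⟩
  continuous_toFun := Continuous.subtype_mk (by fun_prop) pchb_mem

theorem pchb_Q_one (z : I × I) : pchb_Q z 1 = 2 * ((1 - z.1) * min (z.2 : ℝ) (1 - z.2)) := rfl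

theorem pchb_Q_two (z : I × I) : pchb_Q z 2 = z.2 - (1 - z.1) * min (z.2 : ℝ) (1 - z.2) := rfl

theorem pchb_ext {t t' : Dl 3} (h1 : t 1 = t' 1) (h2 : t 2 = t' 2) : t = t' := by
  have e := stdSimplex.sum_eq_one t
  have e' := stdSimplex.sum_eq_one t'
  rw [Fin.sum_univ_three] at e e'
  refine stdSimplex.ext (funext fun i => ?_)
  fin_cases i
  · change t 0 = t' 0
    linarith
  · exact h1
  · exact h2

theorem pchb_surj : Function.Surjective pchb_Q := by
  intro t
  have e := stdSimplex.sum_eq_one t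
  rw [Fin.sum_univ_three] at e
  have h0 := stdSimplex.zero_le t 0
  have h1 := stdSimplex.zero_le t 1
  have h2 := stdSimplex.zero_le t 2
  set u := t 1 / 2 + t 2 with hu
  have hm : t 1 / 2 ≤ min u (1 - u) := le_min (by linarith) (by linarith)
  have hq0 : 0 ≤ t 1 / 2 / min u (1 - u) := div_nonneg (by linarith) (by linarith)
  have hq1 : t 1 / 2 / min u (1 - u) ≤ 1 := div_le_one_of_le₀ hm (by linarith)
  have key : t 1 / 2 / min u (1 - u) * min u (1 - u) = t 1 / 2 := by
    by_cases hz : min u (1 - u) = 0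
    · rw [hz, mul_zero]; linarith
    · exact div_mul_cancel₀ _ hz
  refine ⟨(⟨1 - t 1 / 2 / min u (1 - u), by linarith, by linarith⟩,
    ⟨u, by linarith, by linarith⟩), pchb_ext ?_ ?_⟩
  · rw [pchb_Q_one]
    simp only [sub_sub_cancel]
    linarith
  · rw [pchb_Q_two]
    simp only [sub_sub_cancel]
    linarith

theorem pchb_inj {z z' : I × I} (h : pchb_Q z = pchb_Q z') :
    z.2 = z'.2 ∧ (z.1 = z'.1 ∨ z.2 = 0 ∨ z.2 = 1) := by
  have h1 : pchb_Q z 1 = pchb_Q z' 1 := by rw [h]
  have h2 : pchb_Q z 2 = pchb_Q z' 2 := by rw [h]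
  rw [pchb_Q_one, pchb_Q_one] at h1
  rw [pchb_Q_two, pchb_Q_two] at h2
  have hu : (z.2 : ℝ) = z'.2 := by linarith
  refine ⟨Subtype.ext hu, ?_⟩
  rw [← hu] at h1
  by_cases hz : min (z.2 : ℝ) (1 - z.2) = 0
  · right
    rcases min_eq_iff.1 hz with h3 | h3
    · exact Or.inl (Subtype.ext h3.1)
    · exact Or.inr (Subtype.ext (by change (z.2 : ℝ) = 1; linarith [h3.1]))
  · have := mul_right_cancel₀ hz (mul_left_cancel₀ two_ne_zero h1)
    exact Or.inl (Subtype.ext (by linarith))

theorem pchb_epath (σ : C(Dl 2, X)) (t : Dl 2) : (epath σ).extend (t 1) = σ t := by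
  have : (epath σ).extend (t 1) = epath σ (par t) := Path.extend_extends' _ (par t)
  rw [this]
  exact congrArg σ (unpar_par t)

/-- In a simply connected space the boundary of a triangle can be filled.  With `F` a homotopy rel end points from
`(epath a).trans (epath b)` to `epath c`, the map `Q (s, u) = (1 - s) • (broken path e₀ e₁ e₂) u + s • ((1 - u) e₀ + u e₂)` is a
continuous surjection `I × I → Dl 3` (compact to Hausdorff: a quotient map), `u = t 1 / 2 + t 2`, and `s` is determined unless
`u ∈ {0, 1}`; so `F` factors through `Q`. -/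
theorem exists_triangle [SimplyConnectedSpace X] (a b c : C(Dl 2, X))
    (h0 : a (stdSimplex.vertex 0) = c (stdSimplex.vertex 0))
    (h1 : a (stdSimplex.vertex 1) = b (stdSimplex.vertex 0))
    (h2 : b (stdSimplex.vertex 1) = c (stdSimplex.vertex 1)) :
    ∃ τ : C(Dl 3, X), τ.comp (face 0) = b ∧ τ.comp (face 1) = c ∧ τ.comp (face 2) = a := by
  obtain ⟨F⟩ := SimplyConnectedSpace.paths_homotopic
    (((epath a).cast h0.symm rfl).trans ((epath b).cast h1 h2.symm)) (epath c)
  have hQ : Topology.IsQuotientMap pchb_Q :=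
    Topology.IsQuotientMap.of_surjective_continuous pchb_surj pchb_Q.continuous
  have hf : Function.FactorsThrough F.toHomotopy.toContinuousMap pchb_Q := by
    rintro ⟨s, u⟩ ⟨s', u'⟩ h
    obtain ⟨e, h'⟩ := pchb_inj h
    simp only at e h'
    subst e
    change F (s, u) = F (s', u)
    rcases h' with rfl | rfl | rfl
    · rfl
    · rw [F.source, F.source]
    · rw [F.target, F.target]
  have hτ : ∀ z, hQ.lift _ hf (pchb_Q z) = F z := fun z =>
    ContinuousMap.congr_fun (hQ.lift_comp _ hf) z
  have hs : ∀ t : Dl 2, 0 ≤ t 1 ∧ t 1 ≤ 1 ∧ t 0 = 1 - t 1 := fun t => by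
    have e := stdSimplex.sum_eq_one t
    rw [Fin.sum_univ_two] at e
    exact ⟨stdSimplex.zero_le t 1, stdSimplex.le_one t 1, by linarith⟩
  refine ⟨hQ.lift _ hf, ContinuousMap.ext fun t => ?_, ContinuousMap.ext fun t => ?_,
    ContinuousMap.ext fun t => ?_⟩
  · obtain ⟨h3, h4, h5⟩ := hs t
    have hm : min ((1 + t 1) / 2) (1 - (1 + t 1) / 2) = (1 - t 1) / 2 := by
      rw [min_eq_right (by linarith)]; ring
    have e : face 0 t = pchb_Q (0, ⟨(1 + t 1) / 2, by linarith, by linarith⟩) := by
      refine pchb_ext ?_ ?_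
      · rw [pchb_Q_one]
        simp only [hm, Icc.coe_zero]
        have := face_apply_succAbove (0 : Fin 3) t 0
        change face 0 t 1 = _ at this
        linarith
      · rw [pchb_Q_two]
        simp only [hm, Icc.coe_zero]
        have := face_apply_succAbove (0 : Fin 3) t 1
        change face 0 t 2 = _ at this
        linarith
    rw [ContinuousMap.comp_apply, e, hτ, F.apply_zero, Path.coe_toContinuousMap,
      ← Path.extend_extends', Path.extend_trans_of_half_le _ _ (by linarith), Path.extend_cast,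
      ← pchb_epath b t]
    congr 1
    ring
  · have e : face 1 t = pchb_Q (1, par t) := by
      refine pchb_ext ?_ ?_
      · rw [pchb_Q_one, face_apply_self]
        simp
      · rw [pchb_Q_two]
        have := face_apply_succAbove (1 : Fin 3) t 1
        change face 1 t 2 = _ at this
        rw [this]
        simp [par]
    rw [ContinuousMap.comp_apply, e, hτ, F.apply_one]
    exact congrArg c (unpar_par t)
  · obtain ⟨h3, h4, h5⟩ := hs t
    have hm : min (t 1 / 2) (1 - t 1 / 2) = t 1 / 2 := min_eq_left (by linarith)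
    have e : face 2 t = pchb_Q (0, ⟨t 1 / 2, by linarith, by linarith⟩) := by
      refine pchb_ext ?_ ?_
      · rw [pchb_Q_one]
        simp only [hm, Icc.coe_zero]
        have := face_apply_succAbove (2 : Fin 3) t 1
        change face 2 t 1 = _ at this
        linarith
      · rw [pchb_Q_two, face_apply_self]
        simp only [hm, Icc.coe_zero]
        ring
    rw [ContinuousMap.comp_apply, e, hτ, F.apply_zero, Path.coe_toContinuousMap,
      ← Path.extend_extends', Path.extend_trans_of_le_half _ _ (by linarith), Path.extend_cast,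
      ← pchb_epath a t]
    congr 1
    ring

end

end Crest.Agent.R251.Top
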