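import Crest.Agent.R251.Top.Sd
import Crest.Agent.R251.Top.Pch

/-!
# Row 251, topology: generators of `H(V, V ∖ 0)`
-/

set_option autoImplicit false

open Set

namespace Crest.Agent.R251.Top

noncomputable section

variable {X : Type} [TopologicalSpace X]

theorem rbasis_empty : RBasis bd ⊥ (Sup (∅ : Set X)) (fun _ : Unit => ems X) := by
  refine ⟨fun _ => mem_RZ.2 ⟨ems_mem_Sup _, by rw [bd_ems]; exact zero_mem _⟩, fun c hc => ?_, fun x hx => ?_⟩
  · obtain ⟨n, rfl⟩ := mem_Sup_empty.1 hc.1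
    refine ⟨Finsupp.single () n, ?_⟩
    rw [Finsupp.linearCombination_single, sub_self]
    exact zero_mem _
  · obtain ⟨b, hb, e⟩ := mem_RB_bot.1 hx
    rw [bd_eq_zero_of_mem_Sup_empty hb, Finsupp.linearCombination_unique] at e
    ext
    exact smul_ems_eq_zero e.symm

/-- Mayer–Vietoris (`RBasis.mv`, `racyc_union`, `Sup_inter`) -/
theorem rbasis_mv {O₁ O₂ : Set X} (h₁ : IsOpen O₁) (h₂ : IsOpen O₂) (a₁ : RAcyc bd ⊥ (Sup O₁))
    (a₂ : RAcyc bd ⊥ (Sup O₂)) {c b₁ b₂ : Ch X} (hc : RBasis bd ⊥ (Sup (O₁ ∩ O₂)) (fun _ : Unit => c))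
    (hb₁ : b₁ ∈ Sup O₁) (hb₂ : b₂ ∈ Sup O₂) (hd₁ : bd b₁ = c) (hd₂ : bd b₂ = c) :
    RBasis bd ⊥ (Sup (O₁ ∪ O₂)) (fun _ : Unit => b₂ - b₁) := by
  rw [Sup_inter] at hc
  exact RBasis.mv (b₁ := fun _ => b₁) (b₂ := fun _ => b₂) bd_bd (sub_Sup _) (sub_Sup _) (sub_Sup _)
    (Sup_mono subset_union_left) (Sup_mono subset_union_right) (racyc_union h₁ h₂) a₁ a₂ hc
    (fun _ => hb₁) (fun _ => hb₂) (fun _ => hd₁) (fun _ => hd₂)

/-- from reduced homology of `V ∖ 0` to `H(V, V ∖ 0)` (`RBasis.bd_iff`, `racyc_top`) -/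
theorem rbasis_pair {V : Type} [NormedAddCommGroup V] [NormedSpace ℝ V] {d : Ch V}
    (h : RBasis bd ⊥ (Sup {z : V | z ≠ 0}) (fun _ : Unit => bd d)) :
    RBasis bd (Sup {z : V | z ≠ 0}) ⊤ (fun _ : Unit => d) := by
  exact (RBasis.bd_iff (g := fun _ : Unit => d) bd_bd (sub_bot _) (sub_Sup _) bot_le le_top racyc_top
    fun _ => Submodule.mem_top).2 h

/-- the standard simplex in `ℝ^k` -/
def iot (k : ℕ) : C(Dl k, Fin k → ℝ) := incl _

/-- nonzero vectors with a nonpositive coordinate (star-shaped about `(-1, …, -1)`) -/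
def Kneg (k : ℕ) : Set (Fin k → ℝ) := {μ | μ ≠ 0 ∧ ∃ i, μ i ≤ 0}

/-- the complement of the diagonal line -/
def Dg (k : ℕ) : Set (Fin k → ℝ) := {μ | ∃ i j, μ i ≠ μ j}

theorem racyc_Kneg (k : ℕ) : RAcyc bd ⊥ (Sup (Kneg (k + 1))) := by
  refine racyc_of_starConvex (a := fun _ => -1) ⟨fun h => ?_, 0, by norm_num⟩ ?_
  · simpa using congrFun h 0
  · rintro y ⟨hy, i, hi⟩ s t hs ht hst
    have h1 : t * y i ≤ 0 := mul_nonpos_of_nonneg_of_nonpos ht hi
    refine ⟨fun h => hy ?_, i, ?_⟩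
    · have h2 : s * -1 + t * y i = 0 := congrFun h i
      obtain rfl : s = 0 := by linarith
      obtain rfl : t = 1 := by linarith
      simpa using h
    · change s * -1 + t * y i ≤ 0
      linarith

theorem spha_isOpen_Dg (k : ℕ) : IsOpen (Dg k) := by
  have e : Dg k = ⋃ i, ⋃ j, {μ : Fin k → ℝ | μ i ≠ μ j} := by
    ext μ
    simp [Dg]
  rw [e]
  exact isOpen_iUnion fun i => isOpen_iUnion fun j =>
    isOpen_ne_fun (continuous_apply i) (continuous_apply j)

/-- the complement of the closed ray through `-(ε, …, ε)` is star-shaped about `(ε, …, ε)` -/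
theorem spha_racyc (k : ℕ) {ε : ℝ} (hε : ε ≠ 0) :
    RAcyc bd ⊥ (Sup (Dg (k + 1) ∪ {μ | 0 < ε * μ 0})) := by
  have h0 : 0 < ε * ε := mul_self_pos.2 hε
  refine racyc_of_starConvex (a := fun _ => ε) (Or.inr h0) ?_
  intro y hy s t hs ht hst
  rcases ht.eq_or_lt with rfl | ht'
  · obtain rfl : s = 1 := by linarith
    refine Or.inr ?_
    change 0 < ε * (1 * ε + 0 * y 0)
    linarith
  · rcases hy with ⟨i, j, hij⟩ | hy
    · refine Or.inl ⟨i, j, fun h => hij ?_⟩
      change s * ε + t * y i = s * ε + t * y j at h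
      exact mul_left_cancel₀ ht'.ne' (add_left_cancel h)
    · refine Or.inr ?_
      change 0 < ε * y 0 at hy
      change 0 < ε * (s * ε + t * y 0)
      nlinarith [mul_pos ht' hy, mul_nonneg hs h0.le]

theorem spha_exists_pos {k : ℕ} (t : Dl k) : ∃ i, 0 < t i := by
  by_contra h
  push Not at h
  have h1 := stdSimplex.sum_eq_one t
  have h2 : ∑ i, t i ≤ 0 := Finset.sum_nonpos fun i _ => h i
  linarith

/-- `rbasis_mv` with `O₁`, `O₂` the complements of the closed rays `ℝ≥0 • (1, …, 1)`, `ℝ≥0 • (-1, …, -1)` (star-shaped about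
`(-1, …, -1)`, `(1, …, 1)`); `O₁ ∩ O₂ = Dg`, `O₁ ∪ O₂ = {μ ≠ 0}` -/
theorem rbasis_punct {k : ℕ} (h : RBasis bd ⊥ (Sup (Dg (k + 1))) (fun _ : Unit => bd (sx (iot (k + 1)))))
    {b : Ch (Fin (k + 1) → ℝ)} (hb : b ∈ Sup (Kneg (k + 1))) (hbd : bd b = bd (sx (iot (k + 1)))) :
    RBasis bd ⊥ (Sup {μ : Fin (k + 1) → ℝ | μ ≠ 0}) (fun _ : Unit => sx (iot (k + 1)) - b) := by
  have ho : ∀ ε : ℝ, IsOpen (Dg (k + 1) ∪ {μ | 0 < ε * μ 0}) := fun ε =>
    (spha_isOpen_Dg _).union (isOpen_lt continuous_const (by fun_prop))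
  have hi : (Dg (k + 1) ∪ {μ | 0 < -1 * μ 0}) ∩ (Dg (k + 1) ∪ {μ | 0 < 1 * μ 0}) = Dg (k + 1) := by
    refine Subset.antisymm ?_ fun μ hμ => ⟨Or.inl hμ, Or.inl hμ⟩
    rintro μ ⟨h1 | h1, h2 | h2⟩
    any_goals assumption
    change 0 < -1 * μ 0 at h1
    change 0 < 1 * μ 0 at h2
    linarith
  have hu : (Dg (k + 1) ∪ {μ | 0 < -1 * μ 0}) ∪ (Dg (k + 1) ∪ {μ | 0 < 1 * μ 0}) = {μ | μ ≠ 0} := by
    refine Subset.antisymm ?_ fun μ hμ => ?_
    · rintro μ ((⟨i, j, h1⟩ | h1) | (⟨i, j, h1⟩ | h1)) rfl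
      · exact h1 rfl
      · simp at h1
      · exact h1 rfl
      · simp at h1
    · rcases lt_trichotomy (μ 0) 0 with h1 | h1 | h1
      · exact Or.inl (Or.inr (by change 0 < -1 * μ 0; linarith))
      · obtain ⟨i, hi⟩ := Function.ne_iff.1 hμ
        exact Or.inl (Or.inl ⟨i, 0, by rw [h1]; exact hi⟩)
      · exact Or.inr (Or.inr (by change 0 < 1 * μ 0; linarith))
  rw [← hu]
  refine rbasis_mv (ho _) (ho _) (spha_racyc k (by norm_num)) (spha_racyc k one_ne_zero)
    (by rw [hi]; exact h) (Sup_mono ?_ hb) (sx_mem_Sup.2 fun t => ?_) hbd rfl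
  · rintro μ ⟨hμ, i, hi⟩
    by_cases hD : μ ∈ Dg (k + 1)
    · exact Or.inl hD
    · have h1 : ∀ i j, μ i = μ j := fun i j => by
        by_contra hc
        exact hD ⟨i, j, hc⟩
      obtain ⟨j, hj⟩ := Function.ne_iff.1 hμ
      refine Or.inr ?_
      change 0 < -1 * μ 0
      have h2 : μ 0 < 0 := lt_of_le_of_ne (h1 0 i ▸ hi) (h1 0 j ▸ hj)
      linarith
  · by_cases hD : iot (k + 1) t ∈ Dg (k + 1)
    · exact Or.inl hD
    · obtain ⟨i, hi⟩ := spha_exists_pos t
      have h1 : iot (k + 1) t 0 = iot (k + 1) t i := by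
        by_contra hc
        exact hD ⟨0, i, hc⟩
      refine Or.inr ?_
      change 0 < 1 * iot (k + 1) t 0
      rw [h1, one_mul]
      exact hi

theorem spha_face_mem {k : ℕ} (i : Fin (k + 1)) (t : Dl k) : iot (k + 1) (face i t) ∈ Dg (k + 1) := by
  obtain ⟨j, hj⟩ := spha_exists_pos (face i t)
  exact ⟨j, i, fun h => hj.ne' (h.trans (face_apply_self i t))⟩

/-- the projection along the diagonal -/
def sphaP (k : ℕ) : C(Fin (k + 1) → ℝ, Fin k → ℝ) := ⟨fun μ i => μ i.succ - μ 0, by fun_prop⟩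

/-- its section -/
def sphaS (k : ℕ) : C(Fin k → ℝ, Fin (k + 1) → ℝ) :=
  ⟨fun ν => Fin.cons 0 ν, continuous_pi fun i => by
    refine Fin.cases ?_ (fun j => ?_) i
    · exact continuous_const
    · exact continuous_apply j⟩

/-- the homotopy from the identity to `sphaS ∘ sphaP` -/
def sphaH (k : ℕ) : (ContinuousMap.id (Fin (k + 1) → ℝ)).Homotopy ((sphaS k).comp (sphaP k)) where
  toFun z := fun i => z.2 i - z.1 * z.2 0
  continuous_toFun := by fun_prop
  map_zero_left μ := by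
    funext i
    simp
  map_one_left μ := by
    funext i
    refine Fin.cases ?_ (fun j => ?_) i <;> simp [sphaS, sphaP]

theorem spha_mapsTo (k : ℕ) : MapsTo (sphaP k) (Dg (k + 1)) {ν | ν ≠ 0} := by
  rintro μ ⟨i, j, hij⟩ h
  have h1 : ∀ i, μ i = μ 0 := fun i => Fin.cases rfl (fun l => sub_eq_zero.1 (congrFun h l)) i
  exact hij ((h1 i).trans (h1 j).symm)

/-- Induction: `Dg 1 = ∅`; `rbasis_of_retract` with `φ μ = fun i => μ i.succ - μ 0`, `ψ = Fin.cons 0`,
`H (u, μ) = μ - (u * μ 0) • 1`; `φ ∘ iot ∘ face 0 = iot` and the other faces go to `Kneg`. -/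
theorem rbasis_Dg (k : ℕ) : RBasis bd ⊥ (Sup (Dg (k + 1))) (fun _ : Unit => bd (sx (iot (k + 1)))) := by
  induction k with
  | zero =>
    have e : Dg (0 + 1) = ∅ := by
      refine eq_empty_of_forall_notMem ?_
      rintro μ ⟨i, j, h⟩
      exact h (congrArg μ (Subsingleton.elim (α := Fin 1) i j))
    rw [e, sx_one, bd_pt]
    exact rbasis_empty
  | succ k ih =>
    have hg : bd (sx (iot (k + 1 + 1))) ∈ Sup (Dg (k + 1 + 1)) := by
      rw [bd_sx]
      exact Submodule.sum_mem _ fun i _ => Submodule.smul_mem _ _ (sx_mem_Sup.2 (spha_face_mem i))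
    refine rbasis_of_retract (V := {ν | ν ≠ 0}) (sphaP (k + 1)) (sphaS (k + 1)) (spha_mapsTo _) ?_
      (sphaH (k + 1)) ?_ (fun _ => ⟨hg, bd_bd _⟩) ?_
    · intro ν hν
      obtain ⟨i, hi⟩ := Function.ne_iff.1 hν
      exact ⟨i.succ, 0, hi⟩
    · rintro u μ ⟨i, j, hij⟩
      exact ⟨i, j, fun h => hij (sub_left_injective h)⟩
    · have e0 : (sphaP (k + 1)).comp ((iot (k + 1 + 1)).comp (face 0)) = iot (k + 1) := by
        ext t i
        change face 0 t i.succ - face 0 t 0 = t i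
        rw [face_apply_self, sub_zero]
        exact face_apply_succAbove 0 t i
      obtain ⟨b, hb, e⟩ : ∃ b ∈ Sup (Kneg (k + 1)),
          mp (sphaP (k + 1)) (bd (sx (iot (k + 1 + 1)))) = sx (iot (k + 1)) - b := by
        refine ⟨-∑ i : Fin (k + 1), (-1 : ℤ) ^ ((i.succ : Fin (k + 1 + 1)) : ℕ) •
          sx ((sphaP (k + 1)).comp ((iot (k + 1 + 1)).comp (face i.succ))), ?_, ?_⟩
        · refine neg_mem (Submodule.sum_mem _ fun i _ => Submodule.smul_mem _ _ (sx_mem_Sup.2 fun t => ?_))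
          refine ⟨spha_mapsTo _ (spha_face_mem i.succ t), i, ?_⟩
          change face i.succ t i.succ - face i.succ t 0 ≤ 0
          rw [face_apply_self, zero_sub, neg_nonpos]
          exact stdSimplex.zero_le _ _
        · rw [bd_sx, Fin.sum_univ_succ, map_add, map_sum, sub_neg_eq_add]
          simp only [map_smul, mp_sx, e0, Fin.val_zero, pow_zero, one_smul]
      rw [e]
      refine rbasis_punct ih hb ?_
      have h1 := congrArg bd e
      rw [bd_mp, bd_bd, map_zero, map_sub] at h1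
      exact (sub_eq_zero.1 h1.symm).symm

theorem gen0 : RBasis bd (Sup {z : Fin 0 → ℝ | z ≠ 0}) ⊤ (fun _ : Unit => pt 0) := by
  refine rbasis_pair ?_
  have e : {z : Fin 0 → ℝ | z ≠ 0} = ∅ := eq_empty_of_forall_notMem fun z hz => hz (Subsingleton.elim _ _)
  rw [e, bd_pt]
  exact rbasis_empty

/-- the edge from `-1` to `1` -/
def seg : Path (-1 : ℝ) 1 where
  toFun u := 2 * u - 1
  continuous_toFun := by fun_prop
  source' := by simp
  target' := by norm_num

theorem gen1 : RBasis bd (Sup {z : ℝ | z ≠ 0}) ⊤ (fun _ : Unit => pch seg) := by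
  refine rbasis_pair ?_
  have e : {z : ℝ | z ≠ 0} = Iio 0 ∪ Ioi 0 := by
    rw [Iio_union_Ioi]
    rfl
  have e' : Iio (0 : ℝ) ∩ Ioi 0 = ∅ :=
    eq_empty_of_forall_notMem fun z hz => lt_asymm (mem_Iio.1 hz.1) (mem_Ioi.1 hz.2)
  rw [e, bd_pch]
  exact rbasis_mv isOpen_Iio isOpen_Ioi
    (racyc_of_starConvex (a := -1) (by norm_num) ((convex_Iio 0).starConvex (by norm_num)))
    (racyc_of_starConvex (a := 1) (by norm_num) ((convex_Ioi 0).starConvex (by norm_num)))
    (by rw [e']; exact rbasis_empty) (cst_mem_Sup 1 (by norm_num)) (cst_mem_Sup 1 (by norm_num))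
    (bd_pt _) (bd_pt _)

/-- the unit circle -/
def circ : Path (1 : ℂ) 1 where
  toFun u := Complex.exp (((2 * Real.pi * u : ℝ) : ℂ) * Complex.I)
  continuous_toFun := by fun_prop
  source' := by simp
  target' := by simp [Complex.exp_two_pi_mul_I]

/-- the complement of a closed imaginary half axis -/
def sphbP (s : ℝ) : Set ℂ := {z | z.re ≠ 0 ∨ 0 < s * z.im}

theorem sphbP_open (s : ℝ) : IsOpen (sphbP s) :=
  (isOpen_ne_fun Complex.continuous_re continuous_const).union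
    (isOpen_lt continuous_const (continuous_const.mul Complex.continuous_im))

theorem sphbP_acyc {s : ℝ} (hs : s * s = 1) : RAcyc bd ⊥ (Sup (sphbP s)) := by
  refine racyc_of_starConvex (a := (⟨0, s⟩ : ℂ)) (.inr (by simp [hs])) ?_
  intro z hz a b ha hb hab
  rcases hb.eq_or_lt with rfl | hb'
  · right
    have : a = 1 := by linarith
    simp [this, hs]
  · rcases hz with hz | hz
    · left
      simp [hz, hb'.ne']
    · right
      have e : s * (a • (⟨0, s⟩ : ℂ) + b • z).im = a * (s * s) + b * (s * z.im) := by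
        simp
        ring
      rw [e, hs]
      positivity

theorem sphb_half {s : ℝ} (hs : s * s = 1) : RAcyc bd ⊥ (Sup {z : ℂ | 0 < s * z.re}) := by
  refine racyc_of_starConvex (a := (s : ℂ)) (by simp [hs]) ?_
  intro z hz a b ha hb hab
  have e : s * (a • (s : ℂ) + b • z).re = a * (s * s) + b * (s * z.re) := by
    simp
    ring
  have hz' : 0 < s * z.re := hz
  change 0 < s * (a • (s : ℂ) + b • z).re
  rw [e, hs]
  rcases hb.eq_or_lt with rfl | hb'
  · linarith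
  · positivity

theorem sphb_two : RBasis bd ⊥ (Sup (sphbP (-1) ∩ sphbP 1))
    (fun _ : Unit => pt (-1 : ℂ) - pt 1) := by
  have ho : ∀ s : ℝ, IsOpen {z : ℂ | 0 < s * z.re} := fun s =>
    isOpen_lt continuous_const (continuous_const.mul Complex.continuous_re)
  have e1 : {z : ℂ | 0 < 1 * z.re} ∩ {z : ℂ | 0 < -1 * z.re} = ∅ := by
    refine eq_empty_of_forall_notMem fun z hz => ?_
    have h1 : 0 < 1 * z.re := hz.1
    have h2 : 0 < -1 * z.re := hz.2
    linarith
  have e2 : {z : ℂ | 0 < 1 * z.re} ∪ {z : ℂ | 0 < -1 * z.re} = sphbP (-1) ∩ sphbP 1 := by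
    ext z
    simp only [sphbP, mem_union, mem_inter_iff, mem_ofPred_eq]
    constructor
    · rintro (h | h)
      · have : z.re ≠ 0 := by intro h0; simp [h0] at h
        exact ⟨.inl this, .inl this⟩
      · have : z.re ≠ 0 := by intro h0; simp [h0] at h
        exact ⟨.inl this, .inl this⟩
    · rintro ⟨h₁, h₂⟩
      have : z.re ≠ 0 := by
        rcases h₁ with h₁ | h₁
        · exact h₁
        · rcases h₂ with h₂ | h₂
          · exact h₂
          · linarith
      rcases this.lt_or_gt with h | h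
      · right; linarith
      · left; linarith
  rw [← e2]
  exact rbasis_mv (ho 1) (ho (-1)) (sphb_half (by norm_num)) (sphb_half (by norm_num))
    (by rw [e1]; exact rbasis_empty) (cst_mem_Sup 1 (by simp)) (cst_mem_Sup 1 (by simp))
    (bd_pt _) (bd_pt _)

/-- the upper semicircle -/
def sphbUp : Path (1 : ℂ) (-1) where
  toFun u := Complex.exp (((Real.pi * u : ℝ) : ℂ) * Complex.I)
  continuous_toFun := by fun_prop
  source' := by simp
  target' := by simp [Complex.exp_pi_mul_I]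

/-- the lower semicircle -/
def sphbLo : Path (-1 : ℂ) 1 where
  toFun u := -Complex.exp (((Real.pi * u : ℝ) : ℂ) * Complex.I)
  continuous_toFun := by fun_prop
  source' := by simp
  target' := by simp [Complex.exp_pi_mul_I]

theorem sphb_trig (u : unitInterval) :
    Real.cos (Real.pi * u) ≠ 0 ∨ 0 < Real.sin (Real.pi * u) := by
  by_cases h : Real.cos (Real.pi * u) = 0
  · right
    have h1 : 0 ≤ Real.sin (Real.pi * u) := Real.sin_nonneg_of_nonneg_of_le_pi
      (mul_nonneg Real.pi_pos.le u.2.1) (mul_le_of_le_one_right Real.pi_pos.le u.2.2)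
    have h2 := Real.sin_sq_add_cos_sq (Real.pi * u)
    refine h1.lt_of_ne fun h0 => ?_
    rw [← h0, h] at h2
    norm_num at h2
  · exact .inl h

theorem sphbUp_mem (u : unitInterval) : sphbUp u ∈ sphbP 1 := by
  change (Complex.exp (((Real.pi * u : ℝ) : ℂ) * Complex.I)).re ≠ 0 ∨
    0 < 1 * (Complex.exp (((Real.pi * u : ℝ) : ℂ) * Complex.I)).im
  rw [Complex.exp_ofReal_mul_I_re, Complex.exp_ofReal_mul_I_im, one_mul]
  exact sphb_trig u

theorem sphbLo_mem (u : unitInterval) : sphbLo u ∈ sphbP (-1) := by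
  change (-Complex.exp (((Real.pi * u : ℝ) : ℂ) * Complex.I)).re ≠ 0 ∨
    0 < -1 * (-Complex.exp (((Real.pi * u : ℝ) : ℂ) * Complex.I)).im
  rw [Complex.neg_re, Complex.neg_im, Complex.exp_ofReal_mul_I_re, Complex.exp_ofReal_mul_I_im,
    neg_mul_neg, one_mul, neg_ne_zero]
  exact sphb_trig u

theorem sphb_trans (u : unitInterval) : (sphbUp.trans sphbLo) u = circ u := by
  rw [Path.trans_apply]
  split_ifs with h
  · change Complex.exp (((Real.pi * (2 * u) : ℝ) : ℂ) * Complex.I) =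
      Complex.exp (((2 * Real.pi * u : ℝ) : ℂ) * Complex.I)
    congr 3
    ring
  · change -Complex.exp (((Real.pi * (2 * u - 1) : ℝ) : ℂ) * Complex.I) =
      Complex.exp (((2 * Real.pi * u : ℝ) : ℂ) * Complex.I)
    rw [← neg_one_mul, ← Complex.exp_pi_mul_I, ← Complex.exp_add]
    congr 1
    push_cast
    ring

/-- `rbasis_mv` twice: `{re < 0} ∪ {re > 0}` has generator `pt (-1) - pt 1`; `ℂ ∖ 0` is the union of the complements of the two
imaginary half axes, with the upper semicircle and minus the lower one; `circ` is their concatenation (`pch_trans`,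
`RBasis.congr`); `d` exists by `racyc_top` (take `pr 3`). -/
theorem gen2 : ∃ d ∈ Deg 3, bd d = pch circ ∧ RBasis bd (Sup {z : ℂ | z ≠ 0}) ⊤ (fun _ : Unit => d) := by
  have e : sphbP (-1) ∪ sphbP 1 = {z : ℂ | z ≠ 0} := by
    ext z
    simp only [sphbP, mem_union, mem_ofPred_eq]
    constructor
    · rintro ((h | h) | (h | h)) <;> rintro rfl <;> simp at h
    · intro hz
      by_cases h : z.re = 0
      · have h' : z.im ≠ 0 := fun h' => hz (Complex.ext h h')
        rcases h'.lt_or_gt with h' | h'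
        · left; right; linarith
        · right; right; linarith
      · exact .inl (.inl h)
  have h1 := rbasis_mv (sphbP_open (-1)) (sphbP_open 1) (sphbP_acyc (by norm_num))
    (sphbP_acyc (by norm_num)) sphb_two (b₁ := -pch sphbLo) (b₂ := pch sphbUp)
    (neg_mem (pch_mem_Sup sphbLo_mem)) (pch_mem_Sup sphbUp_mem)
    (by rw [map_neg, bd_pch, neg_sub]) (bd_pch _)
  rw [e] at h1
  obtain ⟨b, hb, hbd⟩ := pch_trans (A := {z : ℂ | z ≠ 0}) sphbUp sphbLo
    (fun u => e ▸ .inr (sphbUp_mem u)) (fun u => e ▸ .inl (sphbLo_mem u))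
  rw [pch_congr _ _ sphb_trans] at hbd
  have h2 : RBasis bd ⊥ (Sup {z : ℂ | z ≠ 0}) (fun _ : Unit => pch circ) :=
    h1.congr bd_bd (sub_bot _) (sub_Sup _) bot_le fun _ =>
      mem_RB_bot.2 ⟨b, hb, by rw [hbd, sub_neg_eq_add]⟩
  obtain ⟨d', -, hd'⟩ := racyc_bot_iff.1 racyc_top (pch circ) Submodule.mem_top
    (by rw [bd_pch, sub_self])
  have hd : bd (pr 3 d') = pch circ := by
    rw [← pr_bd, hd', pr_of_mem_Deg (pch_mem_Deg _)]
  exact ⟨pr 3 d', pr_mem_Deg 3 d', hd, rbasis_pair (by rw [hd]; exact h2)⟩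

/-- scaling -/
def scl {V : Type} [NormedAddCommGroup V] [NormedSpace ℝ V] (l : ℝ) : C(V, V) :=
  ⟨fun z => l • z, continuous_const_smul l⟩

theorem sphc_ne_zero {k : ℕ} (t : Dl k) : iot k t ≠ 0 := by
  intro h
  have h1 := stdSimplex.sum_eq_one t
  have h2 : ∀ i, t i = 0 := fun i => congrFun h i
  simp [h2] at h1

theorem sphc_norm (t : Dl 3) : 1 ≤ 3 * ‖iot 3 t‖ := by
  have h1 := stdSimplex.sum_eq_one t
  have h2 : ∀ i, t i ≤ ‖iot 3 t‖ := fun i => (le_abs_self _).trans (norm_le_pi_norm (iot 3 t) i)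
  rw [Fin.sum_univ_three] at h1
  linarith [h2 0, h2 1, h2 2]

/-- `b₀ ∈ Sup (Kneg 3) ⊓ Deg 3` with `bd b₀ = bd (sx (iot 3))` by `racyc_Kneg`; scale by a large `l` (`exists_isCompact`,
`RBasis.map_inj`, `map_Sup_of_isEmbedding`). -/
theorem gen3 : ∃ (d b : Ch (Fin 3 → ℝ)) (l : ℝ), 0 < l ∧ d ∈ Deg 4 ∧ b ∈ Sup (Kneg 3 ∩ {z | 1 ≤ ‖z‖}) ∧
    (∀ t : Dl 3, 1 ≤ ‖scl l (iot 3 t)‖) ∧ bd d = sx ((scl l).comp (iot 3)) - b ∧
      RBasis bd (Sup {z : Fin 3 → ℝ | z ≠ 0}) ⊤ (fun _ : Unit => d) := by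
  have hc : bd (sx (iot 3)) ∈ Sup (Kneg 3) := by
    rw [bd_sx]
    refine Submodule.sum_mem _ fun i _ => Submodule.smul_mem _ _ (sx_mem_Sup.2 fun t => ?_)
    exact ⟨sphc_ne_zero _, i, (face_apply_self i t).le⟩
  obtain ⟨b', hb', hbd'⟩ := racyc_bot_iff.1 (racyc_Kneg 2) _ hc (bd_bd _)
  have hb₀ : pr 3 b' ∈ Sup (Kneg 3) := pr_mem_Sup 3 hb'
  have hbd₀ : bd (pr 3 b') = bd (sx (iot 3)) := by
    rw [← pr_bd, hbd', pr_of_mem_Deg (bd_mem_Deg (sx_mem_Deg _))]
  have hR := rbasis_punct (rbasis_Dg 2) hb₀ hbd₀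
  obtain ⟨K, hK, hKs, hbK⟩ := exists_isCompact hb₀
  obtain ⟨ε, hε, hεK⟩ : ∃ ε : ℝ, 0 < ε ∧ ∀ z ∈ K, ε ≤ ‖z‖ :=
    hK.exists_forall_le' continuous_norm.continuousOn fun z hz => norm_pos_iff.2 (hKs hz).1
  obtain ⟨l, hl3, hlε⟩ : ∃ l : ℝ, 3 ≤ l ∧ 1 ≤ l * ε :=
    ⟨max 3 ε⁻¹, le_max_left _ _, by
      calc (1 : ℝ) = ε⁻¹ * ε := (inv_mul_cancel₀ hε.ne').symm
        _ ≤ _ := mul_le_mul_of_nonneg_right (le_max_right _ _) hε.le⟩
  have hl : 0 < l := by linarith
  have hnorm : ∀ z : Fin 3 → ℝ, ‖scl l z‖ = l * ‖z‖ := fun z => by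
    change ‖l • z‖ = _
    rw [norm_smul, Real.norm_of_nonneg hl.le]
  have hemb : Topology.IsEmbedding (scl l : C(Fin 3 → ℝ, Fin 3 → ℝ)) :=
    (Homeomorph.smulOfNeZero l hl.ne').isEmbedding
  have hR' := hR.map_inj (mp (scl l)) (mp_injective hemb.injective) (bd_mp _)
  have him : (scl l : C(Fin 3 → ℝ, Fin 3 → ℝ)) '' {μ | μ ≠ 0} = {μ | μ ≠ 0} := by
    ext μ
    constructor
    · rintro ⟨ν, hν, rfl⟩
      exact smul_ne_zero hl.ne' hν
    · intro hμ
      exact ⟨l⁻¹ • μ, smul_ne_zero (inv_ne_zero hl.ne') hμ, smul_inv_smul₀ hl.ne' μ⟩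
  rw [Submodule.map_bot, map_Sup_of_isEmbedding hemb, him] at hR'
  have hz : bd (mp (scl l) (sx (iot 3) - pr 3 b')) = 0 := by
    rw [bd_mp, map_sub, hbd₀, sub_self, map_zero]
  obtain ⟨d', -, hd'⟩ := racyc_bot_iff.1 racyc_top _ Submodule.mem_top hz
  have hd : bd (pr 4 d') = mp (scl l) (sx (iot 3) - pr 3 b') := by
    rw [← pr_bd, hd', pr_of_mem_Deg (mp_mem_Deg _ (sub_mem (sx_mem_Deg _) (pr_mem_Deg 3 b')))]
  refine ⟨pr 4 d', mp (scl l) (pr 3 b'), l, hl, pr_mem_Deg 4 d', mp_mem_Sup (fun z hz => ?_) hbK,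
    fun t => ?_, by rw [hd, map_sub, mp_sx], rbasis_pair (by rw [hd]; exact hR')⟩
  · obtain ⟨h0, i, hi⟩ := hKs hz
    refine ⟨⟨smul_ne_zero hl.ne' h0, i, mul_nonpos_of_nonneg_of_nonpos hl.le hi⟩, ?_⟩
    change 1 ≤ ‖scl l z‖
    rw [hnorm]
    exact hlε.trans (mul_le_mul_of_nonneg_left (hεK z hz) hl.le)
  · rw [hnorm]
    exact (sphc_norm t).trans (mul_le_mul_of_nonneg_right hl3 (norm_nonneg _))

/-- the sum of the positive parts -/
def sphcS (μ : Fin 3 → ℝ) : ℝ := ∑ i, max (μ i) 0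

theorem sphcS_cont : Continuous sphcS := by
  unfold sphcS
  fun_prop

/-- the normalised positive part -/
def sphcP (μ : Fin 3 → ℝ) (h : 0 < sphcS μ) : Dl 3 :=
  ⟨fun i => max (μ i) 0 / sphcS μ, fun i => div_nonneg (le_max_right _ _) h.le, by
    rw [← Finset.sum_div]; exact div_self h.ne'⟩

/-- the map of `ℝ³ ∖ 0` defined by a pointed triangle: `σ (μ⁺ / ∑ μ⁺)`, and the base point where `μ⁺ = 0`.  It is continuous on
the open sets `{∑ μ⁺ > 0}` and `{∃ i, μ i < 0}` (there it is constant), which cover `ℝ³ ∖ 0`. -/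
theorem exists_sphere_map {Z : Type} [TopologicalSpace Z] {z₀ : Z} (σ : C(Dl 3, Z))
    (hσ : ∀ t : Dl 3, (∃ i, t i = 0) → σ t = z₀) :
    ∃ f : (Fin 3 → ℝ) → Z, ContinuousOn f {μ | μ ≠ 0} ∧ (∀ (c : ℝ) μ, 0 < c → f (c • μ) = f μ) ∧
      (∀ t : Dl 3, f (iot 3 t) = σ t) ∧ ∀ μ ∈ Kneg 3, f μ = z₀ := by
  classical
  let f : (Fin 3 → ℝ) → Z := fun μ => if h : 0 < sphcS μ then σ (sphcP μ h) else z₀
  have hneg : ∀ μ : Fin 3 → ℝ, (∃ i, μ i ≤ 0) → f μ = z₀ := by
    rintro μ ⟨i, hi⟩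
    simp only [f]
    split_ifs with h
    · refine hσ _ ⟨i, ?_⟩
      change max (μ i) 0 / sphcS μ = 0
      rw [max_eq_right hi, zero_div]
    · rfl
  refine ⟨f, fun μ hμ => ContinuousAt.continuousWithinAt ?_, fun c μ hc => ?_, fun t => ?_,
    fun μ hμ => hneg μ hμ.2⟩
  · by_cases h : 0 < sphcS μ
    · have ho : IsOpen {ν | 0 < sphcS ν} := isOpen_lt continuous_const sphcS_cont
      refine ContinuousOn.continuousAt (s := {ν | 0 < sphcS ν}) ?_ (ho.mem_nhds h)
      rw [continuousOn_iff_continuous_domRestrict]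
      have e : ({ν | 0 < sphcS ν} : Set (Fin 3 → ℝ)).domRestrict f = fun ν => σ (sphcP ν.1 ν.2) := by
        funext ν
        exact dif_pos ν.2
      rw [e]
      refine σ.continuous.comp (Continuous.subtype_mk (continuous_pi fun i => ?_) _)
      exact (((continuous_apply i).comp continuous_subtype_val).max continuous_const).div
        (sphcS_cont.comp continuous_subtype_val) fun ν => ne_of_gt ν.2
    · obtain ⟨i, hi⟩ : ∃ i, μ i < 0 := by
        by_contra hcon
        push Not at hcon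
        refine hμ (funext fun i => le_antisymm ?_ (hcon i))
        have := Finset.single_le_sum (f := fun i => max (μ i) 0) (fun i _ => le_max_right _ _)
          (Finset.mem_univ i)
        exact (le_max_left _ _).trans (this.trans (not_lt.1 h))
      have ho : IsOpen {ν : Fin 3 → ℝ | ν i < 0} := isOpen_lt (continuous_apply i) continuous_const
      exact (continuousAt_const (y := z₀)).congr (Filter.eventually_of_mem (ho.mem_nhds hi)
        fun ν hν => (hneg ν ⟨i, le_of_lt hν⟩).symm)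
  · have e1 : ∀ i, max ((c • μ) i) 0 = c * max (μ i) 0 := fun i => by
      rw [mul_max_of_nonneg _ _ hc.le, mul_zero]; rfl
    have e2 : sphcS (c • μ) = c * sphcS μ := by
      simp only [sphcS, e1, Finset.mul_sum]
    simp only [f]
    by_cases h : 0 < sphcS μ
    · rw [dif_pos h, dif_pos (by rw [e2]; positivity)]
      congr 1
      refine stdSimplex.ext (funext fun i => ?_)
      change max ((c • μ) i) 0 / sphcS (c • μ) = max (μ i) 0 / sphcS μ
      rw [e1, e2, mul_div_mul_left _ _ hc.ne']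
    · rw [dif_neg h, dif_neg (by rw [e2]; exact fun h' => h ((mul_pos_iff_of_pos_left hc).1 h'))]
  · have e1 : ∀ i, max (iot 3 t i) 0 = t i := fun i => max_eq_left (stdSimplex.zero_le t i)
    have e2 : sphcS (iot 3 t) = 1 := by
      simp only [sphcS, e1]
      exact stdSimplex.sum_eq_one t
    simp only [f]
    rw [dif_pos (by rw [e2]; exact one_pos)]
    congr 1
    refine stdSimplex.ext (funext fun i => ?_)
    change max (iot 3 t i) 0 / sphcS (iot 3 t) = t i
    rw [e1, e2, div_one]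

end

end Crest.Agent.R251.Top
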