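import Crest.Agent.R251.Top.Cov
import Crest.Agent.R251.Top.Sph
import Crest.Agent.R251.Top.Real
import Crest.Agent.Lib.CWComb.Dual

/-!
# Row 251, topology: cellular data of the covering of a `W2` complex
-/

set_option autoImplicit false

open Set Matrix

namespace Crest.Agent.R251.Top

open Crest.Agent.Lib.CWComb

noncomputable section

variable {B : Type} [TopologicalSpace B] (W : W2 B) {G : Type} [Group G] {ν : PathFun B G}

theorem att0 : Att ∅ (range W.vx) (fun v => ContinuousMap.const (Fin 0 → ℝ) (W.vx v)) := by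
  have h0 : ∀ z : Fin 0 → ℝ, ¬ 1 ≤ ‖z‖ := fun z => by
    rw [Subsingleton.elim z 0, norm_zero]
    norm_num
  refine ⟨empty_subset _, fun v _ => ⟨v, rfl⟩, fun _ z hz => (h0 z hz).elim, fun _ _ _ _ _ => rfl,
    fun _ _ _ => notMem_empty _, fun v v' z z' _ _ e => ⟨W.vx_inj e, Subsingleton.elim _ _⟩, ?_,
    fun O _ _ => ?_⟩
  · rintro _ ⟨v, rfl⟩
    exact .inr ⟨v, 0, not_le.1 (h0 0), rfl⟩
  · have hs : range W.vx ⊆ W.X1 := by
      rintro _ ⟨v, rfl⟩
      exact .inl ⟨v, rfl⟩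
    have h := ((W.isClosed_vertices {v | W.vx v ∉ O}).preimage (continuous_inclusion hs)).isOpen_compl
    convert h using 1
    ext ⟨_, v, rfl⟩
    refine ⟨fun hv ⟨v', hv', e⟩ => hv' ?_, fun hv => by_contra fun hn => hv ⟨v, hn, rfl⟩⟩
    rw [show W.vx v' = W.vx v from congrArg Subtype.val e]
    exact hv

theorem att1 : Att (range W.vx) W.X1 W.ed := by
  refine ⟨?_, W.ed_mem, fun e s hs => ?_, fun e s c hs hc => ?_, ?_, W.ed_inj, ?_,
    fun O _ h => W.isOpen1 _ h⟩
  · rintro _ ⟨v, rfl⟩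
    exact .inl ⟨v, rfl⟩
  · rcases W.ed_cases e s with h | ⟨-, h⟩ | ⟨-, h⟩
    · exact absurd hs (not_le.2 h)
    · exact ⟨_, h.symm⟩
    · exact ⟨_, h.symm⟩
  · rw [smul_eq_mul]
    rcases W.ed_cases e s with h | ⟨h, h'⟩ | ⟨h, h'⟩
    · exact absurd hs (not_le.2 h)
    · rw [h', W.ed_le e _ (by nlinarith)]
    · rw [h', W.ed_ge e _ (by nlinarith)]
  · rintro e s hs ⟨v, hv⟩
    exact W.vx_ne_ed v e s hs hv
  · rintro x (⟨v, rfl⟩ | h)
    · exact .inl ⟨v, rfl⟩
    · exact .inr h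

theorem att2 : Att W.X1 univ W.fc := by
  refine ⟨subset_univ _, fun _ _ => trivial, fun j _ hz => W.fc_mem_X1 j hz, fun j z c hz hc => ?_,
    fun j _ hz => W.fc_not_mem_X1 j hz, W.fc_inj, fun x _ => W.cases2 x, fun O h h' => ?_⟩
  · exact W.fc_smul j hz (c := c) (by nlinarith)
  · exact (W.isOpen2 O (fun e => h.preimage (W.ed1 e).continuous) h').preimage continuous_subtype_val

include W in
/-- the quotient map from the disjoint union of the cells (`closed2`, `cover`) -/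
theorem lpc_W2 : LocallyPathConnectedSpace B := by
  let f : (Σ _ : W.Ed, ℝ) ⊕ (Σ _ : W.Fc, ℂ) → B :=
    Sum.elim (fun p => W.ed p.1 p.2) fun p => W.fc p.1 p.2
  have hf : Continuous f :=
    (continuous_sigma fun e => (W.ed e).continuous).sumElim (continuous_sigma fun j => (W.fc j).continuous)
  have h : ‹TopologicalSpace B› = .coinduced f inferInstance := by
    refine le_antisymm (fun O hO => W.isOpen2 O (fun e => ?_) fun j => ?_) hf.coinduced_le
    · exact (isOpen_coinduced.1 hO).preimage (continuous_inl.comp (continuous_sigmaMk (i := e)))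
    · exact (isOpen_coinduced.1 hO).preimage (continuous_inr.comp (continuous_sigmaMk (i := j)))
  exact h ▸ LocallyPathConnectedSpace.coinduced f

variable [LocallyPathConnectedSpace B] (hν : LocTriv ν)

/-- The chain of a lifted loop in the one-skeleton.  Apply `Lab.exists_transfer` to `(Cov.lab hν).restrict W.X1` (a covering by
`IsCoveringMap.restrictPreimage`) and `chFun` of its total space (the subtype `pj ⁻¹' X1`), then `W2.hol_loop`; the labels are the
classes of `og g • mp (Ψ s) (pch seg)`, and `map_hol` with the homomorphism induced by `lc` computes the holonomy from `fox`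
(`hol_translate`; or induct on the word with `fox_mul`, `fox_inv`). -/
theorem loop_chain [Fintype W.Ed] [DecidableEq W.Ed] (Ψ : W.Ed → C(ℝ, Cov ν)) (hΨ : ∀ s z, (Ψ s z).pj = W.ed s z)
    (hΨl : ∀ s, (Ψ s (-1)).lb = 1) {x : W.X1} (q : Path x x)
    (hq : FreeGroup.lift (W.gen (Cov.lab hν)) (W.mu1.val q) = 1) {e : Cov ν} (q' : Path e e)
    (hq' : ∀ u, (q' u).pj = q u) :
    ∃ b ∈ Sup (Cov.pj ⁻¹' W.X1), bd b = pch q' -
      og (e.lb * ν.val ((W.tr x).map continuous_subtype_val)) •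
        lc (fun s => mp (Ψ s) (pch seg)) (fox (W.gen (Cov.lab hν)) (W.mu1.val q)) := by
  set A : Set (Cov ν) := Cov.pj ⁻¹' W.X1 with hA
  let N : Submodule ℤ (Ch (Cov ν)) := (Sup A).map bd
  have hN : LinearMap.range (bd (X := A)) ≤ N.comap (mp (incl A)) := by
    rintro _ ⟨c, rfl⟩
    exact ⟨mp (incl A) c, mp_mem_Sup (A := univ) (fun x _ => x.2) (by rw [Sup_univ]; trivial), bd_mp _ _⟩
  let κ := (chFun A).map (AddMonoidHom.toMultiplicative (Submodule.mapQ _ N (mp (incl A)) hN).toAddMonoidHom)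
  have hκ : ∀ {a a' : A} (r : Path a a') {b b' : Cov ν} (r' : Path b b'), (∀ u, (r u : Cov ν) = r' u) →
      κ.val r = Multiplicative.ofAdd (N.mkQ (pch r')) := fun r _ _ r' h => by
    change Multiplicative.ofAdd (N.mkQ (mp (incl A) (pch r))) = _
    rw [mp_pch, pch_congr _ r' h]
  obtain ⟨κ', ha, hf⟩ := ((Cov.lab hν).restrict W.X1).exists_transfer
    ((Cov.isCoveringMap hν).restrictPreimage W.X1) κ
  let θ : Multiplicative (W.Ed → ZG G) →* Multiplicative (Ch (Cov ν) ⧸ N) := AddMonoidHom.toMultiplicative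
    (N.mkQ.toAddMonoidHom.comp (lc (G := G) fun s => mp (Ψ s) (pch seg)).toAddMonoidHom)
  have hlab : ∀ (g : G) s, (κ'.val (W.ep s)).f g = θ (Multiplicative.ofAdd (Pi.single s (og g))) := fun g s => by
    let F : C(ℝ, A) := ⟨fun z => ⟨g • Ψ s z, by
      change (Ψ s z).pj ∈ W.X1
      rw [hΨ]
      exact W.ed_mem s z⟩, by fun_prop⟩
    have h1 := hf (seg.map F.continuous) (W.ep s) fun u => Subtype.ext (hΨ s _)
    have h2 : ((Cov.lab hν).restrict W.X1).ℓ (F (-1)) = g := by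
      change g * (Ψ s (-1)).lb = g
      rw [hΨl, mul_one]
    rw [h2, hκ _ (seg.map ((act g).comp (Ψ s)).continuous) fun _ => rfl, ← mp_pch, ← mp_mp, ← og_smul,
      ← lc_single (fun s => mp (Ψ s) (pch seg))] at h1
    exact h1
  have hm : ∀ u, q' u ∈ A := fun u => by
    change (q' u).pj ∈ W.X1
    rw [hq']
    exact (q u).2
  have he : e ∈ A := q'.source ▸ hm 0
  let r : Path (⟨e, he⟩ : A) ⟨e, he⟩ :=
    ⟨⟨fun u => ⟨q' u, hm u⟩, by fun_prop⟩, Subtype.ext q'.source, Subtype.ext q'.target⟩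
  have h3 := W.hol_loop (Cov.lab hν) κ' ha q hq e.lb
  rw [funext₂ hlab, ← map_hol θ] at h3
  have h4 := (h3.trans (hf r q fun u => Subtype.ext (hq' u))).trans (hκ r q' fun _ => rfl)
  have h5 : N.mkQ (lc (fun s => mp (Ψ s) (pch seg)) (Multiplicative.toAdd _)) = N.mkQ (pch q') :=
    Multiplicative.ofAdd.injective h4
  rw [toAdd_hol, map_smul] at h5
  exact (Submodule.Quotient.eq N).1 h5.symm

include hν in
theorem att_rbasisG {V J : Type} [NormedAddCommGroup V] [NormedSpace ℝ V] [Fintype J] {A A' : Set B} {Φ : J → C(V, B)}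
    (h : Att A A' Φ) (Ψ : J → C(V, Cov ν)) (hΨ : ∀ j z, (Ψ j z).pj = Φ j z) {d : Ch V}
    (hd : RBasis bd (Sup {z : V | z ≠ 0}) ⊤ (fun _ : Unit => d)) (hd' : bd d ∈ Sup {z : V | 1 ≤ ‖z‖}) :
    RBasisG G (Cov.pj ⁻¹' A) (Cov.pj ⁻¹' A') (fun j => mp (Ψ j) d) :=
  RBasisG.of_rbasis (by simpa only [og_smul, mp_mp] using (h.lift hν Ψ hΨ).rbasis hd hd')

/-- `c0 v = pt ⟨vx v, 1⟩`, `c1 s = mp (Ψ s) (pch seg)` for the lift with label `1` at `-1`, `c2 j = mp (Ψ' j) d - b` with `d` from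
`gen2`, the lift `Ψ' j` of `fc j` with label `(ν.val (tr (att j 0)))⁻¹` at `1` and `b` from `loop_chain` for `W.bl j`
(`lift_gen_rel`).  `Att.lift`, `Att.rbasis`, `RBasisG.of_rbasis`, `RBasisG.congr`. -/
theorem exists_cell2 [Fintype W.V] [DecidableEq W.V] [Fintype W.Ed] [DecidableEq W.Ed] [Fintype W.Fc] :
    ∃ C : Cell2 G (Cov ν) univ W.V W.Ed W.Fc,
      C.m1 = edgeM (W.gen (Cov.lab hν)) W.src W.tgt ∧ C.m2 = foxM (W.gen (Cov.lab hν)) W.rel := by
  choose Ψ hΨ hΨl using fun s => Cov.exists_lift hν (W.ed s) (-1) 1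
  choose Ψ' hΨ' hΨl' using fun j => Cov.exists_lift hν (W.fc j) 1
    (ν.val ((W.tr (W.att j 0)).map continuous_subtype_val))⁻¹
  obtain ⟨d, hd, hbd, hR⟩ := gen2
  have r0 := att_rbasisG hν (att0 W) (fun v => ContinuousMap.const _ ⟨W.vx v, 1⟩) (fun _ _ => rfl) gen0
    (by rw [bd_pt]; exact ems_mem_Sup _)
  have r1 := att_rbasisG hν (att1 W) Ψ hΨ gen1 (by
    rw [bd_pch]
    exact sub_mem (cst_mem_Sup 1 (by simp)) (cst_mem_Sup 1 (by simp)))
  have r2 := att_rbasisG hν (att2 W) Ψ' hΨ' hR (by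
    rw [hbd]
    exact pch_mem_Sup fun u => (Complex.norm_exp_ofReal_mul_I _).ge)
  simp only [mp_cst] at r0
  have hcor : ∀ j, ∃ a ∈ Sup (Cov.pj ⁻¹' W.X1), a ∈ Deg 3 ∧ bd (mp (Ψ' j) d - a) =
      lc (fun s => mp (Ψ s) (pch seg)) (foxM (W.gen (Cov.lab hν)) W.rel j) := fun j => by
    obtain ⟨b, hb, hb'⟩ := loop_chain W hν Ψ hΨ hΨl (W.bl j) (W.lift_gen_rel _ j) (circ.map (Ψ' j).continuous)
      fun u => hΨ' j _
    rw [hΨl', inv_mul_cancel, fox_og_one, one_smul] at hb'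
    refine ⟨pr 3 b, pr_mem_Sup 3 hb, pr_mem_Deg 3 b, ?_⟩
    rw [map_sub, ← pr_bd, hb', pr_of_mem_Deg (sub_mem (pch_mem_Deg _)
      (lc_mem_Deg (fun s => mp_mem_Deg _ (pch_mem_Deg _)) _)), bd_mp, hbd, mp_pch, sub_sub_cancel]
    rfl
  choose a ha hadeg hbda using hcor
  refine ⟨⟨Cov.pj ⁻¹' range W.vx, Cov.pj ⁻¹' W.X1, fun v => pt ⟨W.vx v, 1⟩, fun s => mp (Ψ s) (pch seg),
    fun j => mp (Ψ' j) d - a j, edgeM (W.gen (Cov.lab hν)) W.src W.tgt, foxM (W.gen (Cov.lab hν)) W.rel,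
    fun _ _ h => h, fun _ _ h => h, fun _ _ h => h, preimage_mono (att1 W).sub, subset_univ _, fun _ => sx_mem_Deg _, fun _ => mp_mem_Deg _ (pch_mem_Deg _),
    fun j => sub_mem (mp_mem_Deg _ hd) (hadeg j), fun _ => bd_pt _, fun s => ?_, hbda, r0, r1,
    r2.congr (fun _ _ h => h) (fun _ _ h => h) (subset_univ _) fun j => ?_⟩, rfl, rfl⟩
  · have h1 : Ψ s (-1) = ⟨W.vx (W.src s), 1⟩ := Cov.ext ((hΨ s _).trans (W.ed_le s _ le_rfl)) (hΨl s)
    have h2 : Ψ s 1 = W.gen (Cov.lab hν) s • (⟨W.vx (W.tgt s), 1⟩ : Cov ν) := by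
      refine Cov.ext ((hΨ s _).trans (W.ed_ge s _ le_rfl)) ?_
      have h3 := Cov.val_lift hν (seg.map (Ψ s).continuous) ((W.ep s).map continuous_subtype_val) fun u => hΨ s _
      rw [hΨl, inv_one, one_mul] at h3
      exact h3.symm.trans (mul_one _).symm
    rw [mp_pch, bd_pch, h1, h2, show edgeM (W.gen (Cov.lab hν)) W.src W.tgt s =
      Pi.single (W.tgt s) (og (W.gen (Cov.lab hν) s)) - Pi.single (W.src s) 1 from rfl, map_sub, lc_single, lc_single, one_smul, og_smul, mp_cst]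
    rfl
  · rw [sub_sub_cancel]
    exact Submodule.mem_sup_right (ha j)

/-- `W2.exists_vertex_cochain` for `f g v = ofAdd (Pi.single v (og g))`; its values on edges are read off from `q = W.ep e` -/
theorem fox_vecMul_edgeM [Fintype W.Ed] [DecidableEq W.Ed] [DecidableEq W.V] {v v' : W.V}
    (q : Path (W.vx1 v) (W.vx1 v')) :
    fox (W.gen (Cov.lab hν)) (W.mu1.val q) ᵥ* edgeM (W.gen (Cov.lab hν)) W.src W.tgt =
      Pi.single v' (og (ν.val (q.map continuous_subtype_val))) - Pi.single v 1 := by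
  obtain ⟨n, -, hn⟩ := W.exists_vertex_cochain (Cov.lab hν)
    (fun g v => Multiplicative.ofAdd (Pi.single v (og g) : W.V → ZG G))
  let θ : Multiplicative (W.Ed → ZG G) →* Multiplicative (W.V → ZG G) := AddMonoidHom.toMultiplicative
    (Matrix.vecMulLinear (edgeM (W.gen (Cov.lab hν)) W.src W.tgt)).toAddMonoidHom
  have hlab : ∀ (g : G) s, n g s = θ (Multiplicative.ofAdd (Pi.single s (og g))) := fun g s => by
    have h := hn (W.ep s) g
    rw [W.mu1_ep, hol_of] at h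
    rw [h, ← ofAdd_neg, ← ofAdd_add, neg_add_eq_sub]
    change _ = Multiplicative.ofAdd (Pi.single s (og g) ᵥ* edgeM (W.gen (Cov.lab hν)) W.src W.tgt)
    have e : ∀ {T : Type} [DecidableEq T] (t : T) (x : ZG G),
        (Pi.single t (og g * x) : T → ZG G) = og g • Pi.single t x := fun t x => by
      rw [← Pi.single_smul', smul_eq_mul]
    rw [fox_og_mul, e, ← mul_one (og g), e, e, mul_one, Matrix.smul_vecMul,
      Matrix.single_one_vecMul, ← smul_sub]
    rfl
  have h := hn q 1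
  rw [funext₂ hlab, ← map_hol θ, ← ofAdd_neg, ← ofAdd_add, neg_add_eq_sub, one_mul, fox_og_one] at h
  exact Multiplicative.ofAdd.injective h

/-- the first part of the proof of `CWComb.W2.exists_isAsphPres` (only simple connectivity of the cover is used there) -/
theorem exists_pres [Fintype W.Ed] [DecidableEq W.Ed] [DecidableEq W.V] [SimplyConnectedSpace (Cov ν)] :
    ∃ (v₀ : W.V) (ω : {v : W.V // v ≠ v₀} → FreeGroup W.Ed),
      Function.Surjective (FreeGroup.lift (W.gen (Cov.lab hν))) ∧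
      (FreeGroup.lift (W.gen (Cov.lab hν))).ker = Subgroup.normalClosure (Set.range (Sum.elim W.rel ω)) ∧
      ∀ v, fox (W.gen (Cov.lab hν)) (ω v) ᵥ* edgeM (W.gen (Cov.lab hν)) W.src W.tgt =
        Pi.single v.1 1 - Pi.single v₀ 1 := by
  classical
  let L := Cov.lab hν
  have cov := Cov.isCoveringMap hν
  obtain ⟨e₀⟩ : Nonempty (Cov ν) := inferInstance
  let v₀ : W.V := W.vt (W.rr e₀.pj)
  let ν₁ := (L.restrict W.X1).ν
  have hpath : ∀ (x y : W.X1) (g : G), ∃ q : Path x y, ν₁.val q = g := by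
    intro x y g
    obtain ⟨q, hq⟩ := L.exists_path cov.continuous (x : B) (y : B) g
    obtain ⟨q', hq'⟩ := W.exists_path_X1 L.ν q
    exact ⟨q', hq'.trans hq⟩
  have hT : ∀ v, ∃ q : Path (W.vx1 v₀) (W.vx1 v), ν₁.val q = 1 ∧ (v = v₀ → W.mu1.val q = 1) := by
    intro v
    by_cases h : v = v₀
    · subst h
      exact ⟨Path.refl _, ν₁.val_refl _, fun _ => W.mu1.val_refl _⟩
    · obtain ⟨q, hq⟩ := hpath (W.vx1 v₀) (W.vx1 v) 1
      exact ⟨q, hq, fun h' => (h h').elim⟩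
  choose T hT1 hT2 using hT
  let rel : W.Fc ⊕ {v : W.V // v ≠ v₀} → FreeGroup W.Ed :=
    Sum.elim W.rel fun v => W.mu1.val (T v)
  let M := Subgroup.normalClosure (range rel)
  have hTM : ∀ v, W.mu1.val (T v) ∈ M := by
    intro v
    by_cases h : v = v₀
    · rw [hT2 v h]; exact M.one_mem
    · exact Subgroup.subset_normalClosure ⟨.inr ⟨v, h⟩, rfl⟩
  have hNM : W.N ≤ M := Subgroup.normalClosure_mono (by rintro _ ⟨j, rfl⟩; exact ⟨.inl j, rfl⟩)
  refine ⟨v₀, fun v => W.mu1.val (T v), fun g => ?_, le_antisymm (fun w hw => ?_) ?_, fun v => ?_⟩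
  · obtain ⟨q, hq⟩ := hpath (W.vx1 v₀) (W.vx1 v₀) g
    exact ⟨W.mu1.val q, (W.lift_gen_vertex L q).trans hq⟩
  · have key : ∀ w : FreeGroup W.Ed, ∃ q : Path (W.vx1 v₀) (W.vx1 v₀),
        ν₁.val q = FreeGroup.lift (W.gen L) w ∧
          (QuotientGroup.mk (W.mu1.val q) : FreeGroup W.Ed ⧸ M) = QuotientGroup.mk w := by
      intro w
      induction w using FreeGroup.induction_on with
      | C1 => exact ⟨Path.refl _, by rw [ν₁.val_refl, map_one], by rw [W.mu1.val_refl]⟩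
      | of e =>
        refine ⟨(T _).trans ((W.ep e).trans (T _).symm), ?_, ?_⟩
        · rw [ν₁.val_trans, ν₁.val_trans, ν₁.val_symm, hT1, hT1, FreeGroup.lift_apply_of]
          simp [ν₁, W2.gen]
        · rw [W.mu1.val_trans, W.mu1.val_trans, W.mu1.val_symm, W.mu1_ep, QuotientGroup.mk_mul,
            QuotientGroup.mk_mul, QuotientGroup.mk_inv, (QuotientGroup.eq_one_iff _).2 (hTM _),
            (QuotientGroup.eq_one_iff _).2 (hTM _)]
          simp
      | inv_of e ih =>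
        obtain ⟨q, h1, h2⟩ := ih
        exact ⟨q.symm, by rw [ν₁.val_symm, h1, map_inv],
          by rw [W.mu1.val_symm, QuotientGroup.mk_inv, h2, QuotientGroup.mk_inv]⟩
      | mul u v ihu ihv =>
        obtain ⟨q, h1, h2⟩ := ihu
        obtain ⟨q', h1', h2'⟩ := ihv
        exact ⟨q.trans q', by rw [ν₁.val_trans, h1, h1', map_mul],
          by rw [W.mu1.val_trans, QuotientGroup.mk_mul, h2, h2', QuotientGroup.mk_mul]⟩
    obtain ⟨q, h1, h2⟩ := key w
    obtain ⟨μ, hμ⟩ := W.exists_mu2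
    rw [MonoidHom.mem_ker.1 hw] at h1
    have h3 := μ.val_hom (L.homotopic_of_val_eq cov (q.map continuous_subtype_val) (Path.refl _)
      (h1.trans (L.ν.val_refl _).symm))
    rw [hμ, μ.val_refl, QuotientGroup.eq_one_iff] at h3
    rw [(QuotientGroup.eq_one_iff _).2 (hNM h3), eq_comm, QuotientGroup.eq_one_iff] at h2
    exact h2
  · refine Subgroup.normalClosure_le_normal ?_
    rintro _ ⟨j | v, rfl⟩
    · exact W.lift_gen_rel L j
    · exact (W.lift_gen_vertex L _).trans (hT1 v)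
  · rw [fox_vecMul_edgeM, show ν.val ((T v).map continuous_subtype_val) = 1 from hT1 v, fox_og_one]

end

end Crest.Agent.R251.Top
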