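import Crest.Agent.R251.Fox

/-!
# Row 251, topology: augmented singular chains (all degrees at once)

`Dl k` is the simplex with `k` vertices (`Dl 0` is empty), `Ch X` is the free abelian group on all singular simplices with
any number of vertices, the empty simplex `ems` included (so that `bd` of a point is `ems`: reduced homology).
`Sup A`: chains supported in `A`; `Deg k`: chains of simplices with `k` vertices (dimension `k - 1`).
-/

set_option autoImplicit false

open Set

namespace Crest.Agent.R251.Top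

noncomputable section

/-- the simplex with `k` vertices -/
abbrev Dl (k : ℕ) : Type := stdSimplex ℝ (Fin k)

/-- the simplicial map induced by a map of vertices -/
def dmap {k m : ℕ} (f : Fin k → Fin m) : C(Dl k, Dl m) := ⟨stdSimplex.map f, stdSimplex.continuous_map f⟩

/-- the face opposite to the vertex `i` -/
def face {k : ℕ} (i : Fin (k + 1)) : C(Dl k, Dl (k + 1)) := dmap i.succAbove

theorem dmap_comp {k m n : ℕ} (f : Fin k → Fin m) (g : Fin m → Fin n) :
    (dmap g).comp (dmap f) = dmap (g ∘ f) := by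
  ext1 t
  exact stdSimplex.map_comp_apply f g t

theorem dmap_id {k : ℕ} : dmap (id : Fin k → Fin k) = ContinuousMap.id _ := by
  ext1 t
  exact stdSimplex.map_id_apply t

theorem dmap_apply {k m : ℕ} (f : Fin k → Fin m) (t : Dl k) (j : Fin m) :
    dmap f t j = ∑ i ∈ Finset.univ.filter (fun i => f i = j), t i := by
  exact FunOnFinite.linearMap_apply_apply ℝ ℝ f t j

theorem face_apply_self {k : ℕ} (i : Fin (k + 1)) (t : Dl k) : face i t i = 0 := by
  rw [face, dmap_apply]
  refine Finset.sum_eq_zero fun j hj => ?_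
  exact absurd (Finset.mem_filter.1 hj).2 (Fin.succAbove_ne i j)

theorem face_apply_succAbove {k : ℕ} (i : Fin (k + 1)) (t : Dl k) (j : Fin k) :
    face i t (i.succAbove j) = t j := by
  rw [face, dmap_apply, Finset.sum_eq_single j]
  · intro b hb hne
    exact absurd (Fin.succAbove_right_injective (Finset.mem_filter.1 hb).2) hne
  · intro h
    exact absurd (by simp) h

theorem exists_face_of_eq_zero {k : ℕ} (i : Fin (k + 1)) (t : Dl (k + 1)) (h : t i = 0) :
    ∃ u : Dl k, face i u = t := by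
  have hs : ∑ j : Fin k, t (i.succAbove j) = 1 := by
    have := stdSimplex.sum_eq_one t
    rwa [Fin.sum_univ_succAbove _ i, h, zero_add] at this
  refine ⟨⟨fun j => t (i.succAbove j), fun j => stdSimplex.zero_le t _, hs⟩, ?_⟩
  refine stdSimplex.ext (funext fun j => ?_)
  rcases Fin.eq_self_or_eq_succAbove i j with rfl | ⟨j', rfl⟩
  · rw [face_apply_self, h]
  · rw [face_apply_succAbove]; rfl

theorem continuous_coord {k : ℕ} (i : Fin k) : Continuous fun t : Dl k => t i :=
  (continuous_apply i).comp continuous_subtype_val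

instance : IsEmpty (Dl 0) := ⟨fun t => by simpa using t.2.2⟩

instance {k : ℕ} : ContractibleSpace (Dl (k + 1)) :=
  (convex_stdSimplex ℝ (Fin (k + 1))).contractibleSpace ⟨_, single_mem_stdSimplex ℝ 0⟩

instance {k : ℕ} : LocallyPathConnectedSpace (Dl k) :=
  (convex_stdSimplex ℝ (Fin k)).locallyPathConnectedSpace

/-- singular simplices -/
def Smp (X : Type) [TopologicalSpace X] : Type := Σ k : ℕ, C(Dl k, X)

/-- augmented singular chains -/
abbrev Ch (X : Type) [TopologicalSpace X] : Type := Smp X →₀ ℤ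

variable {X Y Z : Type} [TopologicalSpace X] [TopologicalSpace Y] [TopologicalSpace Z]

/-- the chain of a simplex -/
def sx {k : ℕ} (σ : C(Dl k, X)) : Ch X := Finsupp.single (⟨k, σ⟩ : Smp X) 1

variable (X) in
/-- the empty simplex -/
def ems : Ch X := sx (k := 0) ⟨fun t => isEmptyElim t, continuous_of_discreteTopology⟩

/-- the constant simplex with `k` vertices -/
def cst (k : ℕ) (x : X) : Ch X := sx (ContinuousMap.const (Dl k) x)

/-- a point -/
abbrev pt (x : X) : Ch X := cst 1 x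

theorem sx_zero (σ : C(Dl 0, X)) : sx σ = ems X := by
  unfold ems
  congr 1
  ext1 t
  exact isEmptyElim t

theorem sx_one (σ : C(Dl 1, X)) : sx σ = pt (σ default) := by
  unfold pt cst
  congr 1
  ext1 t
  rw [Subsingleton.elim t default]
  rfl

/-- the boundary of a simplex -/
def bdS : Smp X → Ch X
  | ⟨0, _⟩ => 0
  | ⟨k + 1, σ⟩ => ∑ i : Fin (k + 1), (-1 : ℤ) ^ (i : ℕ) • sx (σ.comp (face i))

/-- the boundary -/
def bd : Ch X →ₗ[ℤ] Ch X := Finsupp.linearCombination ℤ bdS

theorem bd_sx {k : ℕ} (σ : C(Dl (k + 1), X)) :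
    bd (sx σ) = ∑ i : Fin (k + 1), (-1 : ℤ) ^ (i : ℕ) • sx (σ.comp (face i)) := by
  simp [bd, sx, bdS]

theorem bd_ems : bd (ems X) = 0 := by
  simp [bd, ems, sx, bdS]

theorem bd_pt (x : X) : bd (pt x) = ems X := by
  unfold pt cst
  rw [bd_sx, Fin.sum_univ_one, sx_zero]
  simp

theorem bd_sx_two (σ : C(Dl 2, X)) :
    bd (sx σ) = pt (σ (stdSimplex.vertex 1)) - pt (σ (stdSimplex.vertex 0)) := by
  have h : ∀ i : Fin 2, face i (default : Dl 1) = stdSimplex.vertex (i.succAbove 0) := by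
    intro i
    rw [Subsingleton.elim (default : Dl 1) (stdSimplex.vertex 0)]
    exact stdSimplex.map_vertex _ _
  rw [bd_sx, Fin.sum_univ_two, sx_one, sx_one, ContinuousMap.comp_apply, ContinuousMap.comp_apply,
    h, h]
  simp [sub_eq_add_neg]

theorem bd_sx_three (σ : C(Dl 3, X)) :
    bd (sx σ) = sx (σ.comp (face 0)) - sx (σ.comp (face 1)) + sx (σ.comp (face 2)) := by
  rw [bd_sx, Fin.sum_univ_three]
  simp [sub_eq_add_neg]

theorem bd_sx_four (σ : C(Dl 4, X)) :
    bd (sx σ) = sx (σ.comp (face 0)) - sx (σ.comp (face 1)) + sx (σ.comp (face 2)) -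
      sx (σ.comp (face 3)) := by
  rw [bd_sx, Fin.sum_univ_four]
  have e : ((-1 : ℤ)) ^ ((3 : Fin 4) : ℕ) = -1 := by decide
  rw [e]
  simp [sub_eq_add_neg]

theorem ch_ext {M : Type*} [AddCommGroup M] {f g : Ch X →ₗ[ℤ] M}
    (h : ∀ k (σ : C(Dl k, X)), f (sx σ) = g (sx σ)) : f = g := by
  refine Finsupp.lhom_ext' fun s => LinearMap.ext_ring ?_
  exact h s.1 s.2

theorem bd_bd (c : Ch X) : bd (bd c) = 0 := by
  have h : (bd.comp bd : Ch X →ₗ[ℤ] Ch X) = 0 := by
    refine ch_ext fun k σ => ?_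
    rw [LinearMap.comp_apply, LinearMap.zero_apply]
    match k, σ with
    | 0, σ => rw [sx_zero, bd_ems, map_zero]
    | 1, σ => rw [sx_one, bd_pt, bd_ems]
    | k + 2, σ =>
      rw [bd_sx, map_sum]
      simp only [map_smul, bd_sx, Finset.smul_sum, smul_smul, ← pow_add]
      rw [← Fintype.sum_prod_type']
      refine Finset.sum_involution
        (fun p _ => (p.1.succAbove p.2, p.2.predAbove p.1)) ?_ ?_ (fun _ _ => Finset.mem_univ _) ?_
      · rintro ⟨i, j⟩ _
        have e : (σ.comp (face (i.succAbove j))).comp (face (j.predAbove i)) =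
            (σ.comp (face i)).comp (face j) := by
          rw [ContinuousMap.comp_assoc, ContinuousMap.comp_assoc, face, face, face, face,
            dmap_comp, dmap_comp]
          congr 2
          funext l
          exact Fin.succAbove_succAbove_succAbove_predAbove i j l
        simp only
        rw [e, Fin.neg_one_pow_succAbove_add_predAbove, neg_smul, add_neg_cancel]
      · rintro ⟨i, j⟩ _ _ h
        exact Fin.succAbove_ne i j (congrArg Prod.fst h)
      · rintro ⟨i, j⟩ _
        exact Prod.ext (Fin.succAbove_succAbove_predAbove i j)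
          (Fin.predAbove_predAbove_succAbove i j)
  exact LinearMap.congr_fun h c

/-- the linear map with prescribed values on simplices -/
def lext {M : Type*} [AddCommGroup M] (f : ∀ k, C(Dl k, X) → M) : Ch X →ₗ[ℤ] M :=
  Finsupp.linearCombination ℤ fun s : Smp X => f s.1 s.2

@[simp] theorem lext_sx {M : Type*} [AddCommGroup M] (f : ∀ k, C(Dl k, X) → M) {k : ℕ}
    (σ : C(Dl k, X)) : lext f (sx σ) = f k σ := by
  simp [lext, sx]

/-- the induced map -/
def mp (f : C(X, Y)) : Ch X →ₗ[ℤ] Ch Y := lext fun _ σ => sx (f.comp σ)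

@[simp] theorem mp_sx (f : C(X, Y)) {k : ℕ} (σ : C(Dl k, X)) : mp f (sx σ) = sx (f.comp σ) :=
  lext_sx _ σ

theorem mp_ems (f : C(X, Y)) : mp f (ems X) = ems Y := by
  unfold ems
  rw [mp_sx, sx_zero]
  rfl

theorem mp_cst (f : C(X, Y)) (k : ℕ) (x : X) : mp f (cst k x) = cst k (f x) := by
  unfold cst
  rw [mp_sx]
  rfl

theorem bd_mp (f : C(X, Y)) (c : Ch X) : bd (mp f c) = mp f (bd c) := by
  have h : (bd.comp (mp f) : Ch X →ₗ[ℤ] Ch Y) = (mp f).comp bd := by
    refine ch_ext fun k σ => ?_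
    rw [LinearMap.comp_apply, LinearMap.comp_apply, mp_sx]
    match k, σ with
    | 0, σ => rw [sx_zero, sx_zero, bd_ems, bd_ems, map_zero]
    | k + 1, σ =>
      rw [bd_sx, bd_sx, map_sum]
      refine Finset.sum_congr rfl fun i _ => ?_
      rw [map_smul, mp_sx, ContinuousMap.comp_assoc]
  exact LinearMap.congr_fun h c

theorem mp_mp (g : C(Y, Z)) (f : C(X, Y)) (c : Ch X) : mp g (mp f c) = mp (g.comp f) c := by
  have h : (mp g).comp (mp f) = mp (g.comp f) := by
    refine ch_ext fun k σ => ?_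
    rw [LinearMap.comp_apply, mp_sx, mp_sx, mp_sx, ContinuousMap.comp_assoc]
  exact LinearMap.congr_fun h c

theorem mp_id (c : Ch X) : mp (ContinuousMap.id X) c = c := by
  have h : mp (ContinuousMap.id X) = LinearMap.id := by
    refine ch_ext fun k σ => ?_
    rw [mp_sx, ContinuousMap.id_comp, LinearMap.id_apply]
  exact LinearMap.congr_fun h c

theorem mp_injective {f : C(X, Y)} (hf : Function.Injective f) : Function.Injective (mp f) := by
  let F : Smp X → Smp Y := fun s => ⟨s.1, f.comp s.2⟩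
  have hF : Function.Injective F := by
    rintro ⟨k, σ⟩ ⟨m, τ⟩ h
    obtain rfl : k = m := congrArg Sigma.fst h
    have h2 : f.comp σ = f.comp τ := eq_of_heq (Sigma.mk.inj h).2
    congr 1
    ext1 t
    exact hf (ContinuousMap.congr_fun h2 t)
  have h : mp f = Finsupp.lmapDomain ℤ ℤ F := by
    refine ch_ext fun k σ => ?_
    rw [mp_sx, Finsupp.lmapDomain_apply, sx, sx, Finsupp.mapDomain_single]
  rw [h]
  exact Finsupp.mapDomain_injective hF

/-- chains supported in `A` -/
def Sup (A : Set X) : Submodule ℤ (Ch X) := Finsupp.supported ℤ ℤ {s : Smp X | ∀ t, s.2 t ∈ A}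

/-- chains of simplices with `k` vertices -/
def Deg (k : ℕ) : Submodule ℤ (Ch X) := Finsupp.supported ℤ ℤ {s : Smp X | s.1 = k}

theorem chb_sx_mem {S : Set (Smp X)} {k : ℕ} {σ : C(Dl k, X)} :
    sx σ ∈ Finsupp.supported ℤ ℤ S ↔ (⟨k, σ⟩ : Smp X) ∈ S := by
  rw [Finsupp.mem_supported, sx, Finsupp.support_single _ one_ne_zero, Finset.coe_singleton,
    singleton_subset_iff]
  exact Iff.rfl

theorem chb_le {S : Set (Smp X)} {N : Submodule ℤ (Ch X)}
    (h : ∀ k (σ : C(Dl k, X)), (⟨k, σ⟩ : Smp X) ∈ S → sx σ ∈ N) : Finsupp.supported ℤ ℤ S ≤ N := by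
  rw [Finsupp.supported_eq_span_single, Submodule.span_le]
  rintro _ ⟨⟨k, σ⟩, hs, rfl⟩
  exact h k σ hs

theorem sx_mem_Sup {A : Set X} {k : ℕ} {σ : C(Dl k, X)} : sx σ ∈ Sup A ↔ ∀ t, σ t ∈ A := by
  exact chb_sx_mem

theorem sx_mem_Deg {k : ℕ} (σ : C(Dl k, X)) : sx σ ∈ Deg k := by
  exact chb_sx_mem.2 rfl

theorem ems_mem_Sup (A : Set X) : ems X ∈ Sup A := by
  exact sx_mem_Sup.2 fun t => isEmptyElim t

theorem cst_mem_Sup {A : Set X} (k : ℕ) {x : X} (h : x ∈ A) : cst k x ∈ Sup A := by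
  exact sx_mem_Sup.2 fun _ => h

theorem Sup_le {A : Set X} {N : Submodule ℤ (Ch X)}
    (h : ∀ k (σ : C(Dl k, X)), (∀ t, σ t ∈ A) → sx σ ∈ N) : Sup A ≤ N := by
  exact chb_le h

theorem Deg_le {k : ℕ} {N : Submodule ℤ (Ch X)} (h : ∀ σ : C(Dl k, X), sx σ ∈ N) : Deg k ≤ N := by
  refine chb_le fun m σ hm => ?_
  obtain rfl : m = k := hm
  exact h σ

theorem Sup_inf_Deg_le {A : Set X} {k : ℕ} {N : Submodule ℤ (Ch X)}
    (h : ∀ σ : C(Dl k, X), (∀ t, σ t ∈ A) → sx σ ∈ N) : Sup A ⊓ Deg k ≤ N := by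
  rw [Sup, Deg, ← Finsupp.supported_inter]
  refine chb_le fun m σ hm => ?_
  obtain rfl : m = k := hm.2
  exact h σ hm.1

theorem Sup_mono {A B : Set X} (h : A ⊆ B) : Sup A ≤ Sup B := by
  exact Finsupp.supported_mono fun s hs t => h (hs t)

@[simp] theorem Sup_univ : Sup (univ : Set X) = ⊤ := by
  rw [← Finsupp.supported_univ, Sup]
  congr 1
  exact eq_univ_of_forall fun _ _ => mem_univ _

theorem Sup_inter (A B : Set X) : Sup (A ∩ B) = Sup A ⊓ Sup B := by
  rw [Sup, Sup, Sup, ← Finsupp.supported_inter]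
  congr 1
  exact Set.ext fun s => forall_and

theorem Sup_inf_iSup {ι : Type} (A : Set X) (O : ι → Set X) :
    Sup A ⊓ ⨆ i, Sup (O i) = ⨆ i, Sup (A ∩ O i) := by
  simp only [Sup]
  rw [← Finsupp.supported_iUnion, ← Finsupp.supported_iUnion, ← Finsupp.supported_inter, inter_iUnion]
  congr 1
  exact iUnion_congr fun i => Set.ext fun s => forall_and.symm

theorem mem_Sup_empty {c : Ch X} : c ∈ Sup (∅ : Set X) ↔ ∃ n : ℤ, c = n • ems X := by
  constructor
  · intro h
    have h1 : Sup (∅ : Set X) ≤ Submodule.span ℤ {ems X} := Sup_le fun k σ hσ => by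
      cases k with
      | zero => rw [sx_zero]; exact Submodule.mem_span_singleton_self _
      | succ k => exact (hσ (stdSimplex.vertex 0)).elim
    obtain ⟨n, hn⟩ := Submodule.mem_span_singleton.1 (h1 h)
    exact ⟨n, hn.symm⟩
  · rintro ⟨n, rfl⟩
    exact Submodule.smul_mem _ _ (ems_mem_Sup _)

theorem bd_eq_zero_of_mem_Sup_empty {c : Ch X} (h : c ∈ Sup (∅ : Set X)) : bd c = 0 := by
  obtain ⟨n, rfl⟩ := mem_Sup_empty.1 h
  rw [map_smul, bd_ems, smul_zero]

theorem smul_ems_eq_zero {n : ℤ} (h : n • ems X = 0) : n = 0 := by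
  simpa [ems, sx] using h

theorem bd_mem_Sup {A : Set X} {c : Ch X} (h : c ∈ Sup A) : bd c ∈ Sup A := by
  refine (Sup_le (N := (Sup A).comap bd) fun k σ hσ => ?_) h
  cases k with
  | zero => rw [Submodule.mem_comap, sx_zero, bd_ems]; exact zero_mem _
  | succ k =>
    rw [Submodule.mem_comap, bd_sx]
    exact Submodule.sum_mem _ fun i _ => Submodule.smul_mem _ _ (sx_mem_Sup.2 fun t => hσ _)

theorem mp_mem_Sup {f : C(X, Y)} {A : Set X} {B : Set Y} (hf : MapsTo f A B) {c : Ch X}
    (h : c ∈ Sup A) : mp f c ∈ Sup B := by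
  refine (Sup_le (N := (Sup B).comap (mp f)) fun k σ hσ => ?_) h
  rw [Submodule.mem_comap, mp_sx]
  exact sx_mem_Sup.2 fun t => hf (hσ t)

theorem mp_congr {f g : C(X, Y)} {A : Set X} (hfg : EqOn f g A) {c : Ch X} (h : c ∈ Sup A) :
    mp f c = mp g c := by
  refine (Sup_le (N := LinearMap.eqLocus (mp f) (mp g)) fun k σ hσ => ?_) h
  rw [LinearMap.mem_eqLocus, mp_sx, mp_sx]
  congr 1
  exact ContinuousMap.ext fun t => hfg (hσ t)

/-- along an embedding, chains supported in the image come from the source -/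
theorem map_Sup_of_isEmbedding {f : C(X, Y)} (hf : Topology.IsEmbedding f) (A : Set X) :
    (Sup A).map (mp f) = Sup (f '' A) := by
  refine le_antisymm ?_ (Sup_le fun k σ hσ => ?_)
  · rintro _ ⟨c, hc, rfl⟩
    exact mp_mem_Sup (mapsTo_image f A) hc
  · choose τ hτ hτ' using hσ
    have hc : Continuous τ := hf.continuous_iff.2 (by
      have : f ∘ τ = σ := funext hτ'
      rw [this]; exact σ.continuous)
    refine ⟨sx ⟨τ, hc⟩, sx_mem_Sup.2 hτ, ?_⟩
    rw [mp_sx]
    congr 1
    exact ContinuousMap.ext hτ'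

/-- the inclusion of a subspace -/
def incl (U : Set X) : C(U, X) := ⟨Subtype.val, continuous_subtype_val⟩

theorem map_Sup_incl (U A : Set X) (h : A ⊆ U) :
    (Sup ((Subtype.val : U → X) ⁻¹' A)).map (mp (incl U)) = Sup A := by
  rw [map_Sup_of_isEmbedding (f := incl U) Topology.IsEmbedding.subtypeVal]
  congr 1
  exact image_preimage_eq_of_subset fun x hx => ⟨⟨x, h hx⟩, rfl⟩

theorem mp_mem_Deg (f : C(X, Y)) {k : ℕ} {c : Ch X} (h : c ∈ Deg k) : mp f c ∈ Deg k := by
  refine (Deg_le (N := (Deg k).comap (mp f)) fun σ => ?_) h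
  rw [Submodule.mem_comap, mp_sx]
  exact sx_mem_Deg _

theorem bd_mem_Deg {k : ℕ} {c : Ch X} (h : c ∈ Deg (k + 1)) : bd c ∈ Deg k := by
  refine (Deg_le (N := (Deg k).comap bd) fun σ => ?_) h
  rw [Submodule.mem_comap, bd_sx]
  exact Submodule.sum_mem _ fun i _ => Submodule.smul_mem _ _ (sx_mem_Deg _)

theorem eq_zero_of_mem_Sup_empty {k : ℕ} {c : Ch X} (h : c ∈ Sup (∅ : Set X)) (h' : c ∈ Deg (k + 1)) :
    c = 0 := by
  exact Sup_inf_Deg_le (N := ⊥) (fun σ hσ => (hσ (stdSimplex.vertex 0)).elim) ⟨h, h'⟩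

/-- the homogeneous part with `k` vertices -/
def pr (k : ℕ) : Ch X →ₗ[ℤ] Ch X := lext fun m σ => if m = k then sx σ else 0

theorem pr_sx (k : ℕ) {m : ℕ} (σ : C(Dl m, X)) : pr k (sx σ) = if m = k then sx σ else 0 :=
  lext_sx _ σ

theorem pr_mem_Deg (k : ℕ) (c : Ch X) : pr k c ∈ Deg k := by
  have : (⊤ : Submodule ℤ (Ch X)) ≤ (Deg k).comap (pr k) := by
    rw [← Sup_univ]
    refine Sup_le fun m σ _ => ?_
    rw [Submodule.mem_comap, pr_sx]
    split_ifs with h
    · subst h; exact sx_mem_Deg σ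
    · exact zero_mem _
  exact this Submodule.mem_top

theorem pr_of_mem_Deg {k : ℕ} {c : Ch X} (h : c ∈ Deg k) : pr k c = c := by
  have : Deg k ≤ LinearMap.ker (pr k - (LinearMap.id : Ch X →ₗ[ℤ] Ch X)) := by
    refine Deg_le fun σ => ?_
    rw [LinearMap.mem_ker, LinearMap.sub_apply, pr_sx, if_pos rfl, LinearMap.id_apply, sub_self]
  have h2 := this h
  rwa [LinearMap.mem_ker, LinearMap.sub_apply, LinearMap.id_apply, sub_eq_zero] at h2

theorem pr_of_mem_Deg_ne {k m : ℕ} {c : Ch X} (h : c ∈ Deg m) (hk : m ≠ k) : pr k c = 0 := by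
  have : Deg m ≤ LinearMap.ker (pr (X := X) k) := by
    refine Deg_le fun σ => ?_
    rw [LinearMap.mem_ker, pr_sx, if_neg hk]
  exact this h

theorem pr_bd (k : ℕ) (c : Ch X) : pr k (bd c) = bd (pr (k + 1) c) := by
  have : pr k ∘ₗ bd = (bd : Ch X →ₗ[ℤ] Ch X) ∘ₗ pr (k + 1) := by
    refine ch_ext fun m σ => ?_
    rw [LinearMap.comp_apply, LinearMap.comp_apply, pr_sx]
    cases m with
    | zero => rw [sx_zero, bd_ems, if_neg (by omega), map_zero, map_zero]
    | succ m =>
      have h1 : bd (sx σ) ∈ Deg m := bd_mem_Deg (sx_mem_Deg σ)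
      by_cases h : m = k
      · subst h; rw [if_pos rfl, pr_of_mem_Deg h1]
      · rw [if_neg (by omega), pr_of_mem_Deg_ne h1 h, map_zero]
  exact LinearMap.congr_fun this c

theorem pr_mem_Sup {A : Set X} (k : ℕ) {c : Ch X} (h : c ∈ Sup A) : pr k c ∈ Sup A := by
  have : Sup A ≤ (Sup A).comap (pr k) := by
    refine Sup_le fun m σ hσ => ?_
    rw [Submodule.mem_comap, pr_sx]
    split_ifs
    · exact sx_mem_Sup.2 hσ
    · exact zero_mem _
  exact this h

theorem pr_mp (f : C(X, Y)) (k : ℕ) (c : Ch X) : pr k (mp f c) = mp f (pr k c) := by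
  have : pr k ∘ₗ mp f = mp f ∘ₗ pr k := by
    refine ch_ext fun m σ => ?_
    rw [LinearMap.comp_apply, LinearMap.comp_apply, mp_sx, pr_sx, pr_sx]
    split_ifs
    · rw [mp_sx]
    · rw [map_zero]
  exact LinearMap.congr_fun this c

/-- a chain has compact support -/
theorem exists_isCompact {A : Set X} {c : Ch X} (h : c ∈ Sup A) :
    ∃ K, IsCompact K ∧ K ⊆ A ∧ c ∈ Sup K := by
  refine ⟨⋃ s ∈ (c.support : Set (Smp X)), range s.2, ?_, ?_, ?_⟩
  · exact c.support.finite_toSet.isCompact_biUnion fun s _ => isCompact_range s.2.continuous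
  · intro y hy
    simp only [mem_iUnion] at hy
    obtain ⟨s, hs, t, rfl⟩ := hy
    exact h hs t
  · intro s hs t
    exact mem_biUnion hs (mem_range_self t)

theorem bd_cst_succ (k : ℕ) (x : X) :
    bd (cst (k + 1) x) = if Even k then cst k x else 0 := by
  have h : ∀ i : Fin (k + 1), sx ((ContinuousMap.const (Dl (k + 1)) x).comp (face i)) = cst k x :=
    fun i => rfl
  rw [cst, bd_sx]
  simp only [h]
  rw [← Finset.sum_smul, Fin.sum_univ_eq_sum_range (fun i => (-1 : ℤ) ^ i) (k + 1),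
    neg_one_geom_sum]
  by_cases hk : Even k
  · have : ¬ Even (k + 1) := by rw [Nat.even_add_one]; exact not_not.2 hk
    rw [if_neg this, if_pos hk, one_smul]
  · have : Even (k + 1) := by rw [Nat.even_add_one]; exact hk
    rw [if_pos this, if_neg hk, zero_smul]

/-- cycles supported in a point are boundaries: with `K (sx σ) = cst (k + 1) x` for `σ` with `k` vertices,
`bd (K c) + K (bd c) = c` on `Sup {x}` -/
theorem exists_bd_of_mem_Sup_singleton {x : X} {c : Ch X} (h : c ∈ Sup ({x} : Set X)) (hc : bd c = 0) :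
    ∃ b ∈ Sup ({x} : Set X), bd b = c := by
  set K : Ch X →ₗ[ℤ] Ch X := lext fun k _ => cst (k + 1) x with hK
  have hKs : ∀ k (σ : C(Dl k, X)), K (sx σ) = cst (k + 1) x := fun k σ => lext_sx _ σ
  have h1 : Sup ({x} : Set X) ≤
      LinearMap.ker (bd ∘ₗ K + K ∘ₗ bd - (LinearMap.id : Ch X →ₗ[ℤ] Ch X)) := by
    refine Sup_le fun k σ hσ => ?_
    have hσ' : σ = ContinuousMap.const (Dl k) x := by
      ext t; exact hσ t
    have e : sx σ = cst k x := by rw [hσ']; rfl
    rw [LinearMap.mem_ker, LinearMap.sub_apply, LinearMap.add_apply, LinearMap.comp_apply,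
      LinearMap.comp_apply, LinearMap.id_apply, hKs, bd_cst_succ]
    cases k with
    | zero => rw [sx_zero σ, bd_ems, map_zero, if_pos Even.zero, cst, sx_zero]; simp
    | succ k =>
      rw [e, bd_cst_succ]
      by_cases hk : Even k
      · have : ¬ Even (k + 1) := by rw [Nat.even_add_one]; exact not_not.2 hk
        rw [if_neg this, if_pos hk, cst, hKs]; simp
      · have : Even (k + 1) := by rw [Nat.even_add_one]; exact hk
        rw [if_pos this, if_neg hk, map_zero]; simp
  have h2 : (⊤ : Submodule ℤ (Ch X)) ≤ (Sup ({x} : Set X)).comap K := by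
    rw [← Sup_univ]
    refine Sup_le fun k σ _ => ?_
    rw [Submodule.mem_comap, hKs]
    exact cst_mem_Sup _ rfl
  refine ⟨K c, h2 Submodule.mem_top, ?_⟩
  have h3 := h1 h
  rw [LinearMap.mem_ker, LinearMap.sub_apply, LinearMap.add_apply, LinearMap.comp_apply,
    LinearMap.comp_apply, LinearMap.id_apply, hc, map_zero, add_zero, sub_eq_zero] at h3
  exact h3

end

end Crest.Agent.R251.Top
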