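import Crest.Agent.R251.Top.Att
import Crest.Agent.R251.Top.Act
import Crest.Agent.Lib.CWComb.Cover
import Crest.Prelude.Def_DeckCochains

/-!
# Row 251, topology: the covering space defined by a path function
-/

set_option autoImplicit false

open Set Topology

local notation "I" => unitInterval

namespace Crest.Agent.R251.Top

open Crest.Agent.Lib.CWComb Crest.GeometryTopology.DeckCochains

noncomputable section

variable {G : Type} [Group G] {B B' B'' : Type} [TopologicalSpace B] [TopologicalSpace B'] [TopologicalSpace B'']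

/-- the total space: a point of the base and a label -/
@[ext] structure Cov (ν : PathFun B G) where
  pj : B
  lb : G

variable {ν : PathFun B G} {ν' : PathFun B' G} {ν'' : PathFun B'' G}

instance : TopologicalSpace (Cov ν) where
  IsOpen O := ∀ e ∈ O, ∃ U ∈ 𝓝 e.pj, ∀ (y : B) (q : Path e.pj y), (∀ u, q u ∈ U) → (⟨y, e.lb * ν.val q⟩ : Cov ν) ∈ O
  isOpen_univ _ _ := ⟨univ, Filter.univ_mem, fun _ _ _ => trivial⟩
  isOpen_inter O O' h h' e he := by
    obtain ⟨U, hU, h⟩ := h e he.1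
    obtain ⟨U', hU', h'⟩ := h' e he.2
    exact ⟨U ∩ U', Filter.inter_mem hU hU', fun y q hq => ⟨h y q fun u => (hq u).1, h' y q fun u => (hq u).2⟩⟩
  isOpen_sUnion S h e := by
    rintro ⟨O, hO, he⟩
    obtain ⟨U, hU, h⟩ := h O hO e he
    exact ⟨U, hU, fun y q hq => ⟨O, hO, h y q hq⟩⟩

theorem Cov.isOpen_iff {O : Set (Cov ν)} : IsOpen O ↔ ∀ e ∈ O, ∃ U ∈ 𝓝 e.pj, ∀ (y : B) (q : Path e.pj y),
    (∀ u, q u ∈ U) → (⟨y, e.lb * ν.val q⟩ : Cov ν) ∈ O := Iff.rfl

instance : MulAction G (Cov ν) where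
  smul g e := ⟨e.pj, g * e.lb⟩
  one_smul e := Cov.ext rfl (one_mul _)
  mul_smul g h e := Cov.ext rfl (mul_assoc _ _ _)

@[simp] theorem Cov.smul_pj (g : G) (e : Cov ν) : (g • e).pj = e.pj := rfl
@[simp] theorem Cov.smul_lb (g : G) (e : Cov ν) : (g • e).lb = g * e.lb := rfl

theorem Cov.free (g : G) (e : Cov ν) (h : g • e = e) : g = 1 :=
  mul_eq_right.1 (congrArg Cov.lb h)

theorem Cov.continuous_pj : Continuous (Cov.pj : Cov ν → B) := by
  refine continuous_def.2 fun U hU => Cov.isOpen_iff.2 fun e he => ⟨U, hU.mem_nhds he, fun y q hq => ?_⟩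
  have := hq 1
  rwa [q.target] at this

theorem Cov.continuous_smul (g : G) : Continuous fun e : Cov ν => g • e := by
  refine continuous_def.2 fun O hO => Cov.isOpen_iff.2 fun e he => ?_
  obtain ⟨U, hU, h⟩ := Cov.isOpen_iff.1 hO _ he
  refine ⟨U, hU, fun y q hq => ?_⟩
  have := h y q hq
  rw [Cov.smul_lb, mul_assoc] at this
  exact this

instance : ContinuousConstSMul G (Cov ν) := ⟨Cov.continuous_smul⟩

/-- local triviality of a path function -/
def LocTriv (ν : PathFun B G) : Prop :=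
  ∀ b : B, ∃ U ∈ 𝓝 b, ∀ (x y : B) (q q' : Path x y), (∀ u, q u ∈ U) → (∀ u, q' u ∈ U) → ν.val q = ν.val q'

theorem LocTriv.comap (h : LocTriv ν') (f : C(B, B')) : LocTriv (ν'.comap f) := by
  intro b
  obtain ⟨U, hU, h⟩ := h (f b)
  exact ⟨f ⁻¹' U, f.continuous.continuousAt.preimage_mem_nhds hU, fun x y q q' hq hq' => h _ _ _ _ hq hq'⟩

theorem LocTriv.map {G' : Type} [Group G'] (h : LocTriv ν) (φ : G →* G') : LocTriv (ν.map φ) := by
  intro b
  obtain ⟨U, hU, h⟩ := h b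
  exact ⟨U, hU, fun x y q q' hq hq' => congrArg φ (h _ _ _ _ hq hq')⟩

theorem locTriv_of_cover {ι : Type} (O : ι → Set B) (hO : ∀ i, IsOpen (O i)) (hc : ∀ x, ∃ i, x ∈ O i) (t : ι → B → G)
    (h : ∀ i {x y : B} (p : Path x y), (∀ s, p s ∈ O i) → ν.val p = t i x * (t i y)⁻¹) : LocTriv ν := by
  intro b
  obtain ⟨i, hi⟩ := hc b
  exact ⟨O i, (hO i).mem_nhds hi, fun x y q q' hq hq' => (h i q hq).trans (h i q' hq').symm⟩

theorem cova_path {U : Set B} {b y : B} (hy : y ∈ pathComponentIn U b) :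
    ∃ q : Path b y, ∀ u, q u ∈ pathComponentIn U b := by
  have hb : b ∈ U := (hy : JoinedIn U b y).source_mem
  exact (isPathConnected_pathComponentIn hb).joinedIn b (mem_pathComponentIn_self hb) y hy

/-- local potentials -/
theorem LocTriv.exists_pot [LocallyPathConnectedSpace B] (h : LocTriv ν) (b : B) : ∃ U : Set B, IsOpen U ∧ b ∈ U ∧
    ∃ τ : B → G, ∀ (x y : B) (q : Path x y), (∀ u, q u ∈ U) → ν.val q = (τ x)⁻¹ * τ y := by
  classical
  obtain ⟨U₀, hU₀, h⟩ := h b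
  obtain ⟨U₁, h₁, h₂, h₃⟩ := mem_nhds_iff.1 hU₀
  have hp : ∀ y, y ∈ pathComponentIn U₁ b → ∃ q : Path b y, ∀ u, q u ∈ pathComponentIn U₁ b :=
    fun y hy => cova_path hy
  choose p hp using hp
  refine ⟨pathComponentIn U₁ b, h₂.pathComponentIn b, mem_pathComponentIn_self h₃,
    fun y => if hy : y ∈ pathComponentIn U₁ b then ν.val (p y hy) else 1, fun x y q hq => ?_⟩
  have hx : x ∈ pathComponentIn U₁ b := q.source ▸ hq 0
  have hy : y ∈ pathComponentIn U₁ b := q.target ▸ hq 1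
  have hs : pathComponentIn U₁ b ⊆ U₀ := pathComponentIn_subset.trans h₁
  simp only [dif_pos hx, dif_pos hy]
  rw [eq_inv_mul_iff_mul_eq, ← ν.val_trans]
  refine h _ _ _ _ (fun u => hs ?_) fun u => hs (hp y hy u)
  have : ((p x hx).trans q) u ∈ range ((p x hx).trans q) := mem_range_self u
  rw [Path.trans_range] at this
  rcases this with ⟨v, hv⟩ | ⟨v, hv⟩
  · exact hv ▸ hp x hx v
  · exact hv ▸ hq v

theorem cova_sheet {U : Set B} (hU : IsOpen U) {τ : B → G}
    (hτ : ∀ (x y : B) (q : Path x y), (∀ u, q u ∈ U) → ν.val q = (τ x)⁻¹ * τ y) (g : G) :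
    IsOpen {e : Cov ν | e.pj ∈ U ∧ e.lb * (τ e.pj)⁻¹ = g} := by
  refine Cov.isOpen_iff.2 fun e he => ⟨U, hU.mem_nhds he.1, fun y q hq => ⟨(q.target ▸ hq 1 : y ∈ U), ?_⟩⟩
  change e.lb * ν.val q * (τ y)⁻¹ = g
  rw [hτ _ _ q hq, ← he.2]
  group

/-- over a path connected open `U ∋ b` inside a trivialising set the sheets are
`{⟨y, g * ν.val q⟩ | q a path from b to y in U}` (`IsOpen.trivializationDiscrete`, `IsEvenlyCovered.of_trivialization`, …) -/
theorem Cov.isCoveringMap [LocallyPathConnectedSpace B] (h : LocTriv ν) : IsCoveringMap (Cov.pj : Cov ν → B) := by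
  letI : TopologicalSpace G := ⊥
  haveI : DiscreteTopology G := ⟨rfl⟩
  haveI : Nonempty (B → Cov ν) := ⟨fun b => ⟨b, 1⟩⟩
  choose U hU hb τ hτ using h.exists_pot
  refine IsCoveringMap.mk _ (fun _ => G) (fun b => IsOpen.trivializationDiscrete
    (fun g : G => {e : Cov ν | e.pj ∈ U b ∧ e.lb * (τ b e.pj)⁻¹ = g}) (U b) (hU b) (fun g W hW => ⟨fun hW' => ?_, fun hW' => ?_⟩)
    (fun g e he e' he' hp => Cov.ext hp ?_) (fun g y hy => ⟨⟨y, g * τ b y⟩, ⟨hy, by simp⟩, rfl⟩)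
    (fun g g' hg => disjoint_left.2 fun e he he' => hg (he.2.symm.trans he'.2))
    fun e he => mem_iUnion.2 ⟨_, he, rfl⟩) hb
  · exact (hW'.preimage Cov.continuous_pj).inter (cova_sheet (hU b) (hτ b) g)
  · refine isOpen_iff_mem_nhds.2 fun y hy => ?_
    obtain ⟨U', hU', h'⟩ := Cov.isOpen_iff.1 hW' ⟨y, g * τ b y⟩ ⟨hy, hW hy, by simp⟩
    refine Filter.mem_of_superset (pathComponentIn_mem_nhds hU') fun y' hy' => ?_
    obtain ⟨q, hq⟩ := cova_path hy'
    exact (h' y' q fun u => pathComponentIn_subset (hq u)).1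
  · have := he.2.trans he'.2.symm
    rw [hp] at this
    exact mul_right_cancel this

/-- the canonical lift of a path -/
theorem Cov.continuous_lift {x y : B} (q : Path x y) (g : G) :
    Continuous fun u : I => (⟨q u, g * ν.val (q.subpath 0 u)⟩ : Cov ν) := by
  refine continuous_def.2 fun O hO => isOpen_iff_mem_nhds.2 fun u₀ hu => ?_
  obtain ⟨U, hU, h⟩ := Cov.isOpen_iff.1 hO _ hu
  obtain ⟨ε, hε, hb⟩ := Metric.mem_nhds_iff.1 (q.continuous.continuousAt.preimage_mem_nhds hU)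
  refine Filter.mem_of_superset (Metric.ball_mem_nhds u₀ hε) fun u hu' => ?_
  have := h (q u) (q.subpath u₀ u) fun v => by
    have : q.subpath u₀ u v ∈ range (q.subpath u₀ u) := mem_range_self v
    rw [Path.range_subpath] at this
    obtain ⟨w, hw, e⟩ := this
    rw [← e]
    refine hb ?_
    have h1 : (w : ℝ) ∈ uIcc (u₀ : ℝ) u := hw
    exact (convex_ball (u₀ : ℝ) ε).ordConnected.uIcc_subset (Metric.mem_ball_self hε) hu' h1
  change (⟨q u, g * ν.val (q.subpath 0 u)⟩ : Cov ν) ∈ O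
  rw [← ν.val_hom ⟨Path.Homotopy.subpathTransSubpath q 0 u₀ u⟩, ν.val_trans, ← mul_assoc]
  exact this

theorem Cov.val_lift [LocallyPathConnectedSpace B] (h : LocTriv ν) {e e' : Cov ν} (q' : Path e e') {x y : B}
    (q : Path x y) (hq : ∀ u, (q' u).pj = q u) : ν.val q = e.lb⁻¹ * e'.lb := by
  have h1 := (Cov.isCoveringMap h).eq_of_comp_eq q'.continuous (Cov.continuous_lift q e.lb) (funext hq) 0 (by
    refine Cov.ext (hq 0) ?_
    change (q' 0).lb = e.lb * ν.val (q.subpath 0 0)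
    rw [q'.source, Path.subpath_self, ν.val_refl, mul_one])
  have h2 : (q' 1).lb = e.lb * ν.val (q.subpath 0 1) := congrArg Cov.lb (congrFun h1 1)
  rw [q'.target, ν.congr (q.subpath 0 1) q fun u => by rw [Path.subpath_zero_one]; rfl] at h2
  rw [h2, inv_mul_cancel_left]

/-- the labelling in the sense of `CWComb` -/
def Cov.lab [LocallyPathConnectedSpace B] (h : LocTriv ν) : Lab (Cov.pj : Cov ν → B) G where
  ν := ν
  ℓ := Cov.lb
  val_lift q' _ _ q hq := Cov.val_lift h q' q hq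
  inj _ _ h₁ h₂ := Cov.ext h₁ h₂
  surj x g := ⟨⟨x, g⟩, rfl, rfl⟩

/-- two continuous lifts of the same map differ by a locally constant group element -/
theorem Cov.eventually_lb [LocallyPathConnectedSpace B] (h : LocTriv ν) {Z : Type} [TopologicalSpace Z]
    {a a' : Z → Cov ν} {z₀ : Z} (ha : ContinuousAt a z₀) (ha' : ContinuousAt a' z₀)
    (hp : ∀ᶠ z in 𝓝 z₀, (a z).pj = (a' z).pj) :
    ∀ᶠ z in 𝓝 z₀, (a z).lb * (a' z).lb⁻¹ = (a z₀).lb * (a' z₀).lb⁻¹ := by
  obtain ⟨U, hU, hb, τ, hτ⟩ := h.exists_pot (a z₀).pj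
  have h0 := hp.self_of_nhds
  have h1 := ha.eventually ((cova_sheet hU hτ _).mem_nhds ⟨hb, rfl⟩)
  have h2 := ha'.eventually ((cova_sheet hU hτ _).mem_nhds ⟨h0 ▸ hb, rfl⟩)
  filter_upwards [hp, h1, h2] with z e0 e1 e2
  have e1 := e1.2
  have e2 := e2.2
  rw [← e0, ← h0] at e2
  rw [eq_mul_of_mul_inv_eq e1, eq_mul_of_mul_inv_eq e2]
  group

theorem Cov.exists_lift [LocallyPathConnectedSpace B] (h : LocTriv ν) {V : Type} [TopologicalSpace V]
    [SimplyConnectedSpace V] [LocallyPathConnectedSpace V] (Φ : C(V, B)) (v₀ : V) (g : G) :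
    ∃ Ψ : C(V, Cov ν), (∀ v, (Ψ v).pj = Φ v) ∧ (Ψ v₀).lb = g := by
  obtain ⟨Ψ, ⟨h1, h2⟩, -⟩ := (Cov.isCoveringMap h).existsUnique_continuousMap_lifts Φ v₀ ⟨Φ v₀, g⟩ rfl
  exact ⟨Ψ, congrFun h2, congrArg Cov.lb h1⟩

/-- all values are taken between any two points -/
def Full (ν : PathFun B G) : Prop := ∀ (x y : B) (g : G), ∃ q : Path x y, ν.val q = g

/-- paths with the same value are homotopic -/
def Faithful (ν : PathFun B G) : Prop := ∀ (x y : B) (q q' : Path x y), ν.val q = ν.val q' → q.Homotopic q'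

theorem Cov.simplyConnectedSpace [LocallyPathConnectedSpace B] [Nonempty B] (h : LocTriv ν) (h₁ : Full ν)
    (h₂ : Faithful ν) : SimplyConnectedSpace (Cov ν) := by
  refine simply_connected_iff_paths_homotopic'.2 ⟨⟨⟨⟨Classical.arbitrary B, 1⟩⟩, fun e e' => ?_⟩, fun {e e'} p₁ p₂ => ?_⟩
  · obtain ⟨q, hq⟩ := h₁ e.pj e'.pj (e.lb⁻¹ * e'.lb)
    refine ⟨⟨⟨_, Cov.continuous_lift q e.lb⟩, Cov.ext q.source ?_, Cov.ext q.target ?_⟩⟩
    · change e.lb * ν.val (q.subpath 0 0) = e.lb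
      rw [Path.subpath_self, ν.val_refl, mul_one]
    · change e.lb * ν.val (q.subpath 0 1) = e'.lb
      rw [ν.congr (q.subpath 0 1) q fun u => by rw [Path.subpath_zero_one]; rfl, hq, mul_inv_cancel_left]
  · have hh := h₂ _ _ (p₁.map Cov.continuous_pj) (p₂.map Cov.continuous_pj)
      ((Cov.val_lift h p₁ _ fun _ => rfl).trans (Cov.val_lift h p₂ _ fun _ => rfl).symm)
    obtain ⟨q, h1, h2⟩ := lift_homotopic (Cov.isCoveringMap h) hh p₁ fun _ => rfl
    have : q = p₂ := Path.ext (funext (lift_unique (Cov.isCoveringMap h) q p₂ h1))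
    exact this ▸ h2

/-- a deck transformation for every group element -/
def Cov.deck (ν : PathFun B G) : G →* deckGroup (Cov.pj : Cov ν → B) where
  toFun g := ⟨Homeomorph.smul g, fun _ => rfl⟩
  map_one' := Subtype.ext (Homeomorph.ext fun e => one_smul G e)
  map_mul' g h := Subtype.ext (Homeomorph.ext fun e => mul_smul g h e)

theorem Cov.deck_bijective [LocallyPathConnectedSpace B] (h : LocTriv ν) [ConnectedSpace (Cov ν)] :
    Function.Bijective (Cov.deck ν) := by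
  obtain ⟨e₀⟩ : Nonempty (Cov ν) := inferInstance
  refine ⟨(injective_iff_map_eq_one _).2 fun g hg => Cov.free g e₀ ?_, fun φ => ⟨(φ.1 e₀).lb * e₀.lb⁻¹, ?_⟩⟩
  · exact DFunLike.congr_fun (congrArg Subtype.val hg) e₀
  · refine Subtype.ext (Homeomorph.ext (congrFun ((Cov.isCoveringMap h).eq_of_comp_eq
      (Cov.continuous_smul _) φ.1.continuous (funext fun e => (φ.2 e).symm) e₀ ?_)))
    exact Cov.ext (φ.2 e₀).symm (inv_mul_cancel_right _ _)

theorem continuous_mapT (f : C(B, B')) (β : B → G)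
    (h : ∀ (x y : B) (q : Path x y), ν'.val (q.map f.continuous) = β x * ν.val q * (β y)⁻¹) :
    Continuous fun e : Cov ν => (⟨f e.pj, e.lb * (β e.pj)⁻¹⟩ : Cov ν') := by
  refine continuous_def.2 fun O hO => Cov.isOpen_iff.2 fun e he => ?_
  obtain ⟨U, hU, h'⟩ := Cov.isOpen_iff.1 hO _ he
  refine ⟨f ⁻¹' U, f.continuous.continuousAt.preimage_mem_nhds hU, fun y q hq => ?_⟩
  have := h' (f y) (q.map f.continuous) hq
  rw [h] at this
  change (⟨f y, e.lb * ν.val q * (β y)⁻¹⟩ : Cov ν') ∈ O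
  convert this using 2
  group

/-- the map of coverings given by a map of the bases and a gauge -/
def mapT (f : C(B, B')) (β : B → G)
    (h : ∀ (x y : B) (q : Path x y), ν'.val (q.map f.continuous) = β x * ν.val q * (β y)⁻¹) : C(Cov ν, Cov ν') :=
  ⟨_, continuous_mapT f β h⟩

/-- the map of coverings when `ν` is the pull-back of `ν'` -/
def cmap (f : C(B, B')) (h : ∀ (x y : B) (q : Path x y), ν'.val (q.map f.continuous) = ν.val q) :
    C(Cov ν, Cov ν') := mapT f (fun _ => 1) fun x y q => by simp [h]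

@[simp] theorem cmap_pj (f : C(B, B')) (h : ∀ (x y : B) (q : Path x y), ν'.val (q.map f.continuous) = ν.val q)
    (e : Cov ν) : (cmap f h e).pj = f e.pj := rfl

@[simp] theorem cmap_lb (f : C(B, B')) (h : ∀ (x y : B) (q : Path x y), ν'.val (q.map f.continuous) = ν.val q)
    (e : Cov ν) : (cmap f h e).lb = e.lb := by
  change e.lb * 1⁻¹ = _
  simp

theorem cmap_smul (f : C(B, B')) (h : ∀ (x y : B) (q : Path x y), ν'.val (q.map f.continuous) = ν.val q)
    (g : G) (e : Cov ν) : cmap f h (g • e) = g • cmap f h e := Cov.ext rfl (by simp)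

/-- For an open `O ∋ e` with neighbourhood `U₀`, choose a path connected open `U ∋ e.pj` inside `U₀` and the preimage of a
trivialising open set `T`, `U = f ⁻¹' U₁`; the sheet over `U₁ ∩ T` through the image of `e` pulls back into `O`. -/
theorem isEmbedding_cmap [LocallyPathConnectedSpace B] [LocallyPathConnectedSpace B'] (hν' : LocTriv ν')
    {f : C(B, B')} (hf : IsEmbedding f) (h : ∀ (x y : B) (q : Path x y), ν'.val (q.map f.continuous) = ν.val q) :
    IsEmbedding (cmap f h) := by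
  refine ⟨isInducing_iff_nhds.2 fun e => le_antisymm ((cmap f h).continuous.tendsto e).le_comap fun s hs => ?_,
    fun e e' he => Cov.ext (hf.injective (congrArg Cov.pj he)) ?_⟩
  · obtain ⟨O, hOs, hO, heO⟩ := mem_nhds_iff.1 hs
    obtain ⟨U₀, hU₀, hq⟩ := Cov.isOpen_iff.1 hO e heO
    obtain ⟨T, hT, hb, τ, hτ⟩ := hν'.exists_pot (f e.pj)
    have hU := pathComponentIn_mem_nhds
      (Filter.inter_mem hU₀ (f.continuous.continuousAt.preimage_mem_nhds (hT.mem_nhds hb)))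
    rw [hf.isInducing.nhds_eq_comap, Filter.mem_comap] at hU
    obtain ⟨U₁, hU₁, hsub⟩ := hU
    refine Filter.mem_comap.2 ⟨_, Filter.inter_mem (Cov.continuous_pj.continuousAt.preimage_mem_nhds hU₁)
      ((cova_sheet hT hτ _).mem_nhds ⟨hb, rfl⟩), fun e' he' => hOs ?_⟩
    obtain ⟨q, hq'⟩ := cova_path (hsub he'.1)
    have h1 := hq _ q fun u => (pathComponentIn_subset (hq' u)).1
    have h2 := he'.2.2
    simp only [cmap_lb, cmap_pj] at h2
    rw [← h, hτ _ _ _ fun u => (pathComponentIn_subset (hq' u)).2, ← mul_assoc, ← h2, inv_mul_cancel_right] at h1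
    exact h1
  · simpa using congrArg Cov.lb he

theorem image_cmap {f : C(B, B')} (h : ∀ (x y : B) (q : Path x y), ν'.val (q.map f.continuous) = ν.val q)
    (A : Set B) : cmap f h '' (Cov.pj ⁻¹' A) = Cov.pj ⁻¹' (f '' A) := by
  ext e
  constructor
  · rintro ⟨e', he', rfl⟩
    exact ⟨_, he', rfl⟩
  · rintro ⟨x, hx, he⟩
    exact ⟨⟨x, e.lb⟩, hx, Cov.ext he (by simp)⟩

/-- homotopies lift (`IsCoveringMap.liftHomotopy`, end points by `Cov.val_lift`) -/
theorem homotopic_mapT [LocallyPathConnectedSpace B'] (hν' : LocTriv ν') {f₀ f₁ : C(B, B')} (H : f₀.Homotopy f₁)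
    (β₀ β₁ : B → G) (hβ : ∀ x, β₀ x = ν'.val (H.evalAt x) * β₁ x)
    (h₀ : ∀ (x y : B) (q : Path x y), ν'.val (q.map f₀.continuous) = β₀ x * ν.val q * (β₀ y)⁻¹)
    (h₁ : ∀ (x y : B) (q : Path x y), ν'.val (q.map f₁.continuous) = β₁ x * ν.val q * (β₁ y)⁻¹) :
    (mapT f₀ β₀ h₀).Homotopic (mapT f₁ β₁ h₁) := by
  have cov := Cov.isCoveringMap hν'
  let H' : C(I × Cov ν, B') :=
    ⟨fun p => H (p.1, p.2.pj), H.continuous.comp (continuous_fst.prodMk (Cov.continuous_pj.comp continuous_snd))⟩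
  have H0 : ∀ a, H' (0, a) = (mapT f₀ β₀ h₀ a).pj := fun a => H.apply_zero a.pj
  have hl : ∀ t a, (cov.liftHomotopy H' (mapT f₀ β₀ h₀) H0 (t, a)).pj = H (t, a.pj) := fun t a =>
    congr_fun (cov.liftHomotopy_lifts H' (mapT f₀ β₀ h₀) H0) (t, a)
  have h0 := cov.liftHomotopy_zero H' (mapT f₀ β₀ h₀) H0
  generalize cov.liftHomotopy H' (mapT f₀ β₀ h₀) H0 = L at hl h0
  refine ⟨⟨L, h0, fun a => Cov.ext ((hl 1 a).trans (H.apply_one a.pj)) ?_⟩⟩
  have hv := Cov.val_lift hν' (e := L (0, a)) (e' := L (1, a))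
    ⟨⟨fun t => L (t, a), L.continuous.comp (continuous_id.prodMk continuous_const)⟩, rfl, rfl⟩
    (H.evalAt a.pj) fun u => hl u a
  rw [h0, eq_inv_mul_iff_mul_eq] at hv
  refine hv.symm.trans ?_
  change a.lb * (β₀ a.pj)⁻¹ * _ = a.lb * (β₁ a.pj)⁻¹
  rw [hβ]
  group

/-- A homotopy equivalence lifts.  With `K : f ∘ g ≃ id`, `β x = ν'.val (K.evalAt x)`, `g̃ = mapT g β` satisfies `f̃ ∘ g̃ ≃ id`,
and `g̃ ∘ f̃ ≃ mapT id β'`, a homeomorphism `t` with inverse `mapT id β'⁻¹` (`PathFun.val_evalAt`, `homotopic_mapT`); so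
`l = t⁻¹ ∘ g̃` is a left inverse, `l ≃ l ∘ f̃ ∘ g̃ ≃ g̃`. -/
theorem exists_he [LocallyPathConnectedSpace B] [LocallyPathConnectedSpace B'] (hν' : LocTriv ν')
    (e : ContinuousMap.HomotopyEquiv B B') :
    ∃ e' : ContinuousMap.HomotopyEquiv (Cov (ν'.comap e.toFun)) (Cov ν'),
      e'.toFun = cmap e.toFun fun _ _ _ => rfl := by
  obtain ⟨f, g, ⟨K'⟩, ⟨K⟩⟩ := e
  have hν : LocTriv (ν'.comap f) := hν'.comap f
  let β : B' → G := fun x => ν'.val (K.evalAt x)
  have hK : ∀ (x y : B') (q : Path x y),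
      ν'.val (q.map (f.comp g).continuous) = β x * ν'.val q * (β y)⁻¹ := fun x y q => ν'.val_evalAt K q
  let ft : C(Cov (ν'.comap f), Cov ν') := cmap f fun _ _ _ => rfl
  let gt : C(Cov ν', Cov (ν'.comap f)) := mapT g β hK
  have h1 : (ft.comp gt).Homotopic (ContinuousMap.id _) := by
    have h := homotopic_mapT (ν := ν') hν' K β (fun _ => 1) (fun x => (mul_one _).symm) hK
      fun x y q => by simp only [one_mul, inv_one, mul_one]; rfl
    convert h using 1
    · exact ContinuousMap.ext fun a => Cov.ext rfl (cmap_lb _ (fun _ _ _ => rfl) _)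
    · exact ContinuousMap.ext fun a => Cov.ext rfl (by change a.lb = a.lb * 1⁻¹; simp)
  let k : B → G := fun x => (ν'.comap f).val (K'.evalAt x)
  let β' : B → G := fun x => (k x)⁻¹ * β (f x)
  have hK0 : ∀ (x y : B) (q : Path x y), (ν'.comap f).val (q.map (g.comp f).continuous) =
      β (f x) * (ν'.comap f).val q * (β (f y))⁻¹ := fun x y q => hK _ _ (q.map f.continuous)
  have hK1 : ∀ (x y : B) (q : Path x y), (ν'.comap f).val q = β' x * (ν'.comap f).val q * (β' y)⁻¹ := by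
    intro x y q
    have h : (ν'.comap f).val (q.map (g.comp f).continuous) = k x * (ν'.comap f).val q * (k y)⁻¹ :=
      (ν'.comap f).val_evalAt K' q
    rw [hK0] at h
    calc (ν'.comap f).val q = (k x)⁻¹ * (k x * (ν'.comap f).val q * (k y)⁻¹) * k y := by group
      _ = _ := by rw [← h]; simp only [β']; group
  have hK2 : ∀ (x y : B) (q : Path x y),
      (ν'.comap f).val q = (β' x)⁻¹ * (ν'.comap f).val q * ((β' y)⁻¹)⁻¹ := by
    intro x y q
    conv_rhs => rw [hK1 x y q]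
    group
  let t : C(Cov (ν'.comap f), Cov (ν'.comap f)) := mapT (ContinuousMap.id B) β' hK1
  let t' : C(Cov (ν'.comap f), Cov (ν'.comap f)) := mapT (ContinuousMap.id B) (fun x => (β' x)⁻¹) hK2
  have h2 : (gt.comp ft).Homotopic t := by
    have h := homotopic_mapT (ν := ν'.comap f) hν K' (fun x => β (f x)) β'
      (fun x => (mul_inv_cancel_left _ _).symm) hK0 hK1
    convert h using 1
    refine ContinuousMap.ext fun a => Cov.ext rfl ?_
    change a.lb * 1⁻¹ * (β (f a.pj))⁻¹ = a.lb * (β (f a.pj))⁻¹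
    simp
  have h3 : t'.comp t = ContinuousMap.id _ := by
    refine ContinuousMap.ext fun a => Cov.ext rfl ?_
    change a.lb * (β' a.pj)⁻¹ * ((β' a.pj)⁻¹)⁻¹ = a.lb
    group
  have h4 : ((t'.comp gt).comp ft).Homotopic (ContinuousMap.id _) := by
    rw [← h3]
    exact (ContinuousMap.Homotopic.refl t').comp h2
  have h5 : gt.Homotopic (t'.comp gt) :=
    (h4.comp (ContinuousMap.Homotopic.refl gt)).symm.trans
      ((ContinuousMap.Homotopic.refl (t'.comp gt)).comp h1)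
  exact ⟨⟨ft, gt, (h5.comp (ContinuousMap.Homotopic.refl ft)).trans h4, h1⟩, rfl⟩

theorem covd_section [LocallyPathConnectedSpace B] {U : Set B} (hU : IsOpen U) {τ : B → G}
    (hτ : ∀ (x y : B) (q : Path x y), (∀ u, q u ∈ U) → ν.val q = (τ x)⁻¹ * τ y) (g : G) {O : Set (Cov ν)}
    (hO : IsOpen O) : IsOpen {y | y ∈ U ∧ (⟨y, g * τ y⟩ : Cov ν) ∈ O} := by
  refine isOpen_iff_mem_nhds.2 fun y hy => ?_
  obtain ⟨U', hU', h'⟩ := Cov.isOpen_iff.1 hO _ hy.2
  refine Filter.mem_of_superset (pathComponentIn_mem_nhds (Filter.inter_mem hU' (hU.mem_nhds hy.1))) fun y' hy' => ?_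
  obtain ⟨q, hq⟩ := cova_path hy'
  have := h' y' q fun u => (pathComponentIn_subset (hq u)).1
  rw [hτ _ _ q fun u => (pathComponentIn_subset (hq u)).2, mul_assoc, mul_inv_cancel_left] at this
  exact ⟨(pathComponentIn_subset hy').2, this⟩

/-- Cells lift.  Openness: at `e ∈ O` take a sheet `S ∋ e` on which `pj` is an open embedding and apply the axiom of the base
to `pj '' (O ∩ S)`. -/
theorem Att.lift [LocallyPathConnectedSpace B] (hν : LocTriv ν) {V ι : Type} [NormedAddCommGroup V] [NormedSpace ℝ V]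
    {A A' : Set B} {Φ : ι → C(V, B)} (h : Att A A' Φ) (Ψ : ι → C(V, Cov ν)) (hΨ : ∀ j z, (Ψ j z).pj = Φ j z) :
    Att (Cov.pj ⁻¹' A) (Cov.pj ⁻¹' A') (fun p : G × ι => (act p.1).comp (Ψ p.2)) := by
  have hp : ∀ (p : G × ι) z, ((act p.1).comp (Ψ p.2) z).pj = Φ p.2 z := fun p z => hΨ p.2 z
  refine ⟨preimage_mono h.sub, fun p z => ?_, fun p z hz => ?_, fun p z c hz hc => ?_, fun p z hz => ?_,
    fun p p' z z' hz hz' e => ?_, fun e he => ?_, fun O hA hΦ => ?_⟩
  · rw [mem_preimage, hp]; exact h.mem _ _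
  · rw [mem_preimage, hp]; exact h.bdry _ _ hz
  · haveI : PreconnectedSpace (Ici (1 : ℝ)) := Subtype.preconnectedSpace isPreconnected_Ici
    have := (Cov.isCoveringMap hν).const_of_comp (g := fun c : Ici (1 : ℝ) => Ψ p.2 ((c : ℝ) • z)) (by fun_prop)
      (fun a a' => by rw [hΨ, hΨ, h.rad _ _ _ hz a.2, h.rad _ _ _ hz a'.2]) ⟨c, hc⟩ ⟨1, le_refl (1 : ℝ)⟩
    simp only [one_smul] at this
    exact congrArg (act p.1) this
  · rw [mem_preimage, hp]; exact h.notMem _ _ hz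
  · obtain ⟨g, j⟩ := p
    obtain ⟨g', j'⟩ := p'
    obtain ⟨rfl, rfl⟩ : j = j' ∧ z = z' :=
      h.inj _ _ _ _ hz hz' ((hp (g, j) z).symm.trans ((congrArg Cov.pj e).trans (hp (g', j') z')))
    exact ⟨Prod.ext (mul_right_cancel (congrArg Cov.lb e)) rfl, rfl⟩
  · rcases h.cover _ he with hA | ⟨j, z, hz, hx⟩
    · exact .inl hA
    · refine .inr ⟨(e.lb * (Ψ j z).lb⁻¹, j), z, hz, Cov.ext (hx.trans (hΨ j z).symm) ?_⟩
      exact (inv_mul_cancel_right _ _).symm
  · refine isOpen_iff_mem_nhds.2 fun e he => ?_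
    obtain ⟨U, hU, hb, τ, hτ⟩ := hν.exists_pot e.1.pj
    set g₀ := e.1.lb * (τ e.1.pj)⁻¹ with hg₀
    have hsec : ∀ e' : Cov ν, e'.lb * (τ e'.pj)⁻¹ = g₀ → (⟨e'.pj, g₀ * τ e'.pj⟩ : Cov ν) = e' := fun e' he' =>
      Cov.ext rfl (by rw [← he']; exact inv_mul_cancel_right _ _)
    obtain ⟨O₁, hO₁, e₁⟩ := isOpen_induced_iff.1 hA
    have h1 := h.isOpen {y | y ∈ U ∧ (⟨y, g₀ * τ y⟩ : Cov ν) ∈ O} (by
      refine isOpen_induced_iff.2 ⟨_, covd_section hU hτ g₀ hO₁, Set.ext fun y => and_congr_right fun _ => ?_⟩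
      exact Set.ext_iff.1 e₁ ⟨⟨y, g₀ * τ y⟩, y.2⟩) (fun j => isOpen_iff_mem_nhds.2 fun z₀ hz₀ => by
      let p : G × ι := (g₀ * τ (Φ j z₀) * (Ψ j z₀).lb⁻¹, j)
      have e0 : (act p.1).comp (Ψ p.2) z₀ = ⟨Φ j z₀, g₀ * τ (Φ j z₀)⟩ :=
        Cov.ext (hΨ j z₀) (inv_mul_cancel_right _ _)
      have m1 := ((act p.1).comp (Ψ p.2)).continuous.continuousAt.preimage_mem_nhds
        ((cova_sheet hU hτ g₀).mem_nhds (x := (act p.1).comp (Ψ p.2) z₀) (by
          rw [e0]; exact ⟨hz₀.1, mul_inv_cancel_right _ _⟩))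
      have m2 := (hΦ p).mem_nhds (x := z₀) (by rw [mem_preimage, e0]; exact hz₀.2)
      filter_upwards [m1, m2] with z k1 k2
      have k3 := hsec _ k1.2
      have k4 := k1.1
      rw [hp] at k3 k4
      exact ⟨k4, k3 ▸ k2⟩)
    obtain ⟨W, hW, e₂⟩ := isOpen_induced_iff.1 h1
    have m1 := continuous_subtype_val.continuousAt.preimage_mem_nhds
      ((cova_sheet hU hτ g₀).mem_nhds (x := e.1) ⟨hb, rfl⟩)
    have m2 := (Cov.continuous_pj.comp continuous_subtype_val).continuousAt.preimage_mem_nhds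
      (hW.mem_nhds (x := e.1.pj) ((Set.ext_iff.1 e₂ ⟨e.1.pj, e.2⟩).2 ⟨hb, by rw [hsec _ rfl]; exact he⟩))
    filter_upwards [m1, m2] with e' k1 k2
    have k3 := ((Set.ext_iff.1 e₂ ⟨e'.1.pj, e'.2⟩).1 k2).2
    rw [hsec _ k1.2] at k3
    exact k3

end

end Crest.Agent.R251.Top
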