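import Crest.Agent.R251.Top.Ch

/-!
# Row 251, topology: ordered (formal) chains, cones, acyclic models, realisation by affine simplices
-/

set_option autoImplicit false

open Set

local notation "I" => unitInterval

namespace Crest.Agent.R251.Top

noncomputable section

/-- tuples of points -/
def OS (Y : Type) : Type := Σ k : ℕ, Fin k → Y

/-- ordered chains -/
abbrev OC (Y : Type) : Type := OS Y →₀ ℤ

variable {Y Y' Z Z' : Type}

/-- the chain of a tuple -/
def ox {k : ℕ} (v : Fin k → Y) : OC Y := Finsupp.single (⟨k, v⟩ : OS Y) 1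

/-- the linear map with prescribed values on tuples -/
def oext {M : Type*} [AddCommGroup M] (f : ∀ k, (Fin k → Y) → M) : OC Y →ₗ[ℤ] M :=
  Finsupp.linearCombination ℤ fun s : OS Y => f s.1 s.2

@[simp] theorem oext_ox {M : Type*} [AddCommGroup M] (f : ∀ k, (Fin k → Y) → M) {k : ℕ} (v : Fin k → Y) :
    oext f (ox v) = f k v := by
  simp [oext, ox]

theorem oc_ext {M : Type*} [AddCommGroup M] {f g : OC Y →ₗ[ℤ] M}
    (h : ∀ k (v : Fin k → Y), f (ox v) = g (ox v)) : f = g := by
  refine Finsupp.lhom_ext' fun s => LinearMap.ext_ring ?_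
  exact h s.1 s.2

/-- boundary of a tuple -/
def obdS : ∀ k, (Fin k → Y) → OC Y
  | 0, _ => 0
  | k + 1, v => ∑ i : Fin (k + 1), (-1 : ℤ) ^ (i : ℕ) • ox (v ∘ Fin.succAbove i)

/-- boundary -/
def obd : OC Y →ₗ[ℤ] OC Y := oext obdS

/-- cone -/
def ocone (b : Y) : OC Y →ₗ[ℤ] OC Y := oext fun k v => ox (Fin.cons b v : Fin (k + 1) → Y)

/-- induced map -/
def omp (f : Y → Y') : OC Y →ₗ[ℤ] OC Y' := oext fun _ v => ox (f ∘ v)

theorem obd_ox_zero (v : Fin 0 → Y) : obd (ox v) = 0 := oext_ox _ v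

theorem obd_ox_succ {k : ℕ} (v : Fin (k + 1) → Y) :
    obd (ox v) = ∑ i : Fin (k + 1), (-1 : ℤ) ^ (i : ℕ) • ox (v ∘ Fin.succAbove i) := oext_ox _ v

theorem ocone_ox (b : Y) {k : ℕ} (v : Fin k → Y) :
    ocone b (ox v) = ox (Fin.cons b v : Fin (k + 1) → Y) := oext_ox _ v

theorem omp_ox (f : Y → Y') {k : ℕ} (v : Fin k → Y) : omp f (ox v) = ox (f ∘ v) := oext_ox _ v

/-- induction on the length -/
theorem fma_ind {M : Type*} [AddCommGroup M] {f g : OC Y →ₗ[ℤ] M}
    (h0 : ∀ v : Fin 0 → Y, f (ox v) = g (ox v))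
    (hs : ∀ k (v : Fin (k + 1) → Y), f (obd (ox v)) = g (obd (ox v)) → f (ox v) = g (ox v))
    (c : OC Y) : f c = g c := by
  refine LinearMap.congr_fun (oc_ext fun k => ?_) c
  induction k with
  | zero => exact h0
  | succ k ih =>
    intro v
    refine hs k v ?_
    rw [obd_ox_succ, map_sum, map_sum]
    exact Finset.sum_congr rfl fun i _ => by rw [map_smul, map_smul, ih]

theorem obd_ocone (b : Y) (c : OC Y) : obd (ocone b c) = c - ocone b (obd c) := by
  have h : obd ∘ₗ ocone b = (LinearMap.id : OC Y →ₗ[ℤ] OC Y) - ocone b ∘ₗ obd := by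
    refine oc_ext fun k v => ?_
    rw [LinearMap.comp_apply, LinearMap.sub_apply, LinearMap.comp_apply, LinearMap.id_apply,
      ocone_ox, obd_ox_succ, Fin.sum_univ_succ]
    have e0 : (Fin.cons b v : Fin (k + 1) → Y) ∘ Fin.succAbove 0 = v := by
      funext j
      simp
    rw [e0, sub_eq_add_neg]
    congr 1
    · simp
    cases k with
    | zero => simp [obd_ox_zero]
    | succ k =>
      rw [obd_ox_succ, map_sum, ← Finset.sum_neg_distrib]
      refine Finset.sum_congr rfl fun i _ => ?_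
      have e : (Fin.cons b v : Fin (k + 2) → Y) ∘ Fin.succAbove i.succ =
          Fin.cons b (v ∘ Fin.succAbove i) := by
        funext j
        refine Fin.cases ?_ (fun j => ?_) j <;> simp
      rw [e, map_smul, ocone_ox, Fin.val_succ, pow_succ, mul_neg_one, neg_smul]
  exact LinearMap.congr_fun h c

/-- by induction on the length, writing `v = Fin.cons (v 0) (Fin.tail v)` -/
theorem obd_obd (c : OC Y) : obd (obd c) = 0 := by
  have h : ∀ k (v : Fin k → Y), obd (obd (ox v)) = 0 := by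
    intro k
    induction k with
    | zero => intro v; rw [obd_ox_zero, map_zero]
    | succ k ih =>
      intro v
      rw [← Fin.cons_self_tail v, ← ocone_ox, obd_ocone, map_sub, obd_ocone, ih, map_zero,
        sub_zero, sub_self]
  exact LinearMap.congr_fun (oc_ext (f := obd ∘ₗ obd) (g := 0) h) c

theorem obd_omp (f : Y → Y') (c : OC Y) : obd (omp f c) = omp f (obd c) := by
  refine LinearMap.congr_fun (oc_ext (f := obd ∘ₗ omp f) (g := omp f ∘ₗ obd) fun k v => ?_) c
  rw [LinearMap.comp_apply, LinearMap.comp_apply, omp_ox]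
  cases k with
  | zero => rw [obd_ox_zero, obd_ox_zero, map_zero]
  | succ k =>
    rw [obd_ox_succ, obd_ox_succ, map_sum]
    exact Finset.sum_congr rfl fun i _ => by rw [map_smul, omp_ox]; rfl

theorem omp_ocone (f : Y → Y') (b : Y) (c : OC Y) : omp f (ocone b c) = ocone (f b) (omp f c) := by
  refine LinearMap.congr_fun
    (oc_ext (f := omp f ∘ₗ ocone b) (g := ocone (f b) ∘ₗ omp f) fun k v => ?_) c
  rw [LinearMap.comp_apply, LinearMap.comp_apply, ocone_ox, omp_ox, omp_ox, ocone_ox,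
    Fin.comp_cons]

theorem omp_omp (g : Y' → Z) (f : Y → Y') (c : OC Y) : omp g (omp f c) = omp (g ∘ f) c := by
  refine LinearMap.congr_fun (oc_ext (f := omp g ∘ₗ omp f) (g := omp (g ∘ f)) fun k v => ?_) c
  rw [LinearMap.comp_apply, omp_ox, omp_ox, omp_ox]
  rfl

/-- acyclic models: the null-homotopy of a chain map `F` that kills the empty tuple -/
def amhS (β : ∀ k, (Fin (k + 1) → Y) → Y') (F : OC Y →ₗ[ℤ] OC Y') : ∀ k, (Fin k → Y) → OC Y'
  | 0, _ => 0
  | k + 1, v => ocone (β k v) (F (ox v) - ∑ i : Fin (k + 1), (-1 : ℤ) ^ (i : ℕ) • amhS β F k (v ∘ Fin.succAbove i))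

/-- acyclic models, linearly extended -/
def amh (β : ∀ k, (Fin (k + 1) → Y) → Y') (F : OC Y →ₗ[ℤ] OC Y') : OC Y →ₗ[ℤ] OC Y' := oext (amhS β F)

theorem amh_succ (β : ∀ k, (Fin (k + 1) → Y) → Y') (F : OC Y →ₗ[ℤ] OC Y') {k : ℕ} (v : Fin (k + 1) → Y) :
    amh β F (ox v) = ocone (β k v) (F (ox v) - amh β F (obd (ox v))) := by
  rw [obd_ox_succ, map_sum]
  simp only [map_smul, amh, oext_ox]
  rw [amhS]

theorem amh_zero (β : ∀ k, (Fin (k + 1) → Y) → Y') (F : OC Y →ₗ[ℤ] OC Y') (v : Fin 0 → Y) :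
    amh β F (ox v) = 0 := by
  rw [amh, oext_ox, amhS]

theorem obd_amh (β : ∀ k, (Fin (k + 1) → Y) → Y') {F : OC Y →ₗ[ℤ] OC Y'} (hF : ∀ c, obd (F c) = F (obd c))
    (h0 : ∀ v : Fin 0 → Y, F (ox v) = 0) (c : OC Y) : obd (amh β F c) + amh β F (obd c) = F c := by
  refine fma_ind (f := obd ∘ₗ amh β F + amh β F ∘ₗ obd) (g := F) (fun v => ?_) (fun k v ih => ?_) c
  · simp only [LinearMap.add_apply, LinearMap.comp_apply]
    rw [amh_zero, obd_ox_zero, h0, map_zero, map_zero, add_zero]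
  · simp only [LinearMap.add_apply, LinearMap.comp_apply] at ih ⊢
    rw [obd_obd, map_zero, add_zero] at ih
    rw [amh_succ, obd_ocone, map_sub obd, ih, hF, sub_self, map_zero, sub_zero, sub_add_cancel]

theorem amh_natural {β : ∀ k, (Fin (k + 1) → Y) → Y'} {γ : ∀ k, (Fin (k + 1) → Z) → Z'}
    {F : OC Y →ₗ[ℤ] OC Y'} {F' : OC Z →ₗ[ℤ] OC Z'} (f : Y → Z) (f' : Y' → Z')
    (hβ : ∀ k v, γ k (f ∘ v) = f' (β k v)) (hF : ∀ c, F' (omp f c) = omp f' (F c)) (c : OC Y) :
    amh γ F' (omp f c) = omp f' (amh β F c) := by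
  refine fma_ind (f := amh γ F' ∘ₗ omp f) (g := omp f' ∘ₗ amh β F) (fun v => ?_)
    (fun k v ih => ?_) c
  · simp only [LinearMap.comp_apply]
    rw [omp_ox, amh_zero, amh_zero, map_zero]
  · simp only [LinearMap.comp_apply] at ih ⊢
    rw [omp_ox, amh_succ, amh_succ, omp_ocone, hβ, ← omp_ox, obd_omp, ih, hF, map_sub (omp f')]

/-- subdivision with cone points `β` -/
def osdS (β : ∀ k, (Fin (k + 1) → Y) → Y) : ∀ k, (Fin k → Y) → OC Y
  | 0, v => ox v
  | k + 1, v => ocone (β k v) (∑ i : Fin (k + 1), (-1 : ℤ) ^ (i : ℕ) • osdS β k (v ∘ Fin.succAbove i))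

/-- subdivision, linearly extended -/
def osd (β : ∀ k, (Fin (k + 1) → Y) → Y) : OC Y →ₗ[ℤ] OC Y := oext (osdS β)

theorem osd_zero (β : ∀ k, (Fin (k + 1) → Y) → Y) (v : Fin 0 → Y) : osd β (ox v) = ox v := by
  rw [osd, oext_ox, osdS]

theorem osd_succ (β : ∀ k, (Fin (k + 1) → Y) → Y) {k : ℕ} (v : Fin (k + 1) → Y) :
    osd β (ox v) = ocone (β k v) (osd β (obd (ox v))) := by
  rw [obd_ox_succ, map_sum]
  simp only [map_smul, osd, oext_ox]
  rw [osdS]

theorem obd_osd (β : ∀ k, (Fin (k + 1) → Y) → Y) (c : OC Y) : obd (osd β c) = osd β (obd c) := by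
  refine fma_ind (f := obd ∘ₗ osd β) (g := osd β ∘ₗ obd) (fun v => ?_) (fun k v ih => ?_) c
  · simp only [LinearMap.comp_apply]
    rw [osd_zero, obd_ox_zero, map_zero]
  · simp only [LinearMap.comp_apply] at ih ⊢
    rw [obd_obd, map_zero] at ih
    rw [osd_succ, obd_ocone, ih, map_zero, sub_zero]

theorem osd_natural {β : ∀ k, (Fin (k + 1) → Y) → Y} {γ : ∀ k, (Fin (k + 1) → Z) → Z} (f : Y → Z)
    (hβ : ∀ k v, γ k (f ∘ v) = f (β k v)) (c : OC Y) : osd γ (omp f c) = omp f (osd β c) := by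
  refine fma_ind (f := osd γ ∘ₗ omp f) (g := omp f ∘ₗ osd β) (fun v => ?_) (fun k v ih => ?_) c
  · simp only [LinearMap.comp_apply]
    rw [osd_zero, omp_ox, osd_zero]
  · simp only [LinearMap.comp_apply] at ih ⊢
    rw [omp_ox, osd_succ, osd_succ, omp_ocone, hβ, ← omp_ox, obd_omp, ih]

/-- spaces with affine simplices -/
class Aff (Y : Type) [TopologicalSpace Y] where
  aff : ∀ {k : ℕ}, (Fin k → Y) → C(Dl k, Y)
  aff_face : ∀ {k : ℕ} (v : Fin (k + 1) → Y) (i : Fin (k + 1)),
    (aff v).comp (face i) = aff (v ∘ Fin.succAbove i)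

open Aff

/-- affine simplices in a simplex -/
def affD {k m : ℕ} (v : Fin k → Dl m) : C(Dl k, Dl m) where
  toFun t := ⟨∑ i, t i • (v i : Fin m → ℝ),
    (convex_stdSimplex ℝ (Fin m)).sum_mem (fun i _ => t.2.1 i) t.2.2 fun i _ => (v i).2⟩
  continuous_toFun := Continuous.subtype_mk
    (continuous_finsetSum _ fun i _ => (continuous_coord i).smul continuous_const) _

theorem fmb_sum_face {k : ℕ} {M : Type} [AddCommGroup M] [Module ℝ M] (v : Fin (k + 1) → M)
    (i : Fin (k + 1)) (t : Dl k) : ∑ j, face i t j • v j = ∑ j, t j • v (i.succAbove j) := by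
  rw [Fin.sum_univ_succAbove _ i, face_apply_self, zero_smul, zero_add]
  simp only [face_apply_succAbove]

theorem affD_coe {k m : ℕ} (v : Fin k → Dl m) (t : Dl k) :
    (affD v t : Fin m → ℝ) = ∑ i, t i • (v i : Fin m → ℝ) := rfl

theorem affD_face {k m : ℕ} (v : Fin (k + 1) → Dl m) (i : Fin (k + 1)) :
    (affD v).comp (face i) = affD (v ∘ Fin.succAbove i) := by
  ext1 t
  exact Subtype.ext (fmb_sum_face (fun j => (v j : Fin m → ℝ)) i t)

instance {m : ℕ} : Aff (Dl m) := ⟨affD, affD_face⟩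

/-- affine simplices in the unit interval -/
def affI {k : ℕ} (v : Fin k → I) : C(Dl k, I) where
  toFun t := ⟨∑ i, t i • (v i : ℝ),
    (convex_Icc (0 : ℝ) 1).sum_mem (fun i _ => t.2.1 i) t.2.2 fun i _ => (v i).2⟩
  continuous_toFun := Continuous.subtype_mk
    (continuous_finsetSum _ fun i _ => (continuous_coord i).smul continuous_const) _

theorem affI_face {k : ℕ} (v : Fin (k + 1) → I) (i : Fin (k + 1)) :
    (affI v).comp (face i) = affI (v ∘ Fin.succAbove i) := by
  ext1 t
  exact Subtype.ext (fmb_sum_face (fun j => (v j : ℝ)) i t)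

theorem affI_const {k : ℕ} (u : I) (t : Dl k) : affI (fun _ => u) t = u := by
  refine Subtype.ext ?_
  change ∑ i, t i • (u : ℝ) = u
  rw [← Finset.sum_smul, stdSimplex.sum_eq_one, one_smul]

instance : Aff I := ⟨affI, affI_face⟩

instance {Y Y' : Type} [TopologicalSpace Y] [TopologicalSpace Y'] [Aff Y] [Aff Y'] : Aff (Y × Y') where
  aff v := (aff (Prod.fst ∘ v)).prodMk (aff (Prod.snd ∘ v))
  aff_face v i := by
    ext1 t
    exact Prod.ext (DFunLike.congr_fun (aff_face (Prod.fst ∘ v) i) t)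
      (DFunLike.congr_fun (aff_face (Prod.snd ∘ v) i) t)

/-- the vertices of the standard simplex -/
def vert (k : ℕ) : Fin k → Dl k := fun i => stdSimplex.vertex i

theorem affD_vert (k : ℕ) : affD (vert k) = ContinuousMap.id _ := by
  ext1 t
  refine stdSimplex.ext ?_
  rw [affD_coe]
  funext j
  simp [vert, Finset.sum_apply, Pi.single_apply]

theorem affD_vertex {k m : ℕ} (v : Fin k → Dl m) (i : Fin k) : affD v (vert k i) = v i := by
  refine stdSimplex.ext ?_
  rw [affD_coe]
  simp [vert, Pi.single_apply]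

theorem affD_comp {k m n : ℕ} (w : Fin m → Dl n) (v : Fin k → Dl m) :
    (affD w).comp (affD v) = affD (affD w ∘ v) := by
  ext1 t
  refine stdSimplex.ext ?_
  rw [ContinuousMap.comp_apply, affD_coe, affD_coe, affD_coe]
  simp only [Function.comp_apply, affD_coe, Finset.sum_apply, Pi.smul_apply, smul_eq_mul,
    Finset.sum_smul, Finset.smul_sum, smul_smul]
  exact Finset.sum_comm

theorem face_eq_affD {k : ℕ} (i : Fin (k + 1)) : face i = affD (vert (k + 1) ∘ Fin.succAbove i) := by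
  rw [← affD_face, affD_vert, ContinuousMap.id_comp]

theorem face_comp_vert {k : ℕ} (i : Fin (k + 1)) : face i ∘ vert k = vert (k + 1) ∘ Fin.succAbove i := by
  funext j
  exact stdSimplex.map_vertex _ _

section real

variable {A A' : Type} [TopologicalSpace A] [TopologicalSpace A'] [Aff A] [Aff A']

/-- realisation of ordered chains by affine simplices -/
def real : OC A →ₗ[ℤ] Ch A := oext fun _ v => sx (aff v)

theorem real_ox {k : ℕ} (v : Fin k → A) : real (ox v) = sx (aff v) := oext_ox _ v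

theorem bd_real (c : OC A) : bd (real c) = real (obd c) := by
  have h : (bd.comp real : OC A →ₗ[ℤ] Ch A) = real.comp obd := by
    refine oc_ext fun k v => ?_
    rw [LinearMap.comp_apply, LinearMap.comp_apply, real_ox, obd, oext_ox]
    match k, v with
    | 0, v => rw [sx_zero, bd_ems, obdS, map_zero]
    | k + 1, v =>
      rw [bd_sx, obdS, map_sum]
      refine Finset.sum_congr rfl fun i _ => ?_
      rw [map_smul, real_ox, aff_face]
  exact LinearMap.congr_fun h c

theorem mp_real {f : C(A, A')} (hf : ∀ k (v : Fin k → A), f.comp (aff v) = aff (f ∘ v)) (c : OC A) :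
    mp f (real c) = real (omp f c) := by
  have h : ((mp f).comp real : OC A →ₗ[ℤ] Ch A') = real.comp (omp f) := by
    refine oc_ext fun k v => ?_
    rw [LinearMap.comp_apply, LinearMap.comp_apply, real_ox, omp, oext_ox, real_ox, mp_sx, hf]
  exact LinearMap.congr_fun h c

end real

end

end Crest.Agent.R251.Top
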