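import Crest.Agent.R251.Top.Ch

/-!
# Row 251, topology: three-dimensional horns can be filled
-/

set_option autoImplicit false

open Set

namespace Crest.Agent.R251.Top

noncomputable section

variable {Z : Type} [TopologicalSpace Z]

theorem horn_inj {k : ℕ} (i : Fin (k + 1)) : Function.Injective (face i) := fun t t' h =>
  stdSimplex.ext (funext fun j => by rw [← face_apply_succAbove i t, h, face_apply_succAbove])

theorem horn_retr (k : Fin 4) : ∃ r : C(Dl 4, Dl 4), (∀ t, ∃ i, i ≠ k ∧ r t i = 0) ∧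
    ∀ (t : Dl 4) i, i ≠ k → t i = 0 → r t = t := by
  obtain ⟨m, hm, h1, h2⟩ : ∃ m : Dl 4 → ℝ, Continuous m ∧ (∀ t a, m t ≤ t (k.succAbove a)) ∧
      ∀ t, ∃ a, m t = t (k.succAbove a) := by
    refine ⟨fun t => min (t (k.succAbove 0)) (min (t (k.succAbove 1)) (t (k.succAbove 2))),
      (continuous_coord _).min ((continuous_coord _).min (continuous_coord _)), fun t a => ?_,
      fun t => ?_⟩
    · fin_cases a <;> simp
    · rcases min_choice (t (k.succAbove 0)) (min (t (k.succAbove 1)) (t (k.succAbove 2))) with h | h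
      · exact ⟨0, h⟩
      · rcases min_choice (t (k.succAbove 1)) (t (k.succAbove 2)) with h' | h'
        · exact ⟨1, h.trans h'⟩
        · exact ⟨2, h.trans h'⟩
  have h0 : ∀ t, 0 ≤ m t := fun t => by
    obtain ⟨a, ha⟩ := h2 t
    exact ha ▸ stdSimplex.zero_le t _
  refine ⟨⟨fun t => ⟨fun j => if j = k then t j + 3 * m t else t j - m t, fun j => ?_, ?_⟩,
    Continuous.subtype_mk (continuous_pi fun j => ?_) _⟩, fun t => ?_, fun t i hi ht => ?_⟩
  · rcases Fin.eq_self_or_eq_succAbove k j with rfl | ⟨a, rfl⟩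
    · simpa using add_nonneg (stdSimplex.zero_le t j) (mul_nonneg zero_le_three (h0 t))
    · simpa using h1 t a
  · have := stdSimplex.sum_eq_one t
    rw [Fin.sum_univ_succAbove _ k, Fin.sum_univ_three] at this ⊢
    simp only [if_true, Fin.succAbove_ne, if_false]
    linarith
  · split_ifs
    · exact (continuous_coord j).add (continuous_const.mul hm)
    · exact (continuous_coord j).sub hm
  · obtain ⟨a, ha⟩ := h2 t
    exact ⟨_, k.succAbove_ne a, (if_neg (k.succAbove_ne a)).trans (sub_eq_zero.2 ha.symm)⟩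
  · obtain ⟨a, rfl⟩ := Fin.exists_succAbove_eq hi
    have h3 : m t = 0 := le_antisymm (ht ▸ h1 t a) (h0 t)
    refine stdSimplex.ext (funext fun j => ?_)
    change (if j = k then t j + 3 * m t else t j - m t) = t j
    simp [h3]

/-- Retract `Dl 4` onto the horn by `r t = t - m t • (∑_{i ≠ k} e_i) + 3 m t • e_k`, `m t = min_{i ≠ k} t i`, and glue the
`τ i` along the finite closed cover `{t | (r t) i = 0}`, `i ≠ k` (`face i` is a closed embedding with that range). -/
theorem exists_horn (k : Fin 4) (τ : Fin 4 → C(Dl 3, Z))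
    (h : ∀ i j, i ≠ k → j ≠ k → ∀ t t', face i t = face j t' → τ i t = τ j t') :
    ∃ θ : C(Dl 4, Z), ∀ i, i ≠ k → θ.comp (face i) = τ i := by
  obtain ⟨r, h1, h2⟩ := horn_retr k
  choose ι hι hι' using h1
  choose σ hσ using fun i : Fin 4 => (Fin.succAbove_right_injective (p := i)).hasLeftInverse
  have e1 : ∀ i u, dmap (σ i) (face i u) = u := fun i u => by
    rw [face, ← ContinuousMap.comp_apply, dmap_comp, (hσ i).comp_eq_id, dmap_id]
    rfl
  have e2 : ∀ i (s : Dl 4), s i = 0 → face i (dmap (σ i) s) = s := fun i s hs => by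
    obtain ⟨u, rfl⟩ := exists_face_of_eq_zero i s hs
    rw [e1]
  have e3 : ∀ i t, i ≠ k → r t i = 0 → τ (ι t) (dmap (σ (ι t)) (r t)) = τ i (dmap (σ i) (r t)) :=
    fun i t hi ht => h _ _ (hι t) hi _ _ ((e2 _ _ (hι' t)).trans (e2 _ _ ht).symm)
  refine ⟨⟨fun t => τ (ι t) (dmap (σ (ι t)) (r t)), ?_⟩, fun i hi => ContinuousMap.ext fun u => ?_⟩
  · refine (locallyFinite_of_finite fun i : {i // i ≠ k} => {t | r t i = 0}).continuous
      (eq_univ_of_forall fun t => mem_iUnion.2 ⟨⟨ι t, hι t⟩, hι' t⟩)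
      (fun i => isClosed_eq ((continuous_coord _).comp r.continuous) continuous_const) fun i => ?_
    exact ((τ i).comp ((dmap (σ i)).comp r)).continuous.continuousOn.congr fun t ht => e3 i t i.2 ht
  · have e4 := h2 _ i hi (face_apply_self i u)
    refine (e3 i _ hi (by rw [e4, face_apply_self])).trans ?_
    rw [e4, e1]

theorem horn_ff {i j : Fin 4} (a b : Fin 3) (ha : (a : ℕ) = i) (hb : (b : ℕ) + 1 = j) (hij : i < j) :
    (face j).comp (face a) = (face i).comp (face b) := by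
  rw [face, face, face, face, dmap_comp, dmap_comp]
  congr 1
  revert i j a b
  decide

/-- two faces meet along an edge -/
theorem exists_of_face_eq {i j : Fin 4} (a b : Fin 3) (ha : (a : ℕ) = i) (hb : (b : ℕ) + 1 = j) (hij : i < j)
    {t t' : Dl 3} (h : face i t = face j t') : ∃ u : Dl 2, t = face b u ∧ t' = face a u := by
  have e : i.succAbove b = j := by
    clear h
    revert i j a b
    decide
  obtain ⟨u, rfl⟩ := exists_face_of_eq_zero b t (by
    rw [← face_apply_succAbove i, h, e, face_apply_self])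
  exact ⟨u, rfl, horn_inj j (h.symm.trans (ContinuousMap.congr_fun (horn_ff a b ha hb hij) u).symm)⟩

/-- the simplicial identities -/
theorem face_face {i j : Fin 4} (a b : Fin 3) (ha : (a : ℕ) = i) (hb : (b : ℕ) + 1 = j) (hij : i < j) :
    (face j).comp (face a) = (face i).comp (face b) := by
  exact horn_ff a b ha hb hij

theorem horn_aux (k : Fin 4) (τ : Fin 4 → C(Dl 3, Z))
    (h : ∀ (i j : Fin 4) (a b : Fin 3), i ≠ k → j ≠ k → (a : ℕ) = i → (b : ℕ) + 1 = j → i < j →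
      (τ j).comp (face a) = (τ i).comp (face b)) :
    ∃ θ : C(Dl 4, Z), ∀ i, i ≠ k → θ.comp (face i) = τ i := by
  have key : ∀ i j, i ≠ k → j ≠ k → i < j → ∀ t t', face i t = face j t' → τ i t = τ j t' := by
    intro i j hi hj hij t t' e
    have h1 : (i : ℕ) < j := hij
    have h2 := j.2
    have hb : (j : ℕ) - 1 + 1 = j := by omega
    obtain ⟨u, rfl, rfl⟩ := exists_of_face_eq ⟨i, by omega⟩ ⟨j - 1, by omega⟩ rfl hb hij e
    exact (ContinuousMap.congr_fun (h i j _ _ hi hj rfl hb hij) u).symm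
  refine exists_horn k τ fun i j hi hj t t' e => ?_
  rcases lt_trichotomy i j with hij | rfl | hij
  · exact key i j hi hj hij t t' e
  · rw [horn_inj i e]
  · exact (key j i hj hi hij t' t e.symm).symm

theorem horn_id (θ : C(Dl 4, Z)) {i j : Fin 4} (a b : Fin 3) (ha : (a : ℕ) = i) (hb : (b : ℕ) + 1 = j)
    (hij : i < j) : (θ.comp (face j)).comp (face a) = (θ.comp (face i)).comp (face b) := by
  rw [ContinuousMap.comp_assoc, ContinuousMap.comp_assoc, face_face a b ha hb hij]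

theorem horn1 (τ₀ τ₂ τ₃ : C(Dl 3, Z)) (h02 : τ₂.comp (face 0) = τ₀.comp (face 1))
    (h03 : τ₃.comp (face 0) = τ₀.comp (face 2)) (h23 : τ₃.comp (face 2) = τ₂.comp (face 2)) :
    ∃ τ₁ : C(Dl 3, Z), τ₁.comp (face 0) = τ₀.comp (face 0) ∧ τ₁.comp (face 1) = τ₂.comp (face 1) ∧
      τ₁.comp (face 2) = τ₃.comp (face 1) ∧ ∃ b, bd b = sx τ₀ - sx τ₁ + sx τ₂ - sx τ₃ := by
  obtain ⟨θ, h⟩ := horn_aux 1 ![τ₀, τ₀, τ₂, τ₃] fun i j a b hi hj ha hb hij => by
    fin_cases i <;> fin_cases j <;> fin_cases a <;> fin_cases b <;> simp_all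
  obtain rfl : θ.comp (face 0) = τ₀ := h 0 (by decide)
  obtain rfl : θ.comp (face 2) = τ₂ := h 2 (by decide)
  obtain rfl : θ.comp (face 3) = τ₃ := h 3 (by decide)
  exact ⟨θ.comp (face 1), horn_id θ 0 0 rfl rfl (by decide), (horn_id θ 1 1 rfl rfl (by decide)).symm,
    (horn_id θ 1 2 rfl rfl (by decide)).symm, sx θ, bd_sx_four θ⟩

theorem horn2 (τ₀ τ₁ τ₃ : C(Dl 3, Z)) (h01 : τ₁.comp (face 0) = τ₀.comp (face 0))
    (h03 : τ₃.comp (face 0) = τ₀.comp (face 2)) (h13 : τ₃.comp (face 1) = τ₁.comp (face 2)) :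
    ∃ τ₂ : C(Dl 3, Z), τ₂.comp (face 0) = τ₀.comp (face 1) ∧ τ₂.comp (face 1) = τ₁.comp (face 1) ∧
      τ₂.comp (face 2) = τ₃.comp (face 2) ∧ ∃ b, bd b = sx τ₀ - sx τ₁ + sx τ₂ - sx τ₃ := by
  obtain ⟨θ, h⟩ := horn_aux 2 ![τ₀, τ₁, τ₀, τ₃] fun i j a b hi hj ha hb hij => by
    fin_cases i <;> fin_cases j <;> fin_cases a <;> fin_cases b <;> simp_all
  obtain rfl : θ.comp (face 0) = τ₀ := h 0 (by decide)
  obtain rfl : θ.comp (face 1) = τ₁ := h 1 (by decide)
  obtain rfl : θ.comp (face 3) = τ₃ := h 3 (by decide)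
  exact ⟨θ.comp (face 2), horn_id θ 0 1 rfl rfl (by decide), horn_id θ 1 1 rfl rfl (by decide),
    (horn_id θ 2 2 rfl rfl (by decide)).symm, sx θ, bd_sx_four θ⟩

theorem horn3 (τ₀ τ₁ τ₂ : C(Dl 3, Z)) (h01 : τ₁.comp (face 0) = τ₀.comp (face 0))
    (h02 : τ₂.comp (face 0) = τ₀.comp (face 1)) (h12 : τ₂.comp (face 1) = τ₁.comp (face 1)) :
    ∃ τ₃ : C(Dl 3, Z), τ₃.comp (face 0) = τ₀.comp (face 2) ∧ τ₃.comp (face 1) = τ₁.comp (face 2) ∧
      τ₃.comp (face 2) = τ₂.comp (face 2) ∧ ∃ b, bd b = sx τ₀ - sx τ₁ + sx τ₂ - sx τ₃ := by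
  obtain ⟨θ, h⟩ := horn_aux 3 ![τ₀, τ₁, τ₂, τ₀] fun i j a b hi hj ha hb hij => by
    fin_cases i <;> fin_cases j <;> fin_cases a <;> fin_cases b <;> simp_all
  obtain rfl : θ.comp (face 0) = τ₀ := h 0 (by decide)
  obtain rfl : θ.comp (face 1) = τ₁ := h 1 (by decide)
  obtain rfl : θ.comp (face 2) = τ₂ := h 2 (by decide)
  exact ⟨θ.comp (face 3), horn_id θ 0 2 rfl rfl (by decide), horn_id θ 1 2 rfl rfl (by decide),
    horn_id θ 2 2 rfl rfl (by decide), sx θ, bd_sx_four θ⟩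

end

end Crest.Agent.R251.Top
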