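import Crest.Agent.R251.Top.Horn
import Crest.Agent.R251.Top.Pch

/-!
# Row 251, topology: the Hurewicz map onto `H₂` of a simply connected space

Let `κ = cst 3 z₀` and `𝒫 = {sx σ - κ + bd b | σ pointed}`.  It is a subgroup: `horn1 σ₁ σ₂ const` for sums, `horn2 σ const const`
for negatives.  Choose an edge `p y` from `z₀` to every point `y` and, for every edge `e` from `y` to `y'`, a triangle `T e` with
faces `(e, p y', p y)` (`exists_triangle`); `s p = p ∘ dmap ![0, 0, 1]` has faces `(p, p, const)`.  A triangle with faces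
`(p y, p y, const)` is homologous to a pointed one (`horn3 · (s p) (s p)`).  For a triangle `σ` with faces `(b, c, a)` and vertices
`y₀ y₁ y₂`: `horn1 σ (T c) (T a)` gives `σ₁` with faces `(b, p y₂, p y₁)`, `horn2 (T b) σ₁ (s (p y₁))` gives `σ₂` with faces
`(p y₂, p y₂, const)`.  So `sx σ - (T b - T c + T a) ∈ 𝒫`; sum over a cycle (`lext` of `T` on edges, `Deg_le`).
-/

set_option autoImplicit false

open Set

namespace Crest.Agent.R251.Top

noncomputable section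

variable {Z : Type} [TopologicalSpace Z]

/-- the classes of pointed triangles -/
def hurP (z₀ : Z) : AddSubgroup (Ch Z) where
  carrier := {c | ∃ σ : C(Dl 3, Z), σ.comp (face 0) = .const _ z₀ ∧ σ.comp (face 1) = .const _ z₀ ∧
    σ.comp (face 2) = .const _ z₀ ∧ ∃ b, c = sx σ - cst 3 z₀ + bd b}
  zero_mem' := ⟨.const _ z₀, rfl, rfl, rfl, 0, by simp [cst]⟩
  add_mem' := by
    rintro _ _ ⟨σ, h0, h1, h2, b, rfl⟩ ⟨σ', h0', h1', h2', b', rfl⟩
    obtain ⟨τ, k0, k1, k2, e, he⟩ := horn1 σ σ' (.const _ z₀) (h0'.trans h1.symm) h2.symm h2'.symm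
    refine ⟨τ, k0.trans h0, k1.trans h1', k2, b + b' + e, ?_⟩
    rw [map_add, map_add, he, cst]
    abel
  neg_mem' := by
    rintro _ ⟨σ, h0, h1, h2, b, rfl⟩
    obtain ⟨τ, k0, k1, k2, e, he⟩ := horn2 σ (.const _ z₀) (.const _ z₀) h0.symm h2.symm rfl
    refine ⟨τ, k0.trans h1, k1, k2, -b - e, ?_⟩
    rw [map_sub, map_neg, he, cst]
    abel

theorem hurP_bd (z₀ : Z) (b : Ch Z) : bd b ∈ hurP z₀ := ⟨.const _ z₀, rfl, rfl, rfl, b, by simp [cst]⟩

/-- the degenerate triangle of an edge -/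
def hurS (p : C(Dl 2, Z)) : C(Dl 3, Z) := p.comp (dmap ![0, 0, 1])

theorem hurS_zero (p : C(Dl 2, Z)) : (hurS p).comp (face 0) = p := by
  rw [hurS, ContinuousMap.comp_assoc, face, dmap_comp,
    show ((![0, 0, 1] : Fin 3 → Fin 2) ∘ (0 : Fin 3).succAbove) = id by decide, dmap_id, ContinuousMap.comp_id]

theorem hurS_one (p : C(Dl 2, Z)) : (hurS p).comp (face 1) = p := by
  rw [hurS, ContinuousMap.comp_assoc, face, dmap_comp,
    show ((![0, 0, 1] : Fin 3 → Fin 2) ∘ (1 : Fin 3).succAbove) = id by decide, dmap_id, ContinuousMap.comp_id]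

theorem hurS_two (p : C(Dl 2, Z)) : (hurS p).comp (face 2) = .const _ (p (stdSimplex.vertex 0)) := by
  rw [hurS, ContinuousMap.comp_assoc, face, dmap_comp,
    show ((![0, 0, 1] : Fin 3 → Fin 2) ∘ (2 : Fin 3).succAbove) =
      (![0] : Fin 1 → Fin 2) ∘ (fun _ : Fin 2 => (0 : Fin 1)) by decide, ← dmap_comp]
  ext1 t
  change p (dmap _ (dmap _ t)) = p _
  rw [Subsingleton.elim (dmap (fun _ : Fin 2 => (0 : Fin 1)) t) (stdSimplex.vertex 0)]
  exact congrArg p (stdSimplex.map_vertex _ _)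

theorem hurP_of_faces {z₀ : Z} (p : C(Dl 2, Z)) (hp : p (stdSimplex.vertex 0) = z₀) (τ : C(Dl 3, Z))
    (h0 : τ.comp (face 0) = p) (h1 : τ.comp (face 1) = p) (h2 : τ.comp (face 2) = .const _ z₀) :
    sx τ - cst 3 z₀ ∈ hurP z₀ := by
  obtain ⟨τ', k0, k1, k2, e, he⟩ := horn3 τ (hurS p) (hurS p) ((hurS_zero p).trans h0.symm)
    ((hurS_zero p).trans h1.symm) rfl
  rw [hurS_two, hp] at k1 k2
  refine ⟨τ', k0.trans h2, k1, k2, e, ?_⟩
  rw [he]
  abel

theorem hur_face_vertex (σ : C(Dl 3, Z)) (i : Fin 3) (j : Fin 2) :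
    σ.comp (face i) (stdSimplex.vertex j) = σ (stdSimplex.vertex (i.succAbove j)) :=
  congrArg σ (stdSimplex.map_vertex _ _)

theorem hurewicz [SimplyConnectedSpace Z] (z₀ : Z) {c : Ch Z} (hc : c ∈ Deg 3) (hb : bd c = 0) :
    ∃ σ : C(Dl 3, Z), (∀ t : Dl 3, (∃ i, t i = 0) → σ t = z₀) ∧ ∃ b, c = sx σ - cst 3 z₀ + bd b := by
  let p : Z → C(Dl 2, Z) := fun y => pedge (PathConnectedSpace.somePath z₀ y)
  have hp0 : ∀ y, p y (stdSimplex.vertex 0) = z₀ := fun y => pedge_zero _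
  have hp1 : ∀ y, p y (stdSimplex.vertex 1) = y := fun y => pedge_one _
  have hT : ∀ e : C(Dl 2, Z), ∃ τ : C(Dl 3, Z), τ.comp (face 0) = e ∧
      τ.comp (face 1) = p (e (stdSimplex.vertex 1)) ∧ τ.comp (face 2) = p (e (stdSimplex.vertex 0)) := fun e =>
    exists_triangle _ _ _ ((hp0 _).trans (hp0 _).symm) (hp1 _) (hp1 _).symm
  choose T hT0 hT1 hT2 using hT
  let Tl : Ch Z →ₗ[ℤ] Ch Z := lext fun k => match k with
    | 2 => fun e => sx (T e)
    | _ => fun _ => 0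
  have hTl : ∀ e : C(Dl 2, Z), Tl (sx e) = sx (T e) := fun e => lext_sx _ e
  have key : Deg 3 ≤ (hurP z₀).toIntSubmodule.comap (LinearMap.id - Tl.comp bd) := by
    refine Deg_le fun σ => ?_
    change sx σ - Tl (bd (sx σ)) ∈ hurP z₀
    rw [bd_sx_three, map_add, map_sub, hTl, hTl, hTl]
    obtain ⟨σ₁, a0, a1, a2, e₁, he₁⟩ := horn1 σ (T (σ.comp (face 1))) (T (σ.comp (face 2))) (hT0 _) (hT0 _)
      (by rw [hT2, hT2, hur_face_vertex, hur_face_vertex]; rfl)
    rw [hT1, hur_face_vertex] at a1 a2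
    obtain ⟨σ₂, b0, b1, b2, e₂, he₂⟩ := horn2 (T (σ.comp (face 0))) σ₁ (hurS (p (σ (stdSimplex.vertex 1))))
      (a0.trans (hT0 _).symm) (by rw [hurS_zero, hT2, hur_face_vertex]; rfl) (by rw [hurS_one, a2]; rfl)
    rw [hT1, hur_face_vertex] at b0
    rw [hurS_two, hp0] at b2
    have m1 := hurP_of_faces _ (hp0 _) σ₂ b0 (b1.trans a1) b2
    have m2 := hurP_of_faces _ (hp0 _) (hurS (p (σ (stdSimplex.vertex 1)))) (hurS_zero _) (hurS_one _)
      (by rw [hurS_two, hp0])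
    have m3 := (hurP z₀).add_mem ((hurP z₀).sub_mem m1 m2) (hurP_bd z₀ (e₁ - e₂))
    convert m3 using 1
    rw [map_sub, he₁, he₂]
    abel
  have h1 : c - Tl (bd c) ∈ hurP z₀ := key hc
  rw [hb, map_zero, sub_zero] at h1
  obtain ⟨σ, h0, h1, h2, b, rfl⟩ := h1
  refine ⟨σ, ?_, b, rfl⟩
  rintro t ⟨i, hi⟩
  obtain ⟨u, rfl⟩ := exists_face_of_eq_zero i t hi
  fin_cases i
  · exact ContinuousMap.congr_fun h0 u
  · exact ContinuousMap.congr_fun h1 u
  · exact ContinuousMap.congr_fun h2 u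

end

end Crest.Agent.R251.Top
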