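import Crest.Agent.R251.Top.Cov
import Crest.Agent.Lib.CWComb.Dual

/-!
# Row 251, topology: fundamental groups
-/

set_option autoImplicit false

open Set

namespace Crest.Agent.R251.Top

open Crest.Agent.Lib.CWComb

noncomputable section

variable {G : Type} [Group G]

open CategoryTheory in
/-- the universal path function (as in `CWComb.nonempty_lab`, with values in the fundamental group) -/
theorem exists_universal (B : Type) [TopologicalSpace B] [PathConnectedSpace B] :
    ∃ (K : Type) (_ : Group K) (κ : PathFun B K), Faithful κ := by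
  obtain ⟨x₀⟩ : Nonempty B := inferInstance
  let c : ∀ x : B, FundamentalGroupoid.mk x₀ ⟶ FundamentalGroupoid.mk x := fun x =>
    Path.Homotopic.Quotient.mk (PathConnectedSpace.somePath x₀ x)
  let m : ∀ {x y : B}, Path x y → (FundamentalGroupoid.mk x ⟶ FundamentalGroupoid.mk y) :=
    fun q => Path.Homotopic.Quotient.mk q
  let lp : ∀ {x y : B}, (FundamentalGroupoid.mk x ⟶ FundamentalGroupoid.mk y) →
      FundamentalGroup B x₀ := fun {x y} a => c x ≫ a ≫ inv (c y)
  refine ⟨FundamentalGroup B x₀, inferInstance,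
    { val := fun q => (lp (m q))⁻¹
      val_trans := fun {x y z} q₁ q₂ => ?_
      val_hom := fun h => by simp only [m, Path.Homotopic.Quotient.eq.2 h] },
    fun x y q q' h => ?_⟩
  · rw [← mul_inv_rev]
    congr 1
    have : m (q₁.trans q₂) = m q₁ ≫ m q₂ := rfl
    change _ = lp (m q₁) ≫ lp (m q₂)
    simp only [lp, this, Category.assoc, IsIso.inv_hom_id_assoc]
  · have h1 : c x ≫ m q ≫ inv (c y) = c x ≫ m q' ≫ inv (c y) := inv_injective h
    rw [cancel_epi, cancel_mono] at h1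
    exact Path.Homotopic.Quotient.eq.1 h1

section W2

variable {B : Type} [TopologicalSpace B] (W : W2 B)

/-- `exists_pathFun_of_cocycle W.O2 … W.t2` as in `W2.exists_mu2` (keep the formula on small paths, `locTriv_of_cover`), mapped
along `FreeGroup W.Ed ⧸ W.N →* G` -/
theorem exists_nu (π : W.Ed → G) (hrel : ∀ j, FreeGroup.lift π (W.rel j) = 1) :
    ∃ ν : PathFun B G, LocTriv ν ∧
      ∀ (x y : W.X1) (q : Path x y), ν.val (q.map continuous_subtype_val) = FreeGroup.lift π (W.mu1.val q) := by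
  obtain ⟨μ, hμ⟩ := exists_pathFun_of_cocycle W.O2 W.isOpen_O2 W.cover_O2 W.t2 W.t2_cocycle
  have hN : W.N ≤ (FreeGroup.lift π).ker :=
    Subgroup.normalClosure_le_normal (by rintro _ ⟨j, rfl⟩; exact hrel j)
  refine ⟨μ.map (QuotientGroup.lift W.N (FreeGroup.lift π) hN),
    (locTriv_of_cover W.O2 W.isOpen_O2 W.cover_O2 W.t2 hμ).map _, fun x y q => ?_⟩
  have key : μ.val (q.map continuous_subtype_val) = QuotientGroup.mk (W.mu1.val q) := by
    refine PathFun.eq_of_cover W.O1 W.isOpen_O1 W.cover_O1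
      (μ.comap ⟨Subtype.val, continuous_subtype_val⟩) (W.mu1.map (QuotientGroup.mk' W.N)) ?_ q
    intro i x y q hq
    rw [PathFun.comap_val, PathFun.map_val, W.mu1_small i q hq, hμ (.inl i)]
    · simp [W2.t2, W2.rr_X1]
    · intro s
      refine ⟨W.mem_O'_of_X1 (q s).2, ?_⟩
      change W.rr (q s) ∈ W.O1 i
      rw [W.rr_X1]; exact hq s
  rw [PathFun.map_val, key, QuotientGroup.lift_mk]

theorem pathConnected_W2 [Unique W.V] : PathConnectedSpace B := by
  have h : ∀ x : B, Joined x (W.vx default) := fun x =>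
    ⟨((W.tr2 x).trans ((W.tr (W.rr x)).map continuous_subtype_val)).cast rfl
      (congrArg W.vx (Subsingleton.elim _ _))⟩
  exact ⟨⟨W.vx default⟩, fun x y => (h x).trans (h y).symm⟩

/-- every word is read along a loop at the vertex; join `x`, `y` to the vertex (`tr2`, `tr`) -/
theorem full_W2 [Unique W.V] {π : W.Ed → G} (hs : Function.Surjective (FreeGroup.lift π)) {ν : PathFun B G}
    (hν : ∀ (x y : W.X1) (q : Path x y), ν.val (q.map continuous_subtype_val) = FreeGroup.lift π (W.mu1.val q)) :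
    Full ν := by
  have := pathConnected_W2 W
  have key : ∀ w : FreeGroup W.Ed, ∃ q : Path (W.vx1 default) (W.vx1 default), W.mu1.val q = w := by
    intro w
    induction w using FreeGroup.induction_on with
    | C1 => exact ⟨Path.refl _, W.mu1.val_refl _⟩
    | of e =>
      refine ⟨(W.ep e).cast (congrArg W.vx1 (Subsingleton.elim _ _))
        (congrArg W.vx1 (Subsingleton.elim _ _)), ?_⟩
      rw [← W.mu1_ep e]
      exact W.mu1.congr _ _ fun _ => rfl
    | inv_of e ih =>
      obtain ⟨q, h⟩ := ih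
      exact ⟨q.symm, by rw [W.mu1.val_symm, h]⟩
    | mul u v ihu ihv =>
      obtain ⟨q, h⟩ := ihu
      obtain ⟨q', h'⟩ := ihv
      exact ⟨q.trans q', by rw [W.mu1.val_trans, h, h']⟩
  intro x y g
  let a := PathConnectedSpace.somePath x (W.vx1 default : B)
  let b := PathConnectedSpace.somePath (W.vx1 default : B) y
  obtain ⟨w, hw⟩ := hs ((ν.val a)⁻¹ * g * (ν.val b)⁻¹)
  obtain ⟨q, rfl⟩ := key w
  refine ⟨a.trans ((q.map continuous_subtype_val).trans b), ?_⟩
  rw [ν.val_trans, ν.val_trans, hν, hw]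
  group

/-- With the universal `κ`: reduce to loops at the vertex inside `X1` (`exists_path_X1` for `κ`), there
`κ = lift (κ ∘ ep) ∘ mu1` (`val_eq_lift`), which kills the relators (`exists_face_potential`, cf. `nu_bl`, `lift_gen_rel`). -/
theorem faithful_W2 [Unique W.V] {π : W.Ed → G}
    (hk : (FreeGroup.lift π).ker ≤ Subgroup.normalClosure (range W.rel)) {ν : PathFun B G}
    (hν : ∀ (x y : W.X1) (q : Path x y), ν.val (q.map continuous_subtype_val) = FreeGroup.lift π (W.mu1.val q)) :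
    Faithful ν := by
  have := pathConnected_W2 W
  obtain ⟨K, _, κ, hκ⟩ := exists_universal B
  let κ₁ := κ.comap (⟨Subtype.val, continuous_subtype_val⟩ : C(W.X1, B))
  have hN : Subgroup.normalClosure (range W.rel) ≤
      (FreeGroup.lift fun e => κ₁.val (W.ep e)).ker := by
    refine Subgroup.normalClosure_le_normal ?_
    rintro _ ⟨j, rfl⟩
    have h1 : κ₁.val (W.bl j) = 1 := by
      obtain ⟨f, hf⟩ := W.exists_face_potential κ j
      change κ.val _ = 1
      rw [hf _ (fun u : unitInterval => Complex.exp (((2 * Real.pi * u : ℝ) : ℂ) * Complex.I))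
        (by fun_prop) fun u => rfl]
      simp [Complex.exp_two_pi_mul_I]
    have h := W.val_eq_lift κ₁ (W.bl j)
    rw [h1, eq_comm, mul_inv_eq_one, mul_eq_left] at h
    exact h
  intro x y q q' h
  let a := PathConnectedSpace.somePath (W.vx1 default : B) x
  obtain ⟨l, hl⟩ := W.exists_path_X1 κ (a.trans (q.trans (q'.symm.trans a.symm)))
  have h1 := ν.val_hom (hκ _ _ _ _ hl)
  rw [hν, ν.val_trans, ν.val_trans, ν.val_trans, ν.val_symm, ν.val_symm, h, mul_inv_cancel_left,
    mul_inv_cancel] at h1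
  have h2 := W.val_eq_lift κ₁ l
  rw [MonoidHom.mem_ker.1 (hN (hk h1)), mul_one, mul_inv_cancel] at h2
  have h3 := hl.symm.trans h2
  rw [κ.val_trans, κ.val_trans, κ.val_trans, κ.val_symm, κ.val_symm, ← mul_assoc, ← mul_assoc,
    mul_inv_eq_one, mul_assoc, mul_eq_left, mul_inv_eq_one] at h3
  exact hκ _ _ _ _ h3

end W2

section att

variable {P X V J : Type} [TopologicalSpace P] [TopologicalSpace X] [NormedAddCommGroup V] [NormedSpace ℝ V]
  {i : C(P, X)} {Φ : J → C(V, X)}

/-- the retraction of the neighbourhood `nb` (end of `exists_expand`) -/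
theorem exists_retr (hi : Topology.IsEmbedding i) (h : Att (range i) univ Φ) [Nonempty P] :
    ∃ r : X → P, ContinuousOn r (nb univ Φ) ∧ (∀ x, r (i x) = x) ∧
      ∀ j z, 1 / 2 < ‖z‖ → i (r (Φ j z)) = Φ j ((2 : ℝ) • z) := by
  obtain ⟨H, h1, h2⟩ := h.exists_expand
  have h3 : ∀ j z, H (1, ⟨Φ j z, trivial⟩) = Φ j ((2 : ℝ) • z) := fun j z => by
    rw [h2 1 j z, Icc.coe_one, one_add_one_eq_two]
  have h4 : ∀ x ∈ nb univ Φ, i (Function.invFun i (H (1, ⟨x, trivial⟩))) = H (1, ⟨x, trivial⟩) := by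
    intro x hx
    refine Function.invFun_eq ?_
    rcases h.cover x trivial with hA | ⟨j, z, -, rfl⟩
    · rw [h1 1 ⟨x, trivial⟩ hA]; exact hA
    · rw [h3]
      refine h.bdry j _ ?_
      rw [norm_smul, Real.norm_of_nonneg (by norm_num)]
      linarith [(h.mem_nb j z).1 hx]
  refine ⟨fun x => Function.invFun i (H (1, ⟨x, trivial⟩)), hi.isInducing.continuousOn_iff.2 ?_,
    fun x => ?_, fun j z hz => (h4 _ ((h.mem_nb j z).2 hz)).trans (h3 j z)⟩
  · refine ContinuousOn.congr (f := fun x => H (1, ⟨x, trivial⟩)) (Continuous.continuousOn ?_) h4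
    exact H.continuous.comp (continuous_const.prodMk (continuous_id.subtype_mk _))
  · show Function.invFun i (H (1, ⟨i x, trivial⟩)) = x
    rw [h1 1 ⟨i x, trivial⟩ (mem_range_self x)]
    exact Function.leftInverse_invFun hi.injective x

theorem pib_cell {A : Set X} (h : Att A univ Φ) (j : J) {W : Set V} (hW : IsOpen W)
    (hW1 : W ⊆ Metric.ball 0 1) : IsOpen (Φ j '' W) :=
  (Homeomorph.Set.univ X).isOpen_preimage.1 (h.isOpen_image j hW hW1)

theorem pib_ev {A : Set X} (h : Att A univ Φ) (j : J) {z₀ : V} (hz : ‖z₀‖ < 1) {p : X → Prop}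
    (hp : ∀ᶠ z in nhds z₀, p (Φ j z)) : ∀ᶠ y in nhds (Φ j z₀), p y := by
  obtain ⟨W, h1, h2, h3⟩ := mem_nhds_iff.1
    (Filter.inter_mem hp (Metric.isOpen_ball.mem_nhds (mem_ball_zero_iff.2 hz)))
  refine Filter.mem_of_superset ((pib_cell h j h2 fun z hz => (h1 hz).2).mem_nhds ⟨z₀, h3, rfl⟩) ?_
  rintro _ ⟨z, hz, rfl⟩
  exact (h1 hz).1

theorem pib_sec [LocallyPathConnectedSpace P] {ν : PathFun P G} {U : Set P} (hU : IsOpen U) {τ : P → G}
    (hτ : ∀ (x y : P) (q : Path x y), (∀ u, q u ∈ U) → ν.val q = (τ x)⁻¹ * τ y) {y : P} (hy : y ∈ U) :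
    ContinuousAt (fun y => (⟨y, τ y⟩ : Cov ν)) y := by
  refine tendsto_nhds.2 fun O hO hm => ?_
  have := covd_section hU hτ 1 hO
  simp only [one_mul] at this
  exact Filter.mem_of_superset (this.mem_nhds ⟨hy, hm⟩) fun _ h => h.2

/-- Van Kampen for cells whose attaching maps lift.  Cover `X` by the sets `nb ∩ r ⁻¹' U b` (`U b` open with a continuous section
`s b` of the covering) and the open cells; gauges `((s b (r x)).lb)⁻¹` and `((f j z).lb)⁻¹` at `Φ j z`; the cocycle is locally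
constant by `Cov.eventually_lb`; `exists_pathFun_of_cocycle`, `locTriv_of_cover`, `PathFun.eq_of_cover`, `Cov.val_lift`. -/
theorem exists_nu_att [LocallyPathConnectedSpace P] [Nonempty P] (hi : Topology.IsEmbedding i)
    (h : Att (range i) univ Φ) {ν : PathFun P G} (hν : LocTriv ν) (f : J → V → Cov ν)
    (hf : ∀ j, ContinuousOn (f j) {z | z ≠ 0}) (hr : ∀ j (c : ℝ) z, 0 < c → f j (c • z) = f j z)
    (hΦ : ∀ j z, 1 ≤ ‖z‖ → Φ j z = i (f j z).pj) :
    ∃ ν' : PathFun X G, LocTriv ν' ∧ ∀ (x y : P) (q : Path x y), ν'.val (q.map i.continuous) = ν.val q := by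
  obtain ⟨r, r1, r2, r3⟩ := exists_retr hi h
  choose U hU hb τ hτ using hν.exists_pot
  have hnb : IsOpen (nb univ Φ) := (Homeomorph.Set.univ X).isOpen_preimage.1 h.isOpen_nb
  have hψ : ∀ j, ∃ ψ : X → V, ∀ z, ‖z‖ < 1 → ψ (Φ j z) = z := fun j =>
    ⟨Function.invFunOn (Φ j) (Metric.ball 0 1), fun z hz => InjOn.leftInvOn_invFunOn
      (fun w _ w' hw' e => (h.eq_of_eq (mem_ball_zero_iff.1 hw') e).2) (mem_ball_zero_iff.2 hz)⟩
  choose ψ hψ using hψ
  let O : P ⊕ J → Set X := Sum.elim (fun b => nb univ Φ ∩ r ⁻¹' U b) fun j => Φ j '' Metric.ball 0 1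
  let t : P ⊕ J → X → G := Sum.elim (fun b x => (τ b (r x))⁻¹) fun j x => (f j (ψ j x)).lb⁻¹
  have hO : ∀ k, IsOpen (O k) := by
    rintro (b | j)
    · exact r1.isOpen_inter_preimage hnb (hU b)
    · exact pib_cell h j Metric.isOpen_ball subset_rfl
  have hP : ∀ b p, p ∈ U b → i p ∈ O (.inl b) := fun b p hp =>
    ⟨h.sub_nb (mem_range_self p), by rw [mem_preimage, r2]; exact hp⟩
  have hc : ∀ x, ∃ k, x ∈ O k := fun x => by
    rcases h.cover x trivial with ⟨p, rfl⟩ | ⟨j, z, hz, rfl⟩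
    · exact ⟨.inl p, hP p p (hb p)⟩
    · exact ⟨.inr j, z, mem_ball_zero_iff.2 hz, rfl⟩
  have hs : ∀ b x, x ∈ O (.inl b) → ContinuousAt (fun y => (⟨r y, τ b (r y)⟩ : Cov ν)) x := fun b x hx =>
    (pib_sec (hU b) (hτ b) hx.2).comp (r1.continuousAt (hnb.mem_nhds hx.1))
  have mix : ∀ b j x, x ∈ O (.inl b) → x ∈ O (.inr j) → ∀ᶠ y in nhds x,
      (t (.inl b) y)⁻¹ * t (.inr j) y = (t (.inl b) x)⁻¹ * t (.inr j) x := by
    rintro b j _ hx ⟨z₀, hz₀, rfl⟩
    have h1 : ‖z₀‖ < 1 := mem_ball_zero_iff.1 hz₀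
    have h2 : 1 / 2 < ‖z₀‖ := (h.mem_nb j z₀).1 hx.1
    have h3 : z₀ ≠ 0 := norm_pos_iff.1 (by linarith)
    have key := Cov.eventually_lb hν (a := fun z => (⟨r (Φ j z), τ b (r (Φ j z))⟩ : Cov ν)) (a' := f j)
      (z₀ := z₀) ((hs b _ hx).comp (Φ j).continuous.continuousAt)
      ((hf j).continuousAt (isOpen_ne.mem_nhds h3)) (by
        filter_upwards [(isOpen_lt continuous_const continuous_norm).mem_nhds h2] with z hz
        have hz' : 1 / 2 < ‖z‖ := hz
        refine hi.injective ((r3 j z hz').trans ?_)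
        rw [hΦ j _ (by rw [norm_smul, Real.norm_of_nonneg (by norm_num)]; linarith), hr j 2 z two_pos])
    refine pib_ev h j h1 ?_
    filter_upwards [key, (isOpen_lt continuous_norm continuous_const).mem_nhds h1] with z k1 k2
    simp only [t, Sum.elim_inl, Sum.elim_inr, inv_inv, hψ j z k2, hψ j z₀ h1]
    exact k1
  obtain ⟨μ, hμ⟩ := exists_pathFun_of_cocycle O hO hc t (by
    rintro (b | j) (b' | j') x hx hx'
    · have key := Cov.eventually_lb hν (hs b x hx) (hs b' x hx') (Filter.Eventually.of_forall fun _ => rfl)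
      simpa only [t, Sum.elim_inl, inv_inv] using key
    · exact mix b j' x hx hx'
    · filter_upwards [mix b' j x hx' hx] with y hy
      rw [← inv_inj, mul_inv_rev, mul_inv_rev, inv_inv, inv_inv, hy]
    · obtain ⟨z, -, rfl⟩ := hx
      obtain ⟨z', hz', e⟩ := hx'
      obtain ⟨rfl, -⟩ := h.eq_of_eq (mem_ball_zero_iff.1 hz') e.symm
      exact Filter.Eventually.of_forall fun y => by rw [inv_mul_cancel, inv_mul_cancel])
  refine ⟨μ, locTriv_of_cover O hO hc t hμ, fun x y q => ?_⟩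
  refine PathFun.eq_of_cover U hU (fun p => ⟨p, hb p⟩) (μ.comap i) ν (fun b x y p hp => ?_) q
  rw [PathFun.comap_val, hμ (.inl b) _ fun s => hP b _ (hp s), hτ b _ _ p hp]
  simp only [t, Sum.elim_inl, inv_inv, r2]

theorem pic_lift (hi : Topology.IsEmbedding i) {a b : P} (q : Path (i a) (i b)) (hq : ∀ u, q u ∈ range i) :
    ∃ q' : Path a b, q'.map i.continuous = q := by
  choose f hf using hq
  have hc : Continuous f := hi.continuous_iff.2 (by
    rw [show (i : P → X) ∘ f = q from funext hf]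
    exact q.continuous)
  exact ⟨⟨⟨f, hc⟩, hi.injective ((hf 0).trans q.source), hi.injective ((hf 1).trans q.target)⟩,
    Path.ext (funext hf)⟩

/-- Every point is joined to `P` by a track, and every path is homotopic to track, path in `P`, track: `path_induction` for the
cover by `nb` and the open cells (a cell `Φ j` is the image of the simply connected `V`; `{1 ≤ ‖z‖}` is path connected). -/
theorem exists_tracks (hi : Topology.IsEmbedding i) (h : Att (range i) univ Φ)
    (hV : IsPathConnected {z : V | 1 ≤ ‖z‖}) :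
    ∃ (r : X → P) (t : ∀ x, Path x (i (r x))), ∀ (x y : X) (q : Path x y), ∃ q' : Path (r x) (r y),
      (q.trans (t y)).Homotopic ((t x).trans (q'.map i.continuous)) := by
  obtain ⟨w₀, hw₀⟩ := hV.nonempty
  have hex : ∀ x : X, ∃ (a : P) (t : Path x (i a)), (x ∈ range i → ∀ u, t u = x) ∧
      ∀ j z, ‖z‖ < 1 → x = Φ j z → ∃ δ : Path z w₀, ∀ u, t u = Φ j (δ u) := by
    intro x
    rcases h.cover x trivial with ⟨a, rfl⟩ | ⟨j, z, hz, rfl⟩
    · exact ⟨a, Path.refl _, fun _ _ => rfl, fun j z hz e => (h.notMem j z hz ⟨a, e⟩).elim⟩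
    · obtain ⟨a, ha⟩ := h.bdry j w₀ hw₀
      refine ⟨a, ((PathConnectedSpace.somePath z w₀).map (Φ j).continuous).cast rfl ha,
        fun hx => (h.notMem j z hz hx).elim, fun j' z' hz' e => ?_⟩
      obtain ⟨rfl, rfl⟩ := h.inj j j' z z' hz hz' e
      exact ⟨PathConnectedSpace.somePath z w₀, fun _ => rfl⟩
  choose r t ht₁ ht₂ using hex
  have ht : ∀ j z, ∃ w, 1 ≤ ‖w‖ ∧ ∃ δ : Path z w, ∀ u, t (Φ j z) u = Φ j (δ u) := by
    intro j z
    rcases lt_or_ge ‖z‖ 1 with hz | hz
    · exact ⟨w₀, hw₀, ht₂ _ j z hz rfl⟩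
    · exact ⟨z, hz, Path.refl z, ht₁ _ (h.bdry j z hz)⟩
  let Q : ∀ {x y : X}, Path x y → Prop := fun {x y} q => ∃ q' : Path (r x) (r y),
    (q.trans (t y)).Homotopic ((t x).trans (q'.map i.continuous))
  have htrans : ∀ {x y z : X} (p : Path x y) (q : Path y z), Q p → Q q → Q (p.trans q) := by
    rintro x y z p q ⟨p', hp⟩ ⟨q', hq⟩
    refine ⟨p'.trans q', ?_⟩
    rw [Path.map_trans]
    exact (Path.Homotopic.trans_assoc _ _ _).trans <| ((Path.Homotopic.refl p).hcomp hq).trans <|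
      (Path.Homotopic.trans_assoc _ _ _).symm.trans <| (hp.hcomp (Path.Homotopic.refl _)).trans
        (Path.Homotopic.trans_assoc _ _ _)
  have hhom : ∀ {x y : X} {p q : Path x y}, p.Homotopic q → Q p → Q q := by
    rintro x y p q hpq ⟨p', hp⟩
    exact ⟨p', (hpq.symm.hcomp (Path.Homotopic.refl _)).trans hp⟩
  have hsymm : ∀ {x y : X} (p : Path x y), Q p → Q p.symm := by
    rintro x y p ⟨p', hp⟩
    refine ⟨p'.symm, ?_⟩
    rw [← Path.map_symm]
    rw [← Path.Homotopic.Quotient.eq] at hp ⊢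
    simp only [Path.Homotopic.Quotient.mk_trans, Path.Homotopic.Quotient.mk_symm] at hp ⊢
    rw [← Path.Homotopic.Quotient.trans_refl (.mk (t x)),
      ← Path.Homotopic.Quotient.trans_symm (.mk (p'.map i.continuous)), ← Path.Homotopic.Quotient.trans_assoc (.mk (t x)),
      ← hp, ← Path.Homotopic.Quotient.trans_assoc, ← Path.Homotopic.Quotient.trans_assoc,
      Path.Homotopic.Quotient.symm_trans, Path.Homotopic.Quotient.refl_trans]
  have hA : ∀ {x y : X} (q : Path x y), (∀ u, q u ∈ range i) → Q q := by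
    intro x y q hq
    have hx := ht₁ x (q.source ▸ hq 0)
    have hy := ht₁ y (q.target ▸ hq 1)
    have ex : i (r x) = x := (t x).target.symm.trans (hx 1)
    have ey : i (r y) = y := (t y).target.symm.trans (hy 1)
    obtain ⟨q', hq'⟩ := pic_lift hi (q.cast ex ey) hq
    refine ⟨q', ?_⟩
    rw [hq', show t x = (Path.refl x).cast rfl ex from Path.ext (funext hx),
      show t y = (Path.refl y).cast rfl ey from Path.ext (funext hy)]
    exact ((Path.Homotopic.trans_refl q).trans (Path.Homotopic.refl_trans q).symm).pathCast rfl ey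
  have hcell : ∀ j {x y : X} (q : Path x y) (γ : C(unitInterval, V)), (∀ u, q u = Φ j (γ u)) → Q q := by
    intro j x y q γ hq
    obtain rfl : x = Φ j (γ 0) := q.source.symm.trans (hq 0)
    obtain rfl : y = Φ j (γ 1) := q.target.symm.trans (hq 1)
    obtain ⟨w, hw, δ, hδ⟩ := ht j (γ 0)
    obtain ⟨w', hw', δ', hδ'⟩ := ht j (γ 1)
    obtain ⟨β, hβ⟩ := hV.joinedIn w hw w' hw'
    have e : i (r (Φ j (γ 0))) = Φ j w := by rw [← (t _).target, hδ, δ.target]
    have e' : i (r (Φ j (γ 1))) = Φ j w' := by rw [← (t _).target, hδ', δ'.target]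
    obtain ⟨q', hq'⟩ := pic_lift hi ((β.map (Φ j).continuous).cast e e') fun u => h.bdry j _ (hβ u)
    refine ⟨q', ?_⟩
    have hh := (SimplyConnectedSpace.paths_homotopic ((⟨γ, rfl, rfl⟩ : Path (γ 0) (γ 1)).trans δ') (δ.trans β)).map (Φ j)
    rw [Path.map_trans, Path.map_trans] at hh
    rw [hq', show t (Φ j (γ 0)) = (δ.map (Φ j).continuous).cast rfl e from Path.ext (funext hδ),
      show t (Φ j (γ 1)) = (δ'.map (Φ j).continuous).cast rfl e' from Path.ext (funext hδ'),
      show q = (⟨γ, rfl, rfl⟩ : Path (γ 0) (γ 1)).map (Φ j).continuous from Path.ext (funext hq)]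
    exact hh.pathCast rfl e'
  obtain ⟨H, hH₁, hH₂⟩ := h.exists_expand
  let H' : C(unitInterval × X, X) := H.comp ⟨fun p => (p.1, ⟨p.2, trivial⟩), by fun_prop⟩
  have hH0 : ∀ x, H' (0, x) = x := fun x => by
    rcases h.cover x trivial with hx | ⟨j, z, -, rfl⟩
    · exact hH₁ 0 ⟨x, trivial⟩ hx
    · exact (hH₂ 0 j z).trans (by simp)
  let F : (ContinuousMap.id X).Homotopy (H'.comp ⟨fun x => (1, x), by fun_prop⟩) := ⟨H', hH0, fun _ => rfl⟩
  have hF : ∀ x, Q (F.evalAt x) := fun x => by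
    rcases h.cover x trivial with hx | ⟨j, z, -, rfl⟩
    · exact hA _ fun u => (hH₁ u ⟨x, trivial⟩ hx).symm ▸ hx
    · exact hcell j _ ⟨fun u => (1 + (u : ℝ)) • z, by fun_prop⟩ fun u => hH₂ u j z
  refine ⟨r, t, fun x y q => path_induction (fun k : Option J => k.elim (nb univ Φ) fun j => Φ j '' Metric.ball 0 1)
    ?_ (fun x => ?_) Q htrans hhom ?_ q⟩
  · rintro (_ | j)
    · exact (Homeomorph.Set.univ X).symm.isOpen_preimage.2 h.isOpen_nb
    · exact (Homeomorph.Set.univ X).symm.isOpen_preimage.2 (h.isOpen_image j Metric.isOpen_ball subset_rfl)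
  · rcases h.cover x trivial with hx | ⟨j, z, hz, rfl⟩
    · exact ⟨none, h.sub_nb hx⟩
    · exact ⟨some j, z, mem_ball_zero_iff.2 hz, rfl⟩
  · rintro (_ | j) x y q hq
    · have h1 : Q (q.map (H'.comp ⟨fun x => (1, x), by fun_prop⟩).continuous) := by
        refine hA _ fun u => ?_
        change H (1, ⟨q u, trivial⟩) ∈ range i
        have h2 : q u ∈ nb univ Φ := hq u
        generalize q u = x' at h2
        rcases h.cover x' trivial with hx | ⟨j, z, -, rfl⟩
        · rw [hH₁ 1 ⟨x', trivial⟩ hx]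
          exact hx
        · rw [hH₂ 1 j z]
          refine h.bdry j _ ?_
          have := (h.mem_nb j z).1 h2
          rw [norm_smul, Icc.coe_one, Real.norm_eq_abs, abs_of_pos (by norm_num)]
          linarith
      have h2 := hhom (Path.Homotopic.map_trans_evalAt F q).symm (htrans _ _ (hF x) h1)
      exact hhom ((Path.Homotopic.trans_assoc _ _ _).trans
        (((Path.Homotopic.refl _).hcomp (Path.Homotopic.trans_symm _)).trans (Path.Homotopic.trans_refl _)))
        (htrans _ _ h2 (hsymm _ (hF y)))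
    · have hq' : ∀ u, ∃ z : Metric.ball (0 : V) 1, (Φ j).comp (incl (Metric.ball (0 : V) 1)) z = q u := fun u => by
        obtain ⟨z, hz, e⟩ := hq u
        exact ⟨⟨z, hz⟩, e⟩
      choose γ hγ using hq'
      have hc : Continuous γ := (h.isEmbedding_ball j).continuous_iff.2 (by
        rw [show ((Φ j).comp (incl (Metric.ball (0 : V) 1)) : Metric.ball (0 : V) 1 → X) ∘ γ = q from funext hγ]
        exact q.continuous)
      exact hcell j q ⟨fun u => γ u, continuous_subtype_val.comp hc⟩ fun u => (hγ u).symm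

theorem full_att (hi : Topology.IsEmbedding i) (h : Att (range i) univ Φ) (hV : IsPathConnected {z : V | 1 ≤ ‖z‖})
    {ν : PathFun P G} {ν' : PathFun X G} (hν : ∀ (x y : P) (q : Path x y), ν'.val (q.map i.continuous) = ν.val q)
    (hf : Full ν) : Full ν' := by
  obtain ⟨r, t, -⟩ := exists_tracks hi h hV
  intro x y g
  obtain ⟨q, hq⟩ := hf (r x) (r y) ((ν'.val (t x))⁻¹ * g * ν'.val (t y))
  refine ⟨(t x).trans ((q.map i.continuous).trans (t y).symm), ?_⟩
  rw [ν'.val_trans, ν'.val_trans, ν'.val_symm, hν, hq]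
  group

theorem faithful_att (hi : Topology.IsEmbedding i) (h : Att (range i) univ Φ)
    (hV : IsPathConnected {z : V | 1 ≤ ‖z‖}) {ν : PathFun P G} {ν' : PathFun X G}
    (hν : ∀ (x y : P) (q : Path x y), ν'.val (q.map i.continuous) = ν.val q) (hf : Faithful ν) : Faithful ν' := by
  obtain ⟨r, t, ht⟩ := exists_tracks hi h hV
  intro x y q₁ q₂ e
  obtain ⟨p₁, h₁⟩ := ht x y q₁
  obtain ⟨p₂, h₂⟩ := ht x y q₂
  have e₁ := ν'.val_hom h₁
  have e₂ := ν'.val_hom h₂
  rw [ν'.val_trans, ν'.val_trans, hν] at e₁ e₂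
  have h₃ := (hf _ _ p₁ p₂ (mul_left_cancel (e₁.symm.trans (e ▸ e₂)))).map i
  have h₄ := (h₁.trans (((Path.Homotopic.refl _).hcomp h₃).trans h₂.symm)).hcomp (Path.Homotopic.refl (t y).symm)
  have h₅ : ∀ q : Path x y, ((q.trans (t y)).trans (t y).symm).Homotopic q := fun q =>
    (Path.Homotopic.trans_assoc _ _ _).trans
      (((Path.Homotopic.refl _).hcomp (Path.Homotopic.trans_symm _)).trans (Path.Homotopic.trans_refl _))
  exact (h₅ q₁).symm.trans (h₄.trans (h₅ q₂))

theorem isPathConnected_compl_ball : IsPathConnected {z : Fin 3 → ℝ | 1 ≤ ‖z‖} := by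
  have h := isPathConnected_compl_singleton_of_one_lt_rank (E := Fin 3 → ℝ) (by simp) 0
  have hc : ContinuousOn (fun z : Fin 3 → ℝ => max 1 ‖z‖⁻¹ • z) {0}ᶜ :=
    ((continuous_const.max continuous_id).comp_continuousOn
      (continuous_norm.continuousOn.inv₀ fun z hz => norm_ne_zero_iff.2 hz)).smul continuousOn_id
  convert h.image' hc using 1
  ext z
  constructor
  · intro hz
    have hz' : 1 ≤ ‖z‖ := hz
    refine ⟨z, norm_pos_iff.1 (one_pos.trans_le hz'), ?_⟩
    simp only [max_eq_left (inv_le_one_of_one_le₀ hz'), one_smul]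
  · rintro ⟨w, hw, rfl⟩
    have hw' : 0 < ‖w‖ := norm_pos_iff.2 hw
    change 1 ≤ ‖max 1 ‖w‖⁻¹ • w‖
    rw [norm_smul, Real.norm_eq_abs, abs_of_pos (one_pos.trans_le (le_max_left _ _)), ← inv_mul_cancel₀ hw'.ne']
    exact mul_le_mul_of_nonneg_right (le_max_right _ _) hw'.le

end att

end

end Crest.Agent.R251.Top
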