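import Crest.Agent.R251.Top.Att
import Crest.Agent.Lib.CWComb.Face

/-!
# Row 251, topology: building compact metric complexes
-/

set_option autoImplicit false

open Set Metric

namespace Crest.Agent.R251.Top

open Crest.Agent.Lib.CWComb

noncomputable section

/-- Embed `A` isometrically into `N = ℓ^∞(ℕ, ℝ)` (`kuratowskiEmbedding`) and take in `N × (J → V × ℝ)` the union of `A × 0` and
the ranges of `Φ j z = (min 1 ‖z‖ • κ (f j (‖z‖⁻¹ • z)), Pi.single j (max 0 (1 - ‖z‖) • (z, 1)))` (continuous at `0` as `A` is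
bounded).  The openness axiom holds because `A` and the closed balls are compact and `J` is finite. -/
theorem exists_attach (A : Type) [MetricSpace A] [CompactSpace A] (V : Type) [NormedAddCommGroup V] [NormedSpace ℝ V]
    [ProperSpace V] (J : Type) [Finite J] (f : J → V → A) (hf : ∀ j, ContinuousOn (f j) {z | 1 ≤ ‖z‖})
    (hr : ∀ j z (c : ℝ), 1 ≤ ‖z‖ → 1 ≤ c → f j (c • z) = f j z) :
    ∃ (B : Type) (_ : MetricSpace B) (_ : CompactSpace B) (i : C(A, B)) (Φ : J → C(V, B)),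
      Topology.IsEmbedding i ∧ Att (range i) univ Φ ∧ ∀ j z, 1 ≤ ‖z‖ → Φ j z = i (f j z) := by
  classical
  let _ := Fintype.ofFinite J
  let κ := kuratowskiEmbedding A
  have hκ : Isometry κ := kuratowskiEmbedding.isometry A
  obtain ⟨C, hC⟩ := (isCompact_range hκ.continuous).isBounded.exists_norm_le
  have hn : ∀ z : V, z ≠ 0 → ‖‖z‖⁻¹ • z‖ = 1 := fun z hz => norm_smul_inv_norm (𝕜 := ℝ) hz
  have hg : ∀ j, Continuous fun z : V => min 1 ‖z‖ • κ (f j (‖z‖⁻¹ • z)) := fun j => by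
    refine continuous_iff_continuousAt.2 fun z => ?_
    by_cases hz : z = 0
    · subst hz
      rw [ContinuousAt, norm_zero, min_eq_right zero_le_one, zero_smul]
      refine squeeze_zero_norm (a := fun z : V => ‖z‖ * C) (fun z => ?_) ?_
      · rw [norm_smul, Real.norm_of_nonneg (le_min zero_le_one (norm_nonneg _))]
        exact mul_le_mul (min_le_right _ _) (hC _ (mem_range_self _)) (norm_nonneg _) (norm_nonneg _)
      · have : Continuous fun z : V => ‖z‖ * C := by fun_prop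
        simpa using this.tendsto 0
    · refine ContinuousAt.smul (f := fun z : V => min 1 ‖z‖) (by fun_prop) (hκ.continuous.continuousAt.comp ?_)
      have h1 : ContinuousOn (fun z : V => f j (‖z‖⁻¹ • z)) {z | z ≠ 0} :=
        (hf j).comp ((continuous_norm.continuousOn.inv₀ fun z hz => norm_ne_zero_iff.2 hz).smul continuousOn_id)
          fun z hz => (hn z hz).ge
      exact h1.continuousAt (isOpen_ne.mem_nhds hz)
  let F : J → V → lp (fun _ : ℕ => ℝ) ⊤ × (J → V × ℝ) := fun j z =>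
    (min 1 ‖z‖ • κ (f j (‖z‖⁻¹ • z)), Pi.single j (max 0 (1 - ‖z‖) • (z, (1 : ℝ))))
  have hF : ∀ j, Continuous (F j) := fun j =>
    (hg j).prodMk ((continuous_single j).comp (by fun_prop))
  let i₀ : A → lp (fun _ : ℕ => ℝ) ⊤ × (J → V × ℝ) := fun a => (κ a, 0)
  have hi₀ : Topology.IsEmbedding i₀ := (isEmbedding_prodMkLeft 0).comp hκ.isEmbedding
  have hout : ∀ j z, 1 ≤ ‖z‖ → F j z = i₀ (f j z) := fun j z hz => by
    have hz0 : z ≠ 0 := norm_pos_iff.1 (zero_lt_one.trans_le hz)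
    have := hr j (‖z‖⁻¹ • z) ‖z‖ (hn z hz0).ge hz
    rw [smul_inv_smul₀ (norm_ne_zero_iff.2 hz0)] at this
    simp only [F, i₀, min_eq_left hz, one_smul, max_eq_left (sub_nonpos.2 hz), zero_smul, Pi.single_zero, this]
  have hin : ∀ j z, ‖z‖ < 1 → (F j z).2 j = (1 - ‖z‖) • (z, (1 : ℝ)) := fun j z hz => by
    simp only [F, Pi.single_eq_same, max_eq_right (sub_pos.2 hz).le]
  let S : Set (lp (fun _ : ℕ => ℝ) ⊤ × (J → V × ℝ)) := range i₀ ∪ ⋃ j, F j '' closedBall 0 1
  have hS : IsCompact S := (isCompact_range hi₀.continuous).union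
    (isCompact_iUnion fun j => (isCompact_closedBall 0 1).image (hF j))
  have hFS : ∀ j z, F j z ∈ S := fun j z => by
    rcases le_total 1 ‖z‖ with h | h
    · exact .inl ⟨_, (hout j z h).symm⟩
    · exact .inr (mem_iUnion.2 ⟨j, z, mem_closedBall_zero_iff.2 h, rfl⟩)
  let i : C(A, S) := ⟨fun a => ⟨i₀ a, .inl ⟨a, rfl⟩⟩, hi₀.continuous.subtype_mk _⟩
  let Φ : J → C(V, S) := fun j => ⟨fun z => ⟨F j z, hFS j z⟩, (hF j).subtype_mk _⟩
  have hΦ : ∀ j z, 1 ≤ ‖z‖ → Φ j z = i (f j z) := fun j z hz => Subtype.ext (hout j z hz)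
  have hcov : ∀ x : S, x ∈ range i ∨ ∃ j z, ‖z‖ < 1 ∧ x = Φ j z := by
    rintro ⟨x, ⟨a, rfl⟩ | hx⟩
    · exact .inl ⟨a, rfl⟩
    · obtain ⟨j, z, -, rfl⟩ := mem_iUnion.1 hx
      rcases lt_or_ge ‖z‖ 1 with h | h
      · exact .inr ⟨j, z, h, rfl⟩
      · exact .inl ⟨f j z, (hΦ j z h).symm⟩
  refine ⟨S, inferInstance, isCompact_iff_compactSpace.1 hS, i, Φ, hi₀.codRestrict S _,
    ⟨subset_univ _, fun _ _ => mem_univ _, fun j z hz => ⟨_, (hΦ j z hz).symm⟩, fun j z c hz hc => ?_,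
      fun j z hz => ?_, fun j j' z z' hz hz' e => ?_, fun x _ => hcov x, fun O hA hO => ?_⟩, hΦ⟩
  · rw [hΦ j z hz, hΦ j (c • z), hr j z c hz hc]
    rw [norm_smul, Real.norm_of_nonneg (zero_le_one.trans hc)]
    exact one_le_mul_of_one_le_of_one_le hc hz
  · rintro ⟨a, ha⟩
    have h1 : (0 : V × ℝ) = (F j z).2 j := congrArg (fun x : S => x.1.2 j) ha
    rw [hin j z hz] at h1
    have h2 := congrArg Prod.snd h1
    simp only [Prod.snd_zero, Prod.smul_snd, smul_eq_mul, mul_one] at h2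
    linarith
  · have h1 : (F j z).2 j = (F j' z').2 j := congrArg (fun x : S => x.1.2 j) e
    by_cases hj : j = j'
    · subst hj
      rw [hin j z hz, hin j z' hz'] at h1
      have h2 := congrArg Prod.snd h1
      have h3 := congrArg Prod.fst h1
      simp only [Prod.smul_snd, smul_eq_mul, mul_one, Prod.smul_fst] at h2 h3
      rw [← h2] at h3
      exact ⟨rfl, smul_right_injective V (sub_pos.2 hz).ne' h3⟩
    · rw [hin j z hz] at h1
      simp only [F, Pi.single_eq_of_ne hj] at h1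
      have h2 := congrArg Prod.snd h1
      simp only [Prod.snd_zero, Prod.smul_snd, smul_eq_mul, mul_one] at h2
      linarith
  · refine IsOpen.preimage continuous_subtype_val (isClosed_compl_iff.1 ?_)
    have h1 : IsOpen (i ⁻¹' O) := hA.preimage (i.continuous.rangeFactorization)
    have : Oᶜ = i '' (i ⁻¹' O)ᶜ ∪ ⋃ j, Φ j '' (closedBall 0 1 ∩ (Φ j ⁻¹' O)ᶜ) := by
      ext x
      constructor
      · intro hx
        rcases hcov x with ⟨a, rfl⟩ | ⟨j, z, hz, rfl⟩
        · exact .inl ⟨a, hx, rfl⟩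
        · exact .inr (mem_iUnion.2 ⟨j, z, ⟨mem_closedBall_zero_iff.2 hz.le, hx⟩, rfl⟩)
      · rintro (⟨a, ha, rfl⟩ | hx)
        · exact ha
        · obtain ⟨j, z, hz, rfl⟩ := mem_iUnion.1 hx
          exact hz.2
    rw [this]
    exact ((h1.isClosed_compl.isCompact.image i.continuous).union (isCompact_iUnion fun j =>
      ((isCompact_closedBall 0 1).inter_right (hO j).isClosed_compl).image (Φ j).continuous)).isClosed

/-- `W2` with the index types as parameters -/
structure W2D (X : Type) [TopologicalSpace X] (V Ed Fc : Type) where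
  vx : V → X
  ed : Ed → C(ℝ, X)
  fc : Fc → C(ℂ, X)
  src : Ed → V
  tgt : Ed → V
  ed_le : ∀ e s, s ≤ -1 → ed e s = vx (src e)
  ed_ge : ∀ e s, 1 ≤ s → ed e s = vx (tgt e)
  fc_ge : ∀ j z, 1 ≤ ‖z‖ → fc j z = fc j (z / (‖z‖ : ℂ))
  fc_mem : ∀ j z, 1 ≤ ‖z‖ → (∃ v, fc j z = vx v) ∨ ∃ e s, |s| < 1 ∧ fc j z = ed e s
  cover : ∀ x, (∃ v, x = vx v) ∨ (∃ e s, |s| < 1 ∧ x = ed e s) ∨ ∃ j z, ‖z‖ < 1 ∧ x = fc j z
  vx_inj : Function.Injective vx
  ed_inj : ∀ e e' s s', |s| < 1 → |s'| < 1 → ed e s = ed e' s' → e = e' ∧ s = s'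
  fc_inj : ∀ j j' z z', ‖z‖ < 1 → ‖z'‖ < 1 → fc j z = fc j' z' → j = j' ∧ z = z'
  vx_ne_ed : ∀ v e s, |s| < 1 → vx v ≠ ed e s
  vx_ne_fc : ∀ v j z, ‖z‖ < 1 → vx v ≠ fc j z
  ed_ne_fc : ∀ e s j z, |s| < 1 → ‖z‖ < 1 → ed e s ≠ fc j z
  closed2 : ∀ A : Set X, (∀ e, IsClosed (ed e ⁻¹' A)) → (∀ j, IsClosed (fc j ⁻¹' A)) → IsClosed A
  closed1 : ∀ A : Set X, (∀ x ∈ A, (∃ v, x = vx v) ∨ ∃ e s, |s| < 1 ∧ x = ed e s) →
    (∀ e, IsClosed (ed e ⁻¹' A)) → IsClosed A

/-- the underlying `W2` -/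
abbrev W2D.toW2 {X : Type} [TopologicalSpace X] {V Ed Fc : Type} (W : W2D X V Ed Fc) : W2 X :=
  ⟨V, Ed, Fc, W.vx, W.ed, W.fc, W.src, W.tgt, W.ed_le, W.ed_ge, W.fc_ge, W.fc_mem, W.cover, W.vx_inj, W.ed_inj, W.fc_inj,
    W.vx_ne_ed, W.vx_ne_fc, W.ed_ne_fc, W.closed2, W.closed1⟩

/-- a loop as a map of the punctured plane: `z ↦ γ (fract (arg z / 2π))` (a `2π`-periodic continuous function of the angle) -/
theorem exists_loop_map {A : Type} [TopologicalSpace A] {a : A} (γ : Path a a) :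
    ∃ f : ℂ → A, ContinuousOn f {z | z ≠ 0} ∧ (∀ (c : ℝ) z, 0 < c → f (c • z) = f z) ∧
      ∀ u : unitInterval, f (Complex.exp (((2 * Real.pi * u : ℝ) : ℂ) * Complex.I)) = γ u := by
  haveI : Fact (0 < 2 * Real.pi) := ⟨Real.two_pi_pos⟩
  have hpi : (2 * Real.pi) ≠ 0 := Real.two_pi_pos.ne'
  let g : ℝ → A := fun t => γ.extend (t / (2 * Real.pi))
  have hg : Continuous g := γ.continuous_extend.comp (continuous_id.div_const _)
  let F : Real.Angle → A := AddCircle.liftIco (2 * Real.pi) 0 g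
  have hF : Continuous F := AddCircle.liftIco_zero_continuous (by simp [g, hpi]) hg.continuousOn
  have hFv : ∀ t ∈ Ico 0 (2 * Real.pi), F (t : Real.Angle) = g t := fun t ht =>
    AddCircle.liftIco_zero_coe_apply ht
  refine ⟨fun z => F (Complex.arg z : Real.Angle), fun z hz => ?_, fun c z hc => ?_, fun u => ?_⟩
  · exact (hF.continuousAt.comp (Complex.continuousAt_arg_coe_angle hz)).continuousWithinAt
  · show F _ = F _
    rw [Complex.real_smul, Complex.arg_real_mul _ hc]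
  · show F _ = _
    rw [Complex.arg_exp_mul_I, Real.Angle.coe_toIocMod]
    rcases eq_or_lt_of_le u.2.2 with h | h
    · have hu : u = 1 := Subtype.ext h
      subst hu
      rw [Icc.coe_one, mul_one, Real.Angle.coe_two_pi, ← Real.Angle.coe_zero,
        hFv 0 ⟨le_rfl, Real.two_pi_pos⟩]
      simp [g]
    · rw [hFv _ ⟨mul_nonneg Real.two_pi_pos.le u.2.1, by nlinarith [Real.two_pi_pos]⟩]
      show γ.extend _ = _
      rw [mul_div_cancel_left₀ _ hpi, Path.extend_extends']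

/-- a loop reading a given word -/
theorem exists_word_loop {A S : Type} [TopologicalSpace A] {a : A} (ep : S → Path a a) (w : FreeGroup S) :
    ∃ γ : Path a a, ∀ (K : Type) [Group K] (κ : PathFun A K),
      κ.val γ = FreeGroup.lift (fun s => κ.val (ep s)) w := by
  induction w using FreeGroup.induction_on with
  | C1 => exact ⟨Path.refl a, fun K _ κ => by rw [κ.val_refl, map_one]⟩
  | of s => exact ⟨ep s, fun K _ κ => by rw [FreeGroup.lift_apply_of]⟩
  | inv_of s h =>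
    obtain ⟨γ, hγ⟩ := h
    exact ⟨γ.symm, fun K _ κ => by rw [κ.val_symm, hγ, map_inv]⟩
  | mul x y hx hy =>
    obtain ⟨γ, hγ⟩ := hx
    obtain ⟨δ, hδ⟩ := hy
    exact ⟨γ.trans δ, fun K _ κ => by rw [κ.val_trans, hγ, hδ, map_mul]⟩

/-- The presentation complex: `exists_attach` twice, starting from a point.  `rel`: pull `mu1` back along the map from the
one-dimensional complex to `W.toW2.X1` and use `mu1_ep`. -/
theorem exists_presW (S R : Type) [Finite S] [Finite R] (rel : R → FreeGroup S) :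
    ∃ (P : Type) (_ : MetricSpace P) (_ : CompactSpace P) (W : W2D P Unit S R), ∀ r, W.toW2.rel r = rel r := by
  obtain ⟨B, _, _, i₁, Φ₁, -, h₁, hb₁⟩ := exists_attach Unit ℝ S (fun _ _ => ())
    (fun _ => continuousOn_const) (fun _ _ _ _ _ => rfl)
  have hb₁' : ∀ s (t : ℝ), 1 ≤ |t| → Φ₁ s t = i₁ () := fun s t ht => hb₁ s t ht
  let ep : S → Path (i₁ ()) (i₁ ()) := fun s =>
    { toFun := fun u => Φ₁ s (2 * u - 1)
      continuous_toFun := by fun_prop
      source' := hb₁' s _ (by simp)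
      target' := hb₁' s _ (by simp; norm_num) }
  choose γ hγ using fun r => exists_word_loop ep (rel r)
  choose f hfc hfr hfv using fun r => exists_loop_map (γ r)
  obtain ⟨P, _, _, i₂, Φ₂, hi₂, h₂, hb₂⟩ := exists_attach B ℂ R f
    (fun r => (hfc r).mono fun z (hz : 1 ≤ ‖z‖) h0 => by
      rw [h0, norm_zero] at hz; norm_num at hz)
    (fun r z c _ hc => hfr r c z (by linarith))
  have hcl : Topology.IsClosedEmbedding i₂ := i₂.continuous.isClosedEmbedding hi₂.injective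
  have hcov₁ : ∀ x : B, x = i₁ () ∨ ∃ e s, |s| < 1 ∧ x = Φ₁ e s := by
    intro x
    rcases h₁.cover x (mem_univ x) with ⟨_, rfl⟩ | ⟨e, s, hs, rfl⟩
    · exact .inl rfl
    · exact .inr ⟨e, s, hs, rfl⟩
  have hX1 : ∀ x : B, (∃ _v : Unit, i₂ x = i₂ (i₁ ())) ∨ ∃ e s, |s| < 1 ∧ i₂ x = (i₂.comp (Φ₁ e)) s := by
    intro x
    rcases hcov₁ x with rfl | ⟨e, s, hs, rfl⟩
    · exact .inl ⟨(), rfl⟩
    · exact .inr ⟨e, s, hs, rfl⟩
  have hclosedB : ∀ A : Set P, (∀ e, IsClosed ((i₂.comp (Φ₁ e)) ⁻¹' A)) → IsClosed (A ∩ range i₂) := by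
    intro A hA
    have h1 : IsOpen ((i₂ ⁻¹' A)ᶜ) := by
      have hsub : Subsingleton (range i₁) := ⟨by
        rintro ⟨_, _, rfl⟩ ⟨_, _, rfl⟩
        rfl⟩
      have := h₁.isOpen (i₂ ⁻¹' A)ᶜ (isOpen_discrete _) fun e => (hA e).isOpen_compl
      exact (Homeomorph.Set.univ B).isOpen_preimage.1 this
    have h2 := hcl.isClosedMap _ (isOpen_compl_iff.1 h1)
    rwa [image_preimage_eq_inter_range] at h2
  let W : W2D P Unit S R :=
    { vx := fun _ => i₂ (i₁ ())
      ed := fun e => i₂.comp (Φ₁ e)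
      fc := Φ₂
      src := fun _ => ()
      tgt := fun _ => ()
      ed_le := fun e s hs => congrArg i₂ (hb₁' e s (le_abs.2 (.inr (by linarith))))
      ed_ge := fun e s hs => congrArg i₂ (hb₁' e s (le_abs.2 (.inl hs)))
      fc_ge := fun j z hz => by
        have h0 : ‖z‖ ≠ 0 := by linarith
        have h0' : (‖z‖ : ℂ) ≠ 0 := by exact_mod_cast h0
        have hn : ‖z / (‖z‖ : ℂ)‖ = 1 := by
          rw [norm_div, Complex.norm_real, norm_norm, div_self h0]
        have := h₂.rad j (z / (‖z‖ : ℂ)) ‖z‖ hn.ge hz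
        rw [← this, Complex.real_smul, mul_div_cancel₀ _ h0']
      fc_mem := fun j z hz => by
        rw [hb₂ j z hz]
        exact hX1 _
      cover := fun x => by
        rcases h₂.cover x (mem_univ x) with ⟨y, rfl⟩ | h
        · rcases hX1 y with h | h
          · exact .inl h
          · exact .inr (.inl h)
        · exact .inr (.inr h)
      vx_inj := fun _ _ _ => rfl
      ed_inj := fun e e' s s' hs hs' h => h₁.inj e e' s s' hs hs' (hi₂.injective h)
      fc_inj := h₂.inj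
      vx_ne_ed := fun _ e s hs h => h₁.notMem e s hs ⟨(), hi₂.injective h⟩
      vx_ne_fc := fun _ j z hz h => h₂.notMem j z hz ⟨_, h⟩
      ed_ne_fc := fun e s j z _ hz h => h₂.notMem j z hz ⟨_, h⟩
      closed2 := fun A hA hA' => by
        have h1 : IsOpen ((Subtype.val : range i₂ → P) ⁻¹' Aᶜ) := by
          have := (hclosedB A hA).isOpen_compl.preimage
            (continuous_subtype_val (p := fun x => x ∈ range i₂))
          convert this using 1
          ext x
          simp only [mem_preimage, mem_compl_iff, mem_inter_iff, x.2, and_true]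
        have := h₂.isOpen Aᶜ h1 fun j => (hA' j).isOpen_compl
        exact isOpen_compl_iff.1 ((Homeomorph.Set.univ P).isOpen_preimage.1 this)
      closed1 := fun A hA hA' => by
        have h1 := hclosedB A hA'
        rwa [inter_eq_left.2] at h1
        intro x hx
        rcases hA x hx with ⟨_, rfl⟩ | ⟨e, s, -, rfl⟩
        · exact ⟨_, rfl⟩
        · exact ⟨_, rfl⟩ }
  refine ⟨P, inferInstance, inferInstance, W, fun r => ?_⟩
  let g : C(B, W.toW2.X1) := ⟨fun x => ⟨i₂ x, hX1 x⟩, i₂.continuous.subtype_mk _⟩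
  have h1 := hγ r _ (W.toW2.mu1.comap g)
  have h2 : ∀ s, (W.toW2.mu1.comap g).val (ep s) = FreeGroup.of s := by
    intro s
    rw [PathFun.comap_val, ← W.toW2.mu1_ep s]
    exact W.toW2.mu1.congr _ _ fun u => rfl
  simp only [h2] at h1
  rw [FreeGroup.lift_of_apply, PathFun.comap_val] at h1
  rw [← h1]
  refine W.toW2.mu1.congr _ _ fun u => Subtype.ext ?_
  show Φ₂ r (Complex.exp (((2 * Real.pi * u : ℝ) : ℂ) * Complex.I)) = i₂ (γ r u)
  rw [hb₂ r _ (by rw [Complex.norm_exp_ofReal_mul_I]), hfv]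

end

end Crest.Agent.R251.Top
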