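import Crest.Agent.R251.Top.Bridge
import Crest.Agent.R251.Top.Space
import Crest.Agent.R251.Top.CW
import Crest.Agent.R251.Top.CellW
import Crest.Agent.R251.Top.Pi
import Crest.Agent.R251.Top.Hur

/-!
# Row 251, topology: the three steps of the construction
-/

set_option autoImplicit false

open Set Matrix

namespace Crest.Agent.R251.Top

open Crest.Agent.Lib.CWComb

noncomputable section

variable {G : Type} [Group G]

/-- the presentation complex and the cellular data of its universal cover -/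
theorem exists_base {S R : Type} [Fintype S] [DecidableEq S] [Fintype R] {gen : S → G} {rel : R → FreeGroup S}
    (hsurj : Function.Surjective (FreeGroup.lift gen))
    (hker : (FreeGroup.lift gen).ker = Subgroup.normalClosure (range rel)) :
    ∃ (P : Type) (_ : MetricSpace P) (_ : CompactSpace P) (_ : LocallyPathConnectedSpace P) (_ : Nonempty P)
      (B0 B1 : Set P) (Φ0 : Unit → C(Fin 0 → ℝ, P)) (Φ1 : S → C(ℝ, P)) (Φ2 : R → C(ℂ, P)) (ν : PathFun P G)
      (C : Cell2 G (Cov ν) univ Unit S R),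
      Att ∅ B0 Φ0 ∧ Att B0 B1 Φ1 ∧ Att B1 univ Φ2 ∧ LocTriv ν ∧ Full ν ∧ Faithful ν ∧
      C.m1 = edgeM gen (fun _ => ()) (fun _ => ()) ∧ C.m2 = foxM gen rel := by
  obtain ⟨P, _, _, W, hW⟩ := exists_presW S R rel
  have hW' : W.toW2.rel = rel := funext hW
  have := lpc_W2 W.toW2
  have hrel : ∀ j, FreeGroup.lift gen (W.toW2.rel j) = 1 := fun j => by
    rw [hW, ← MonoidHom.mem_ker, hker]
    exact Subgroup.subset_normalClosure (mem_range_self j)
  obtain ⟨ν, hν, hval⟩ := exists_nu W.toW2 gen hrel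
  have hgen : W.toW2.gen (Cov.lab hν) = gen := funext fun s =>
    (hval _ _ (W.toW2.ep s)).trans (by rw [W.toW2.mu1_ep]; exact FreeGroup.lift_apply_of)
  obtain ⟨C, h1, h2⟩ := exists_cell2 W.toW2 hν
  rw [hgen] at h1 h2
  exact ⟨P, inferInstance, inferInstance, inferInstance, ⟨W.vx ()⟩, _, _, _, _, _, ν, C, att0 W.toW2, att1 W.toW2,
    att2 W.toW2, hν, full_W2 W.toW2 hsurj hval, faithful_W2 W.toW2 (by rw [hW', hker]) hval, h1, by rw [h2, hW']⟩

/-- attaching three-cells along prescribed two-cycles -/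
theorem exists_cell3 {P J0 J1 J2 J : Type} [MetricSpace P] [CompactSpace P] [LocallyPathConnectedSpace P] [Nonempty P]
    [Fintype J0] [Fintype J1] [Fintype J2] [Fintype J] {ν : PathFun P G} (hν : LocTriv ν) (h₁ : Full ν)
    (h₂ : Faithful ν) (C : Cell2 G (Cov ν) univ J0 J1 J2) (s : Matrix J J2 (ZG G)) (hs : s * C.m2 = 0) :
    ∃ (X : Type) (_ : MetricSpace X) (_ : LocallyPathConnectedSpace X) (i : C(P, X)) (Φ : J → C(Fin 3 → ℝ, X))
      (ν' : PathFun X G) (U : Set (Cov ν')) (C' : Cell3 G (Cov ν') U J0 J1 J2 J),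
      Topology.IsEmbedding i ∧ Att (range i) univ Φ ∧ LocTriv ν' ∧ Full ν' ∧ Faithful ν' ∧
      C'.m1 = C.m1 ∧ C'.m2 = C.m2 ∧ C'.m3 = s := by
  have := Cov.simplyConnectedSpace hν h₁ h₂
  obtain ⟨e₀⟩ : Nonempty (Cov ν) := ⟨⟨Classical.arbitrary P, 1⟩⟩
  have hcyc : ∀ j, bd (lc C.c2 (s j)) = 0 := fun j => by
    have h0 : s j ᵥ* C.m2 = 0 := congrFun hs j
    rw [bd_lc, funext C.bd2, ← lc_vecMul, h0, map_zero]
  choose σ hσ b0 hb0 using fun j => hurewicz e₀ (lc_mem_Deg C.deg2 (s j)) (hcyc j)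
  choose f hfc hfr hfσ hfK using fun j => exists_sphere_map (σ j) (hσ j)
  have hfc' : ∀ j, ContinuousOn (f j) {z | 1 ≤ ‖z‖} := fun j =>
    (hfc j).mono fun z (hz : 1 ≤ ‖z‖) => norm_pos_iff.1 (one_pos.trans_le hz)
  obtain ⟨X, _, _, i, Φ, hi, hA, hΦ⟩ := exists_attach P (Fin 3 → ℝ) J (fun j z => (f j z).pj)
    (fun j => Cov.continuous_pj.comp_continuousOn (hfc' j))
    (fun j z c _ hc => by rw [hfr j c z (one_pos.trans_le hc)])
  have : LocallyPathConnectedSpace (range i) := hi.toHomeomorph.symm.isOpenEmbedding.locallyPathConnectedSpace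
  have := hA.locallyPathConnectedSpace
  obtain ⟨ν', hν', hval⟩ := exists_nu_att hi hA hν f hfc hfr hΦ
  have hι := isEmbedding_cmap hν' hi hval
  have hιG := cmap_smul i hval
  have hU : cmap i hval '' univ = Cov.pj ⁻¹' range i := by
    rw [← image_univ, ← image_cmap hval, preimage_univ]
  have hιp := cmap_pj i hval
  have hιl := cmap_lb i hval
  generalize cmap i hval = ι at hι hιG hU hιp hιl
  obtain ⟨C2, e1, e2, e3⟩ := C.exists_map hι hιG
  obtain ⟨z₀, hz₀⟩ := isPathConnected_compl_ball.nonempty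
  choose Ψ hΨ hΨl using fun j => Cov.exists_lift hν' (Φ j) z₀ (f j z₀).lb
  have hΨf : ∀ j, EqOn (Ψ j) (fun z => ι (f j z)) {z | 1 ≤ ‖z‖} := fun j => by
    have hp : ∀ z, 1 ≤ ‖z‖ → (Ψ j z).pj = (ι (f j z)).pj := fun z hz => by rw [hΨ, hιp, hΦ j z hz]
    exact (Cov.isCoveringMap hν').eqOn_of_comp_eqOn isPathConnected_compl_ball.isConnected.isPreconnected
      (Ψ j).continuous.continuousOn (ι.continuous.comp_continuousOn (hfc' j)) hp hz₀
      (Cov.ext (hp z₀ hz₀) (by rw [hΨl, hιl]))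
  obtain ⟨d, b, l, hl, hd, hb, hσl, hbd, hR⟩ := gen3
  have hd' : bd d ∈ Sup {z : Fin 3 → ℝ | 1 ≤ ‖z‖} := by
    rw [hbd]
    exact sub_mem (sx_mem_Sup.2 hσl) (Sup_mono inter_subset_right hb)
  have hL := (hA.lift hν' Ψ hΨ).rbasis hR hd'
  have hG : RBasisG G (ι '' univ) univ (fun j => mp (Ψ j) d) := RBasisG.of_rbasis (by
    rw [hU]
    simpa only [og_smul, mp_mp, preimage_univ] using hL)
  have hcor : ∀ j, ∃ a ∈ Sup (ι '' univ), a ∈ Deg 4 ∧ bd (mp (Ψ j) d - a) = lc C2.c2 (s j) := fun j => by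
    have k1 : (Ψ j).comp ((scl l).comp (iot 3)) = ι.comp (σ j) := ContinuousMap.ext fun t =>
      (hΨf j (hσl t)).trans (congrArg ι ((hfr j l _ hl).trans (hfσ j t)))
    have k2 : lc C2.c2 (s j) = mp ι (lc C.c2 (s j)) := by rw [mp_lc hιG, funext e3]
    have k3 : cst 3 (ι e₀) - mp (Ψ j) b = bd (mp (Ψ j) d) - lc C2.c2 (s j) + bd (mp ι (b0 j)) := by
      rw [k2, hb0, bd_mp, bd_mp, hbd, map_sub, map_add, map_sub, mp_sx, mp_sx, k1, mp_cst]
      abel
    have k4 : cst 3 (ι e₀) - mp (Ψ j) b ∈ Sup {ι e₀} :=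
      sub_mem (cst_mem_Sup 3 rfl) (mp_mem_Sup (f := Ψ j) (B := {ι e₀})
        (fun z hz => (hΨf j hz.2).trans (congrArg ι (hfK j z hz.1))) hb)
    obtain ⟨b1, hb1, hb1'⟩ := exists_bd_of_mem_Sup_singleton k4 (by
      rw [k3, map_add, map_sub, bd_bd, bd_bd, k2, bd_mp, hcyc, map_zero, sub_self, add_zero])
    have k5 : b1 - mp ι (b0 j) ∈ Sup (ι '' univ) :=
      sub_mem (Sup_mono (singleton_subset_iff.2 (mem_image_of_mem ι (mem_univ e₀))) hb1)
        (mp_mem_Sup (mapsTo_image ι univ) (by rw [Sup_univ]; trivial))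
    refine ⟨pr 4 (b1 - mp ι (b0 j)), pr_mem_Sup 4 k5, pr_mem_Deg 4 _, ?_⟩
    rw [map_sub, ← pr_bd, map_sub, hb1', k3, add_sub_cancel_right,
      pr_of_mem_Deg (sub_mem (bd_mem_Deg (mp_mem_Deg _ hd)) (lc_mem_Deg C2.deg2 _)), sub_sub_cancel]
  choose a ha hadeg hbda using hcor
  have hG' : RBasisG G (ι '' univ) univ (fun j => mp (Ψ j) d - a j) :=
    hG.congr C2.inv2 (fun _ _ _ => mem_univ _) (subset_univ _) fun j => by
      rw [sub_sub_cancel]
      exact Submodule.mem_sup_right (ha j)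
  exact ⟨X, inferInstance, inferInstance, i, Φ, ν', _,
    ⟨C2, fun j => mp (Ψ j) d - a j, s, fun j => sub_mem (mp_mem_Deg _ hd) (hadeg j), hbda, hG'⟩, hi, hA, hν',
    full_att hi hA isPathConnected_compl_ball hval h₁, faithful_att hi hA isPathConnected_compl_ball hval h₂, e1, e2, rfl⟩

/-- a homotopy equivalence with a finite two-complex gives a presentation realising the data -/
theorem exists_realises {X Y S₀ R₀ J : Type} [Fintype S₀] [DecidableEq S₀] [Fintype R₀] [Fintype J]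
    {gen : S₀ → G} {rel : R₀ → FreeGroup S₀} (hsurj : Function.Surjective (FreeGroup.lift gen))
    (hker : (FreeGroup.lift gen).ker = Subgroup.normalClosure (range rel))
    [TopologicalSpace X] [LocallyPathConnectedSpace X] {ν : PathFun X G} (hν : LocTriv ν)
    [SimplyConnectedSpace (Cov ν)] {U : Set (Cov ν)} (CX : Cell3 G (Cov ν) U Unit S₀ R₀ J)
    (hX1 : CX.m1 = edgeM gen (fun _ => ()) (fun _ => ())) (hX2 : CX.m2 = foxM gen rel)
    [TopologicalSpace Y] (W : W2 Y) [Finite W.V] [Finite W.Ed] [Finite W.Fc] (e : ContinuousMap.HomotopyEquiv Y X) :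
    ∃ (S R : Type) (_ : Fintype S) (_ : DecidableEq S) (_ : Fintype R) (π : S → G) (rl : R → FreeGroup S),
      Realises gen rel CX.m3 π rl := by
  classical
  have := Fintype.ofFinite W.V
  have := Fintype.ofFinite W.Ed
  have := Fintype.ofFinite W.Fc
  have := lpc_W2 W
  obtain ⟨e', he'⟩ := exists_he hν e
  have : SimplyConnectedSpace (Cov (ν.comap e.toFun)) := e'.simplyConnectedSpace_iff.2 inferInstance
  have hν' := hν.comap e.toFun
  obtain ⟨CY, hY1, hY2⟩ := exists_cell2 W hν'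
  obtain ⟨v₀, ω, k1, k2, k3⟩ := exists_pres W hν'
  exact ⟨_, _, inferInstance, inferInstance, inferInstance, _, _,
    realises hsurj hker Cov.free CX hX1 hX2 CY hY1 hY2 e' (by rw [he']; exact cmap_smul _ _) k1 k2 k3⟩

end

end Crest.Agent.R251.Top
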