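import Crest.Agent.R251.Top.Prism

/-!
# Row 251, topology: barycentric subdivision and small chains
-/

set_option autoImplicit false

open Set

namespace Crest.Agent.R251.Top

noncomputable section

variable {X Y : Type} [TopologicalSpace X] [TopologicalSpace Y]

/-- barycentres -/
def bary (m k : ℕ) (v : Fin (k + 1) → Dl m) : Dl m := affD v stdSimplex.barycenter

theorem bary_affD {m n : ℕ} (w : Fin m → Dl n) (k : ℕ) (v : Fin (k + 1) → Dl m) :
    bary n k (affD w ∘ v) = affD w (bary m k v) := by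
  rw [bary, bary, ← affD_comp, ContinuousMap.comp_apply]

/-- subdivision of singular chains -/
def Sd : Ch X →ₗ[ℤ] Ch X := lext fun k σ => mp σ (real (osd (bary k) (ox (vert k))))

/-- the homotopy from the subdivision to the identity -/
def Th : Ch X →ₗ[ℤ] Ch X :=
  lext fun k σ => mp σ (real (amh (bary k) (LinearMap.id - osd (bary k)) (ox (vert k))))

theorem sda_Sd_sx {k : ℕ} (σ : C(Dl k, X)) :
    Sd (sx σ) = mp σ (real (osd (bary k) (ox (vert k)))) := lext_sx _ σ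

theorem sda_Th_sx {k : ℕ} (σ : C(Dl k, X)) :
    Th (sx σ) = mp σ (real (amh (bary k) (LinearMap.id - osd (bary k)) (ox (vert k)))) :=
  lext_sx _ σ

theorem sda_mp_real {k m : ℕ} (w : Fin k → Dl m) (c : OC (Dl k)) :
    mp (affD w) (real c) = real (omp (affD w) c) :=
  mp_real (fun _ v => affD_comp w v) c

theorem sda_omp_vert {k m : ℕ} (w : Fin k → Dl m) : omp (affD w) (ox (vert k)) = ox w := by
  rw [omp, oext_ox]
  congr 1
  exact funext fun i => affD_vertex w i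

theorem sda_sx {k : ℕ} (σ : C(Dl k, X)) : sx σ = mp σ (real (ox (vert k))) := by
  have h : Aff.aff (vert k) = ContinuousMap.id _ := affD_vert k
  rw [real_ox, h, mp_sx, ContinuousMap.comp_id]

theorem Sd_mp (f : C(X, Y)) (c : Ch X) : Sd (mp f c) = mp f (Sd c) := by
  have h : Sd ∘ₗ mp f = mp f ∘ₗ Sd := ch_ext fun k σ => by
    rw [LinearMap.comp_apply, LinearMap.comp_apply, mp_sx, sda_Sd_sx, sda_Sd_sx, mp_mp]
  exact LinearMap.congr_fun h c

theorem Th_mp (f : C(X, Y)) (c : Ch X) : Th (mp f c) = mp f (Th c) := by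
  have h : Th ∘ₗ mp f = mp f ∘ₗ Th := ch_ext fun k σ => by
    rw [LinearMap.comp_apply, LinearMap.comp_apply, mp_sx, sda_Th_sx, sda_Th_sx, mp_mp]
  exact LinearMap.congr_fun h c

theorem Sd_real {m : ℕ} (c : OC (Dl m)) : Sd (real c) = real (osd (bary m) c) := by
  have h : Sd ∘ₗ real = real ∘ₗ osd (bary m) := oc_ext fun k w => by
    rw [LinearMap.comp_apply, LinearMap.comp_apply, real_ox, sda_Sd_sx]
    refine (sda_mp_real w _).trans ?_
    rw [← osd_natural (affD w) (bary_affD w), sda_omp_vert]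
  exact LinearMap.congr_fun h c

theorem Th_real {m : ℕ} (c : OC (Dl m)) :
    Th (real c) = real (amh (bary m) (LinearMap.id - osd (bary m)) c) := by
  have h : Th ∘ₗ real = real ∘ₗ amh (bary m) (LinearMap.id - osd (bary m)) := oc_ext fun k w => by
    rw [LinearMap.comp_apply, LinearMap.comp_apply, real_ox, sda_Th_sx]
    refine (sda_mp_real w _).trans ?_
    rw [← amh_natural (F' := LinearMap.id - osd (bary m)) (affD w) (affD w) (bary_affD w)
      (fun c => by
        rw [LinearMap.sub_apply, LinearMap.sub_apply, map_sub, LinearMap.id_apply,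
          LinearMap.id_apply, osd_natural (affD w) (bary_affD w)]), sda_omp_vert]
  exact LinearMap.congr_fun h c

theorem bd_Sd (c : Ch X) : bd (Sd c) = Sd (bd c) := by
  have h : (bd ∘ₗ Sd : Ch X →ₗ[ℤ] Ch X) = Sd ∘ₗ bd := ch_ext fun k σ => by
    rw [LinearMap.comp_apply, LinearMap.comp_apply, sda_Sd_sx, bd_mp, bd_real, obd_osd, ← Sd_real,
      ← Sd_mp, ← bd_real, ← bd_mp, ← sda_sx]
  exact LinearMap.congr_fun h c

theorem bd_Th (c : Ch X) : bd (Th c) + Th (bd c) = c - Sd c := by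
  have h : (bd ∘ₗ Th + Th ∘ₗ bd : Ch X →ₗ[ℤ] Ch X) = LinearMap.id - Sd := ch_ext fun k σ => by
    have h1 := obd_amh (bary k) (F := LinearMap.id - osd (bary k))
      (fun c => by
        rw [LinearMap.sub_apply, LinearMap.sub_apply, map_sub, LinearMap.id_apply,
          LinearMap.id_apply, obd_osd])
      (fun v => by rw [LinearMap.sub_apply, LinearMap.id_apply, osd_zero, sub_self]) (ox (vert k))
    have h2 : Th (bd (sx σ)) =
        mp σ (real (amh (bary k) (LinearMap.id - osd (bary k)) (obd (ox (vert k))))) := by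
      rw [← Th_real, ← Th_mp, ← bd_real, ← bd_mp, ← sda_sx]
    rw [LinearMap.add_apply, LinearMap.comp_apply, LinearMap.comp_apply, LinearMap.sub_apply,
      LinearMap.id_apply, h2, sda_Th_sx, bd_mp, bd_real, ← map_add, ← map_add, h1,
      LinearMap.sub_apply, LinearMap.id_apply, map_sub, map_sub, ← sda_sx, sda_Sd_sx]
  exact LinearMap.congr_fun h c

theorem Sd_mem_Sup {A : Set X} {c : Ch X} (h : c ∈ Sup A) : Sd c ∈ Sup A := by
  refine (Sup_le (N := (Sup A).comap Sd) fun k σ hσ => ?_) h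
  rw [Submodule.mem_comap, sda_Sd_sx]
  exact mp_mem_Sup (A := univ) (fun t _ => hσ t) (by rw [Sup_univ]; exact Submodule.mem_top)

theorem Th_mem_Sup {A : Set X} {c : Ch X} (h : c ∈ Sup A) : Th c ∈ Sup A := by
  refine (Sup_le (N := (Sup A).comap Th) fun k σ hσ => ?_) h
  rw [Submodule.mem_comap, sda_Th_sx]
  exact mp_mem_Sup (A := univ) (fun t _ => hσ t) (by rw [Sup_univ]; exact Submodule.mem_top)

/-- ordered chains of tuples of length at most `k` and diameter at most `δ` -/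
def OSmall (m k : ℕ) (δ : ℝ) : Submodule ℤ (OC (Dl m)) :=
  Finsupp.supported ℤ ℤ {s : OS (Dl m) | s.1 ≤ k ∧ ∀ i j, dist (s.2 i) (s.2 j) ≤ δ}

theorem sdb_ox_mem {Z : Type} {S : Set (OS Z)} {k : ℕ} {v : Fin k → Z} (h : (⟨k, v⟩ : OS Z) ∈ S) :
    ox v ∈ Finsupp.supported ℤ ℤ S :=
  Finsupp.single_mem_supported ℤ 1 h

theorem sdb_le {Z : Type} {S : Set (OS Z)} {N : Submodule ℤ (OC Z)}
    (h : ∀ k (v : Fin k → Z), (⟨k, v⟩ : OS Z) ∈ S → ox v ∈ N) : Finsupp.supported ℤ ℤ S ≤ N := by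
  rw [Finsupp.supported_eq_span_single, Submodule.span_le]
  rintro _ ⟨⟨k, v⟩, hs, rfl⟩
  exact h k v hs

theorem sdb_dist_affD {k m : ℕ} (v : Fin k → Dl m) (p : Dl m) {r : ℝ} (h : ∀ i, dist p (v i) ≤ r) (t : Dl k) :
    dist p (affD v t) ≤ r := by
  have h1 : (∑ i, t i • (v i : Fin m → ℝ)) ∈ Metric.closedBall (p : Fin m → ℝ) r :=
    (convex_closedBall _ _).sum_mem (fun i _ => t.2.1 i) t.2.2 fun i _ => by
      rw [Metric.mem_closedBall, dist_comm]
      exact h i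
  rw [Metric.mem_closedBall, dist_comm] at h1
  exact h1

theorem sdb_dist_bary {n m : ℕ} (v : Fin (n + 1) → Dl m) {δ : ℝ} (h : ∀ i j, dist (v i) (v j) ≤ δ)
    (i : Fin (n + 1)) : dist (bary m n v) (v i) ≤ (n : ℝ) / (n + 1) * δ := by
  have hn : (0 : ℝ) < n + 1 := by positivity
  have e : ((bary m n v : Dl m) : Fin m → ℝ) - (v i : Fin m → ℝ) =
      ∑ j, ((n : ℝ) + 1)⁻¹ • ((v j : Fin m → ℝ) - (v i : Fin m → ℝ)) := by
    have e1 : ((bary m n v : Dl m) : Fin m → ℝ) = ∑ j, ((n : ℝ) + 1)⁻¹ • (v j : Fin m → ℝ) := by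
      change ∑ j, (stdSimplex.barycenter : Dl (n + 1)) j • (v j : Fin m → ℝ) = _
      refine Finset.sum_congr rfl fun j _ => ?_
      congr 1
      change ((Fintype.card (Fin (n + 1)) : ℝ))⁻¹ = _
      simp
    rw [e1]
    simp only [smul_sub, Finset.sum_sub_distrib, Finset.sum_const, Finset.card_univ, Fintype.card_fin]
    rw [← Nat.cast_smul_eq_nsmul ℝ, smul_smul, Nat.cast_add, Nat.cast_one, mul_inv_cancel₀ hn.ne', one_smul]
  change dist ((bary m n v : Dl m) : Fin m → ℝ) (v i : Fin m → ℝ) ≤ _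
  rw [dist_eq_norm, e, Fin.sum_univ_succAbove _ i, sub_self, smul_zero, zero_add]
  refine (norm_sum_le _ _).trans ?_
  have h2 : ∀ j : Fin n, ‖((n : ℝ) + 1)⁻¹ • ((v (i.succAbove j) : Fin m → ℝ) - (v i : Fin m → ℝ))‖ ≤
      ((n : ℝ) + 1)⁻¹ * δ := fun j => by
    rw [norm_smul, Real.norm_of_nonneg (inv_nonneg.2 hn.le), ← dist_eq_norm]
    exact mul_le_mul_of_nonneg_left (h _ _) (inv_nonneg.2 hn.le)
  refine (Finset.sum_le_sum fun j _ => h2 j).trans (le_of_eq ?_)
  rw [Finset.sum_const, Finset.card_univ, Fintype.card_fin, nsmul_eq_mul, div_eq_mul_inv, mul_assoc]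

theorem sdb_osdS {m k : ℕ} {δ : ℝ} (hδ : 0 ≤ δ) : ∀ (n : ℕ) (v : Fin n → Dl m), n ≤ k →
    (∀ i j, dist (v i) (v j) ≤ δ) → osdS (bary m) n v ∈ Finsupp.supported ℤ ℤ {s : OS (Dl m) | s.1 = n ∧
      (∀ i, s.2 i ∈ range (affD v)) ∧ ∀ i j, dist (s.2 i) (s.2 j) ≤ (k : ℝ) / (k + 1) * δ}
  | 0, v, _, _ => sdb_ox_mem ⟨rfl, fun i => i.elim0, fun i => i.elim0⟩
  | n + 1, v, hn, hv => by
    have hr : (n : ℝ) / (n + 1) * δ ≤ (k : ℝ) / (k + 1) * δ := by
      refine mul_le_mul_of_nonneg_right ?_ hδ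
      have : (n : ℝ) ≤ k := by exact_mod_cast (by omega : n ≤ k)
      rw [div_le_div_iff₀ (by positivity) (by positivity)]
      nlinarith
    have hb : ∀ x ∈ range (affD v), dist (bary m n v) x ≤ (k : ℝ) / (k + 1) * δ := by
      rintro _ ⟨t, rfl⟩
      exact (sdb_dist_affD v _ (sdb_dist_bary v hv) t).trans hr
    have h1 : (∑ i : Fin (n + 1), (-1 : ℤ) ^ (i : ℕ) • osdS (bary m) n (v ∘ Fin.succAbove i)) ∈
        Finsupp.supported ℤ ℤ {s : OS (Dl m) | s.1 = n ∧ (∀ i, s.2 i ∈ range (affD v)) ∧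
          ∀ i j, dist (s.2 i) (s.2 j) ≤ (k : ℝ) / (k + 1) * δ} := by
      refine Submodule.sum_mem _ fun i _ => Submodule.smul_mem _ _ ?_
      refine Finsupp.supported_mono ?_
        (sdb_osdS hδ n (v ∘ Fin.succAbove i) (Nat.le_of_succ_le hn) fun a b => hv _ _)
      rintro s ⟨h1, h2, h3⟩
      refine ⟨h1, fun a => ?_, h3⟩
      obtain ⟨t, ht⟩ := h2 a
      exact ⟨face i t, by rw [← ht, ← affD_face]; rfl⟩
    rw [osdS]
    refine Submodule.mem_comap.1 ((sdb_le fun l w hw => ?_) h1)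
    obtain ⟨rfl, h2, h3⟩ : l = n ∧ (∀ i, w i ∈ range (affD v)) ∧
      ∀ i j, dist (w i) (w j) ≤ (k : ℝ) / (k + 1) * δ := hw
    rw [Submodule.mem_comap, ocone, oext_ox]
    refine sdb_ox_mem ⟨rfl, fun i => ?_, fun i j => ?_⟩
    · refine Fin.cases ?_ (fun i => ?_) i
      · exact ⟨_, rfl⟩
      · exact h2 i
    · refine Fin.cases ?_ (fun i => ?_) i <;> refine Fin.cases ?_ (fun j => ?_) j
      · exact (dist_self _).le.trans (by positivity)
      · exact hb _ (h2 j)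
      · exact (dist_comm _ _).le.trans (hb _ (h2 i))
      · exact h3 i j

/-- Every tuple `w` of `osd (ox v)` has the length of `v`, its points are barycentres of nested sub-tuples of `v`; by induction
prove: same length, every `w i` lies in the convex hull of `range v`, and `dist (w i) (w j) ≤ k / (k + 1) * δ` (the barycentre of
`n ≤ k` points of diameter `≤ δ` is within `(n - 1) / n * δ` of each of them, so of their convex hull). -/
theorem osd_small {m k : ℕ} {δ : ℝ} (hδ : 0 ≤ δ) {c : OC (Dl m)} (h : c ∈ OSmall m k δ) :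
    osd (bary m) c ∈ OSmall m k ((k : ℝ) / (k + 1) * δ) := by
  refine Submodule.mem_comap.1 ((sdb_le fun n v hv => ?_) h)
  rw [Submodule.mem_comap, osd, oext_ox]
  refine Finsupp.supported_mono ?_ (sdb_osdS hδ n v hv.1 hv.2)
  rintro s ⟨h1, -, h3⟩
  exact ⟨h1.le.trans hv.1, h3⟩

theorem sdb_iterate_small {m k : ℕ} {δ : ℝ} (hδ : 0 ≤ δ) {c : OC (Dl m)} (h : c ∈ OSmall m k δ) (n : ℕ) :
    (osd (bary m))^[n] c ∈ OSmall m k (((k : ℝ) / (k + 1)) ^ n * δ) := by
  induction n with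
  | zero => simpa using h
  | succ n ih =>
    rw [Function.iterate_succ_apply', pow_succ', mul_assoc]
    exact osd_small (by positivity) ih

theorem sdb_iterate_sx {k : ℕ} (σ : C(Dl k, X)) (n : ℕ) :
    Sd^[n] (sx σ) = mp σ (real ((osd (bary k))^[n] (ox (vert k)))) := by
  induction n with
  | zero =>
    rw [Function.iterate_zero_apply, Function.iterate_zero_apply, real_ox]
    change _ = mp σ (sx (affD (vert k)))
    rw [affD_vert, mp_sx, ContinuousMap.comp_id]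
  | succ n ih => rw [Function.iterate_succ_apply', Function.iterate_succ_apply', ih, Sd_mp, Sd_real]

theorem sdb_sx_small {ι : Type} [Nonempty ι] {U : Set X} {O : ι → Set X}
    (hO : ∀ i, IsOpen ((Subtype.val : U → X) ⁻¹' O i)) (hc : U ⊆ ⋃ i, O i) {k : ℕ} (σ : C(Dl k, X))
    (hσ : ∀ t, σ t ∈ U) : ∃ n, ∀ n' ≥ n, Sd^[n'] (sx σ) ∈ ⨆ i, Sup (U ∩ O i) := by
  have hV : ∀ i, IsOpen (σ ⁻¹' O i) := fun i =>
    (hO i).preimage (f := fun t => (⟨σ t, hσ t⟩ : U)) (σ.continuous.subtype_mk _)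
  obtain ⟨ε, hε, hL⟩ := lebesgue_number_lemma_of_metric (s := (univ : Set (Dl k))) isCompact_univ hV
    (fun t _ => by simpa using hc (hσ t))
  obtain ⟨D, hD⟩ := Metric.isBounded_range_iff.1 (Set.finite_range (vert k)).isBounded
  have h0 : ox (vert k) ∈ OSmall k k (max D 0) :=
    sdb_ox_mem ⟨le_rfl, fun i j => (hD i j).trans (le_max_left _ _)⟩
  have hq : (k : ℝ) / (k + 1) < 1 := by
    rw [div_lt_one (by positivity)]
    exact lt_add_one _
  have ht := (tendsto_pow_atTop_nhds_zero_of_lt_one (by positivity) hq).mul_const (max D 0)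
  rw [zero_mul] at ht
  obtain ⟨n, hn⟩ := Filter.eventually_atTop.1 (ht.eventually (gt_mem_nhds hε))
  refine ⟨n, fun n' hn' => ?_⟩
  rw [sdb_iterate_sx]
  rw [← LinearMap.comp_apply]
  refine Submodule.mem_comap.1 ((sdb_le fun l w hw => ?_) (sdb_iterate_small (le_max_right _ _) h0 n'))
  rw [Submodule.mem_comap, LinearMap.comp_apply, real_ox, mp_sx]
  cases l with
  | zero =>
    exact Submodule.mem_iSup_of_mem (Classical.arbitrary ι) (sx_mem_Sup.2 fun t => isEmptyElim t)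
  | succ l =>
    obtain ⟨i, hi⟩ := hL (w 0) (mem_univ _)
    refine Submodule.mem_iSup_of_mem i (sx_mem_Sup.2 fun t => ⟨hσ _, hi ?_⟩)
    rw [Metric.mem_ball, dist_comm]
    exact (sdb_dist_affD w (w 0) (hw.2 0) t).trans_lt (hn n' hn')

/-- Lebesgue number: `Sd^[n] (sx σ) = mp σ (real (osd^[n] (ox (vert k))))`. -/
theorem exists_iterate_small {ι : Type} [Nonempty ι] {U : Set X} {O : ι → Set X}
    (hO : ∀ i, IsOpen ((Subtype.val : U → X) ⁻¹' O i)) (hc : U ⊆ ⋃ i, O i) {c : Ch X} (h : c ∈ Sup U) :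
    ∃ n, ∀ n' ≥ n, Sd^[n'] c ∈ ⨆ i, Sup (U ∩ O i) := by
  let N : Submodule ℤ (Ch X) :=
    { carrier := {c | ∃ n, ∀ n' ≥ n, (Sd ^ n') c ∈ ⨆ i, Sup (U ∩ O i)}
      add_mem' := by
        rintro a b ⟨n, hn⟩ ⟨m, hm⟩
        refine ⟨max n m, fun n' h' => ?_⟩
        rw [map_add]
        exact add_mem (hn n' ((le_max_left _ _).trans h')) (hm n' ((le_max_right _ _).trans h'))
      zero_mem' := ⟨0, fun n' _ => by rw [map_zero]; exact zero_mem _⟩
      smul_mem' := by
        rintro r a ⟨n, hn⟩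
        refine ⟨n, fun n' h' => ?_⟩
        rw [map_smul]
        exact Submodule.smul_mem _ _ (hn n' h') }
  have h1 : Sup U ≤ N := Sup_le fun k σ hσ => by
    obtain ⟨n, hn⟩ := sdb_sx_small hO hc σ hσ
    exact ⟨n, fun n' h' => by rw [Module.End.pow_apply]; exact hn n' h'⟩
  obtain ⟨n, hn⟩ := h1 h
  exact ⟨n, fun n' h' => by rw [← Module.End.pow_apply]; exact hn n' h'⟩

/-- **small chains**: `c = Sd^[n] c + bd (T c) + T (bd c)` with `T = ∑_{i<n} Th ∘ Sd^[i]` -/
theorem racyc_cover {ι : Type} [Nonempty ι] {U : Set X} {O : ι → Set X}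
    (hO : ∀ i, IsOpen ((Subtype.val : U → X) ⁻¹' O i)) (hc : U ⊆ ⋃ i, O i) :
    RAcyc bd (⨆ i, Sup (U ∩ O i)) (Sup U) := by
  have hF : ∀ F : Ch X →ₗ[ℤ] Ch X, (∀ A : Set X, ∀ c ∈ Sup A, F c ∈ Sup A) →
      ∀ c ∈ (⨆ i, Sup (U ∩ O i) : Submodule ℤ (Ch X)), F c ∈ ⨆ i, Sup (U ∩ O i) := by
    intro F hF
    have h : (⨆ i, Sup (U ∩ O i) : Submodule ℤ (Ch X)) ≤ Submodule.comap F (⨆ i, Sup (U ∩ O i)) := by
      refine iSup_le fun i a ha => ?_
      rw [Submodule.mem_comap]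
      exact Submodule.mem_iSup_of_mem i (hF _ a ha)
    exact fun c hc => Submodule.mem_comap.1 (h hc)
  have hS := hF Sd fun _ _ h => Sd_mem_Sup h
  have hT := hF Th fun _ _ h => Th_mem_Sup h
  intro c hc0
  have key : ∀ n, Sd^[n] c ∈ Sup U ∧ bd (Sd^[n] c) ∈ (⨆ i, Sup (U ∩ O i) : Submodule ℤ (Ch X)) ∧
      c - Sd^[n] c ∈ RB bd (⨆ i, Sup (U ∩ O i)) (Sup U) := by
    intro n
    induction n with
    | zero => exact ⟨hc0.1, hc0.2, by rw [Function.iterate_zero_apply, sub_self]; exact zero_mem _⟩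
    | succ n ih =>
      obtain ⟨h1, h2, h3⟩ := ih
      rw [Function.iterate_succ_apply']
      refine ⟨Sd_mem_Sup h1, by rw [bd_Sd]; exact hS _ h2, ?_⟩
      rw [← sub_add_sub_cancel c (Sd^[n] c)]
      exact add_mem h3 (mem_RB.2 ⟨_, Th_mem_Sup h1, _, hT _ h2, (bd_Th _).symm⟩)
  obtain ⟨n, hn⟩ := exists_iterate_small hO hc hc0.1
  rw [← sub_add_cancel c (Sd^[n] c)]
  exact add_mem (key n).2.2 (Submodule.mem_sup_right (hn n le_rfl))

theorem racyc_union {O₁ O₂ : Set X} (h₁ : IsOpen O₁) (h₂ : IsOpen O₂) :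
    RAcyc bd (Sup O₁ ⊔ Sup O₂) (Sup (O₁ ∪ O₂)) := by
  have h := racyc_cover (ι := Bool) (U := O₁ ∪ O₂) (O := fun b => cond b O₁ O₂)
    (fun b => by cases b; exacts [h₂.preimage continuous_subtype_val, h₁.preimage continuous_subtype_val])
    (fun x hx => by
      rcases hx with hx | hx
      exacts [mem_iUnion.2 ⟨true, hx⟩, mem_iUnion.2 ⟨false, hx⟩])
  rwa [iSup_bool_eq, cond_true, cond_false, union_inter_cancel_left, union_inter_cancel_right] at h

end

end Crest.Agent.R251.Top
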